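import Vale.Agent.H13.P161.Limit

/-!
Decoding the spins from the observations (strong law of large numbers) and assembling the factor
map.
-/

set_option linter.unusedSectionVars false

namespace Vale.Agent.H13.P161

open MeasureTheory SimpleGraph Filter Topology ProbabilityTheory

variable {V : Type*} {G : SimpleGraph V}

open Classical in
/-- decoder: the spin at `v` is the eventual sign of the partial sums of the observations -/
noncomputable def dec (y : Site V → ℝ) : V → ℤˣ :=
  fun v => if ∀ᶠ n : ℕ in atTop, 0 < ∑ k ∈ Finset.range n, y (k, v) then 1 else -1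

lemma measurable_dec : Measurable (dec : (Site V → ℝ) → V → ℤˣ) := by
  classical
  rw [measurable_pi_iff]
  intro v
  unfold dec
  apply Measurable.ite _ measurable_const measurable_const
  have e : {y : Site V → ℝ | ∀ᶠ n : ℕ in atTop, 0 < ∑ k ∈ Finset.range n, y (k, v)}
      = ⋃ N : ℕ, ⋂ n : ℕ, ⋂ _ : N ≤ n, {y : Site V → ℝ | 0 < ∑ k ∈ Finset.range n, y (k, v)} := by
    ext y
    simp [eventually_atTop]
  rw [e]
  refine MeasurableSet.iUnion (fun N => MeasurableSet.iInter (fun n =>
    MeasurableSet.iInter (fun _ => ?_)))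
  exact measurableSet_lt measurable_const
    (Finset.measurable_sum _ (fun k _ => measurable_pi_apply _))

lemma integral_Qc_mean {c : ℝ} (hc : |c| < 1) : ∫ x : unitInterval, Qc c x = c / 3 := by
  have h := integral_Qc hc (fun z => z)
  rw [h]
  have e : ∀ x : unitInterval, (2 * (x : ℝ) - 1) * (1 + c * (2 * x - 1))
      = (2 * (x : ℝ) - 1) + c * (2 * (x : ℝ) - 1) ^ 2 := fun x => by ring
  simp only [e]
  have n1 : Nice (fun x : unitInterval => 2 * (x : ℝ) - 1) :=
    ⟨(measurable_coe_unit.const_mul 2).sub_const 1, 1, abs_two_mul_sub_one_le⟩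
  rw [n1.integral_add' ((Nice.const c).mul (n1.pow 2)), integral_const_mul, integral_centered,
    integral_centered_sq]
  ring

lemma slln [DecidableEq V] {c : ℝ} (hc : |c| < 1) (v : V) :
    ∀ᵐ ζ ∂(iidLabels (Site V)),
      Tendsto (fun n : ℕ => (∑ k ∈ Finset.range n, Qc c (ζ (k, v))) / n) atTop (𝓝 (c / 3)) := by
  have mq : Measurable (fun x : unitInterval => Qc c x) :=
    measurable_Qc.comp (measurable_const.prodMk measurable_coe_unit)
  have hind : iIndepFun (fun (i : Site V) (ζ : Site V → unitInterval) => Qc c (ζ i))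
      (iidLabels (Site V)) := by
    unfold iidLabels
    exact iIndepFun_infinitePi (P := fun _ : Site V => (volume : Measure unitInterval))
      (X := fun _ x => Qc c x) (fun _ => mq)
  have hinj : Function.Injective (fun k : ℕ => ((k, v) : Site V)) := by
    intro k k' h
    exact (Prod.mk.inj h).1
  have hind2 := hind.precomp hinj
  have hm : ∀ i : Site V, Measurable (fun ζ : Site V → unitInterval => Qc c (ζ i)) :=
    fun i => mq.comp (measurable_pi_apply i)
  have hlaw : ∀ i : Site V, (iidLabels (Site V)).map (fun ζ : Site V → unitInterval => ζ i)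
      = (volume : Measure unitInterval) := fun i =>
    Measure.infinitePi_map_eval (fun _ : Site V => (volume : Measure unitInterval)) i
  have hint : Integrable (fun ζ : Site V → unitInterval => Qc c (ζ (0, v)))
      (iidLabels (Site V)) := by
    have : Nice (fun ζ : Site V → unitInterval => Qc c (ζ (0, v))) :=
      ⟨hm _, 1, fun ζ => abs_Qc_le hc (ζ _).2.1 (ζ _).2.2⟩
    exact this.integrable _
  have hid : ∀ i : ℕ, IdentDistrib (fun ζ : Site V → unitInterval => Qc c (ζ (i, v)))
      (fun ζ : Site V → unitInterval => Qc c (ζ (0, v)))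
      (iidLabels (Site V)) (iidLabels (Site V)) := by
    intro i
    refine ⟨(hm _).aemeasurable, (hm _).aemeasurable, ?_⟩
    have e : ∀ i : Site V, (iidLabels (Site V)).map (fun ζ : Site V → unitInterval => Qc c (ζ i))
        = (volume : Measure unitInterval).map (fun x : unitInterval => Qc c x) := by
      intro i
      rw [← hlaw i, Measure.map_map mq (measurable_pi_apply i)]
      rfl
    rw [e, e]
  have h := strong_law_ae_real (μ := iidLabels (Site V))
    (fun (k : ℕ) (ζ : Site V → unitInterval) => Qc c (ζ (k, v))) hint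
    (fun i j hij => hind2.indepFun hij) hid
  have hmean : ∫ ζ, Qc c (ζ (0, v)) ∂(iidLabels (Site V)) = c / 3 := by
    have e1 : ∫ x, Qc c x ∂((iidLabels (Site V)).map
        (fun ζ : Site V → unitInterval => ζ (0, v)))
        = ∫ ζ, Qc c (ζ (0, v)) ∂(iidLabels (Site V)) :=
      integral_map (measurable_pi_apply ((0, v) : Site V)).aemeasurable mq.aestronglyMeasurable
    rw [← e1, hlaw (0, v), integral_Qc_mean hc]
  rw [hmean] at h
  exact h

lemma dec_Obs [DecidableEq V] [Countable V] {μ : Measure (V → ℤˣ)} [IsProbabilityMeasure μ]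
    {ε : ℝ} (hε0 : 0 < ε) (hε1 : ε < 1) :
    ∀ᵐ p ∂(μ.prod (iidLabels (Site V))), dec (Obs ε p.1 p.2) = p.1 := by
  have h1 : ∀ᵐ ζ ∂(iidLabels (Site V)), ∀ v : V, ∀ s : ℤˣ,
      Tendsto (fun n : ℕ => (∑ k ∈ Finset.range n, Qc (ε * spinVal s) (ζ (k, v))) / n) atTop
        (𝓝 (ε * spinVal s / 3)) := by
    rw [ae_all_iff]
    intro v
    rw [ae_all_iff]
    intro s
    exact slln (spinVal_abs_lt hε0.le hε1 s) v
  have h2 := (Measure.quasiMeasurePreserving_snd (μ := μ) (ν := iidLabels (Site V))).ae h1
  filter_upwards [h2] with p hp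
  ext1 v
  have h3 := hp v (p.1 v)
  unfold dec
  rcases Int.units_eq_one_or (p.1 v) with hs | hs
  · rw [if_pos, hs]
    have hpos : 0 < ε * spinVal (p.1 v) / 3 := by
      rw [hs]; simp [spinVal]; positivity
    filter_upwards [(tendsto_order.mp h3).1 0 hpos, eventually_gt_atTop 0] with n hn hn0
    have hn' : (0 : ℝ) < n := by exact_mod_cast hn0
    exact (div_pos_iff_of_pos_right hn').mp hn
  · rw [if_neg, hs]
    intro hcon
    have hneg : ε * spinVal (p.1 v) / 3 < 0 := by
      rw [hs]
      have : spinVal (-1) = -1 := by simp [spinVal]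
      rw [this]
      linarith
    have h4 := (tendsto_order.mp h3).2 0 hneg
    obtain ⟨n, hn1, hn2, hn3⟩ := (h4.and (hcon.and (eventually_gt_atTop 0))).exists
    have hn' : (0 : ℝ) < n := by exact_mod_cast hn3
    have : 0 < (∑ k ∈ Finset.range n, Qc (ε * spinVal (p.1 v)) (p.2 (k, v))) / n :=
      div_pos hn2 hn'
    linarith

/-! ### Encoding all the randomness in one uniform label per vertex -/

/-- reading off labels and driving noise from a family of uniform variables -/
def splitCfg (w : V × (ℕ × Bool) → unitInterval) : Om V :=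
  (fun i => w (i.2, (i.1, false)), fun i => w (i.2, (i.1, true)))

lemma measurable_splitCfg : Measurable (splitCfg : (V × (ℕ × Bool) → unitInterval) → Om V) := by
  apply Measurable.prodMk
  · rw [measurable_pi_iff]; intro i; exact measurable_pi_apply _
  · rw [measurable_pi_iff]; intro i; exact measurable_pi_apply _

lemma map_splitCfg [DecidableEq V] : (iidLabels (V × (ℕ × Bool))).map splitCfg = PP V := by
  set Q := iidLabels (V × (ℕ × Bool)) with hQ
  set A : Set (V × (ℕ × Bool)) := {p | p.2.2 = true} with hA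
  have : DecidablePred (· ∈ A) := fun p => by
    simp only [hA, Set.mem_ofPred_eq]; infer_instance
  have hmix := measurePreserving_mix
    (fun _ : V × (ℕ × Bool) => (volume : Measure unitInterval)) A
  set f1 : (V × (ℕ × Bool) → unitInterval) → (Site V → unitInterval) :=
    fun w i => w (i.2, (i.1, false)) with hf1
  set f2 : (V × (ℕ × Bool) → unitInterval) → (Site V → unitInterval) :=
    fun w i => w (i.2, (i.1, true)) with hf2
  have mf1 : Measurable f1 := by
    rw [measurable_pi_iff]; intro i; exact measurable_pi_apply _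
  have mf2 : Measurable f2 := by
    rw [measurable_pi_iff]; intro i; exact measurable_pi_apply _
  have inj1 : Function.Injective (fun i : Site V => ((i.2, (i.1, false)) : V × (ℕ × Bool))) := by
    rintro ⟨a, b⟩ ⟨a', b'⟩ h
    simp only [Prod.mk.injEq, and_true] at h
    rw [h.1, h.2]
  have inj2 : Function.Injective (fun i : Site V => ((i.2, (i.1, true)) : V × (ℕ × Bool))) := by
    rintro ⟨a, b⟩ ⟨a', b'⟩ h
    simp only [Prod.mk.injEq, and_true] at h
    rw [h.1, h.2]
  have e1 : Q.map f1 = iidLabels (Site V) :=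
    Measure.map_infinitePi_infinitePi_of_inj
      (P := fun _ : V × (ℕ × Bool) => (volume : Measure unitInterval)) inj1
  have e2 : Q.map f2 = iidLabels (Site V) :=
    Measure.map_infinitePi_infinitePi_of_inj
      (P := fun _ : V × (ℕ × Bool) => (volume : Measure unitInterval)) inj2
  have e3 : (Q.prod Q).map (fun p => mix A p.1 p.2) = Q := hmix.map_eq
  calc Q.map splitCfg = ((Q.prod Q).map (fun p => mix A p.1 p.2)).map splitCfg := by rw [e3]
    _ = (Q.prod Q).map (splitCfg ∘ (fun p => mix A p.1 p.2)) :=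
        Measure.map_map measurable_splitCfg hmix.measurable
    _ = (Q.prod Q).map (Prod.map f1 f2) := by
        congr 1
        ext p : 1
        simp only [Function.comp, splitCfg, mix, hA, Prod.map, hf1, hf2]
        simp
    _ = (Q.map f1).prod (Q.map f2) := (Measure.map_prod_map Q Q mf1 mf2).symm
    _ = PP V := by rw [e1, e2]; rfl

lemma exists_coding (V : Type*) [DecidableEq V] :
    ∃ T : (V → unitInterval) → Om V, Measurable T ∧ (iidLabels V).map T = PP V ∧
      ∀ (G : SimpleGraph V) (g : G ≃g G) (u : V → unitInterval),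
        T (fun v => u (g.symm v)) = act2 g (T u) := by
  obtain ⟨c, mc, hc⟩ := Measure.exists_measurable_map_eq (iidLabels (ℕ × Bool))
  set cfg : (V → unitInterval) → (V × (ℕ × Bool) → unitInterval) :=
    fun u p => c (u p.1) p.2 with hcfg
  have mcfg : Measurable cfg := by
    rw [measurable_pi_iff]
    intro p
    exact (measurable_pi_apply p.2).comp (mc.comp (measurable_pi_apply p.1))
  have hmap : (iidLabels V).map cfg = iidLabels (V × (ℕ × Bool)) := by
    have s1 : (iidLabels V).map (fun (u : V → unitInterval) (v : V) => c (u v))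
        = Measure.infinitePi (fun _ : V => iidLabels (ℕ × Bool)) := by
      have := Measure.infinitePi_map_pi (fun _ : V => (volume : Measure unitInterval))
        (f := fun _ => c) (fun _ => mc)
      simp only [hc] at this
      exact this
    have s2 := Measure.infinitePi_map_curry_symm (ι := V) (κ := ℕ × Bool)
      (fun _ _ => (volume : Measure unitInterval))
    have mcv : Measurable (fun (u : V → unitInterval) (v : V) => c (u v)) := by
      rw [measurable_pi_iff]
      intro v
      exact mc.comp (measurable_pi_apply v)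
    have e : cfg = (MeasurableEquiv.curry V (ℕ × Bool) unitInterval).symm
        ∘ (fun (u : V → unitInterval) (v : V) => c (u v)) := by
      ext u p
      rfl
    rw [e, ← Measure.map_map (MeasurableEquiv.measurable _) mcv, s1]
    exact s2
  refine ⟨splitCfg ∘ cfg, measurable_splitCfg.comp mcfg, ?_, ?_⟩
  · rw [← Measure.map_map measurable_splitCfg mcfg, hmap, map_splitCfg]
  · intro G g u
    rfl

/-- Main assembly: a spin measure satisfying the Markov factorization and invariant under
automorphisms is a factor of IID in the whole subcritical range. -/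
theorem factor_of_edgeFactor [DecidableEq V] [Countable V] [Nonempty V] [LocallyFinite G]
    {μ : Measure (V → ℤˣ)} [IsProbabilityMeasure μ]
    (hG : G.IsTree) {d : ℕ} (hd : 2 ≤ d) (hreg : ∀ v, G.degree v = d)
    {θ : ℝ} (hθ0 : 0 ≤ θ) (hθ : θ < 1 / √((d : ℝ) - 1))
    (hμ : EdgeFactor G θ μ) (hinv : ∀ g : G ≃g G, InvUnder μ g) :
    IsFactorOfIID G μ := by
  have hdd : (2 : ℝ) ≤ d := by exact_mod_cast hd
  have hd1 : (1 : ℝ) ≤ (d : ℝ) - 1 := by linarith
  have hs0 : 0 < √((d : ℝ) - 1) := Real.sqrt_pos.mpr (by linarith)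
  have hs1 : 1 ≤ √((d : ℝ) - 1) := Real.one_le_sqrt.mpr hd1
  have hinv1 : 1 / √((d : ℝ) - 1) ≤ 1 := (div_le_one hs0).mpr hs1
  have hθ1 : θ ≤ 1 := (hθ.trans_le hinv1).le
  obtain ⟨ρ, hθρ, hρs⟩ := exists_between hθ
  have hρ0 : 0 < ρ := lt_of_le_of_lt hθ0 hθρ
  have hρ1 : ((d : ℝ) - 1) * ρ ^ 2 < 1 := by
    have h1 : ρ * √((d : ℝ) - 1) < 1 := (lt_div_iff₀ hs0).mp hρs
    have h2 : (ρ * √((d : ℝ) - 1)) ^ 2 < 1 := by
      have h0 : 0 ≤ ρ * √((d : ℝ) - 1) := by positivity
      nlinarith
    rw [mul_pow, Real.sq_sqrt (by linarith)] at h2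
    linarith
  have hρ : ((d : ℝ) - 1) * (θ * ρ) < 1 := by
    have : θ * ρ ≤ ρ ^ 2 := by nlinarith
    nlinarith
  set C1 : ℝ := 2 / (1 - ((d : ℝ) - 1) * (θ * ρ)) / (1 - θ / ρ) with hC1
  have hC10 : 0 < C1 := by
    have h1 : 0 < 1 - θ / ρ := by
      have := (div_lt_one hρ0).mpr hθρ
      linarith
    have h2 : 0 < 1 - ((d : ℝ) - 1) * (θ * ρ) := by linarith
    positivity
  set ε : ℝ := min (1 / 2) (1 / (4 * (C1 + 1))) with hε
  have hεpos : 0 < ε := lt_min (by norm_num) (by positivity)
  have hεhalf : ε ≤ 1 / 2 := min_le_left _ _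
  have hεC : ε ≤ 1 / (4 * (C1 + 1)) := min_le_right _ _
  have hε1 : ε < 1 := by linarith
  have hκ : ε / 4 * (ε / (1 - ε) ^ 2) * (2 / (1 - ε)) * 2 * C1 ≤ 1 / 2 := by
    have h1 : 1 / 2 ≤ 1 - ε := by linarith
    have h2 : ε / (1 - ε) ^ 2 ≤ ε * 4 := by
      have h21 : (1 / 4 : ℝ) ≤ (1 - ε) ^ 2 := by nlinarith
      rw [div_le_iff₀ (by positivity)]
      nlinarith
    have h3 : 2 / (1 - ε) ≤ 4 := by
      rw [div_le_iff₀ (by linarith)]
      linarith
    have h4 : ε / 4 * (ε / (1 - ε) ^ 2) * (2 / (1 - ε)) * 2 * C1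
        ≤ ε / 4 * (ε * 4) * 4 * 2 * C1 := by
      have h5 : 0 ≤ 2 / (1 - ε) := by positivity
      gcongr
    have h6 : ε * (4 * (C1 + 1)) ≤ 1 := by
      rw [le_div_iff₀ (by positivity)] at hεC
      exact hεC
    have h7 : ε / 4 * (ε * 4) * 4 * 2 * C1 = 8 * (ε * ε) * C1 := by ring
    rw [h7] at h4
    have h8 : ε * C1 ≤ 1 / 4 := by nlinarith
    have h9 : ε * (ε * C1) ≤ ε * (1 / 4) := mul_le_mul_of_nonneg_left h8 hεpos.le
    have h10 : ε ≤ 1 / 4 := by nlinarith
    nlinarith
  -- Cauchy property
  have hnet : NetCauchy μ ε := fun i δ hδ =>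
    cauchy_net hεpos.le hε1 hG hd hreg hθ0 hθ1 hθρ hρ hρ1 hμ hκ i hδ
  obtain ⟨T, hex, hT⟩ := exists_seq hnet
  have hconv := ae_tendsto_Lm hεpos.le hε1 hT
  have hlaw := law_Lm hεpos.le hε1 hex hconv
  obtain ⟨cod, mcod, hcod, hcodg⟩ := exists_coding V
  have mL := measurable_Lm (μ := μ) hεpos.le hε1 T
  refine ⟨fun u => dec (Lm μ ε T (cod u)), ?_, ?_, ?_⟩
  · exact measurable_dec.comp (mL.comp mcod)
  · have e1 : (iidLabels V).map (fun u => dec (Lm μ ε T (cod u)))
        = (((iidLabels V).map cod).map (Lm μ ε T)).map dec := by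
      rw [Measure.map_map mL mcod, Measure.map_map measurable_dec (mL.comp mcod)]
      rfl
    rw [e1, hcod, hlaw, Measure.map_map measurable_dec (measurable_Obs ε)]
    have e2 : (μ.prod (iidLabels (Site V))).map (dec ∘ fun p => Obs ε p.1 p.2)
        = (μ.prod (iidLabels (Site V))).map Prod.fst :=
      Measure.map_congr (dec_Obs hεpos hε1)
    rw [e2, Measure.map_fst_prod]
    simp
  · intro g
    have h1 := Lm_act (μ := μ) g hεpos.le hε1 (hinv g) hnet hex hconv
    rw [← hcod] at h1
    have h2 := ae_of_ae_map mcod.aemeasurable h1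
    filter_upwards [h2] with u hu
    ext1 v
    show dec (Lm μ ε T (cod (fun v => u (g.symm v)))) v = dec (Lm μ ε T (cod u)) (g.symm v)
    rw [hcodg G g u]
    have e : ∀ k : ℕ, Lm μ ε T (act2 g (cod u)) (k, v) = Lm μ ε T (cod u) (k, g.symm v) := by
      intro k
      have := hu (k, g.symm v)
      rw [← this]
      congr 1
      ext
      · rfl
      · simp [sg]
    have key : ∀ (y y' : Site V → ℝ) (v v' : V),
        (∀ k : ℕ, y (k, v) = y' (k, v')) → dec y v = dec y' v' := by
      intro y y' v v' h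
      have e2 : ∀ n : ℕ, ∑ k ∈ Finset.range n, y (k, v) = ∑ k ∈ Finset.range n, y' (k, v') :=
        fun n => Finset.sum_congr rfl (fun k _ => h k)
      have e3 : (∀ᶠ n : ℕ in atTop, 0 < ∑ k ∈ Finset.range n, y (k, v))
          ↔ (∀ᶠ n : ℕ in atTop, 0 < ∑ k ∈ Finset.range n, y' (k, v')) := by
        simp only [e2]
      unfold dec
      by_cases hh : ∀ᶠ n : ℕ in atTop, 0 < ∑ k ∈ Finset.range n, y (k, v)
      · rw [if_pos hh, if_pos (e3.mp hh)]
      · rw [if_neg hh, if_neg (fun h' => hh (e3.mpr h'))]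
    exact key _ _ v (g.symm v) e

end Vale.Agent.H13.P161
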