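import Vale.Agent.H13.P161.Cov

/-!
The broadcast construction of the free Ising measure on a tree and its Markov property.
-/

set_option linter.unusedSectionVars false

namespace Vale.Agent.H13.P161

open MeasureTheory SimpleGraph

/-- the law of a spin with mean `t` -/
noncomputable def coin (t : ℝ) : Measure ℤˣ :=
  ENNReal.ofReal ((1 + t) / 2) • Measure.dirac 1 + ENNReal.ofReal ((1 - t) / 2) • Measure.dirac (-1)

lemma isProb_coin {t : ℝ} (h : |t| ≤ 1) : IsProbabilityMeasure (coin t) := by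
  have h1 := abs_le.mp h
  refine ⟨?_⟩
  simp only [coin, Measure.add_apply, Measure.smul_apply, measure_univ, smul_eq_mul, mul_one]
  rw [← ENNReal.ofReal_add (by linarith) (by linarith)]
  have : (1 + t) / 2 + (1 - t) / 2 = 1 := by ring
  rw [this, ENNReal.ofReal_one]

lemma integral_coin {t : ℝ} (h : |t| ≤ 1) (f : ℤˣ → ℝ) :
    ∫ s, f s ∂(coin t) = (1 + t) / 2 * f 1 + (1 - t) / 2 * f (-1) := by
  have h1 := abs_le.mp h
  unfold coin
  have i1 : Integrable f (ENNReal.ofReal ((1 + t) / 2) • Measure.dirac (1 : ℤˣ)) :=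
    (Integrable.of_finite).smul_measure ENNReal.ofReal_ne_top
  have i2 : Integrable f (ENNReal.ofReal ((1 - t) / 2) • Measure.dirac (-1 : ℤˣ)) :=
    (Integrable.of_finite).smul_measure ENNReal.ofReal_ne_top
  rw [integral_add_measure i1 i2, integral_smul_measure, integral_smul_measure, integral_dirac,
    integral_dirac, ENNReal.toReal_ofReal (by linarith), ENNReal.toReal_ofReal (by linarith)]
  simp

lemma integral_coin_spin {t : ℝ} (h : |t| ≤ 1) : ∫ s, spinVal s ∂(coin t) = t := by
  rw [integral_coin h]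
  simp only [spinVal]
  push_cast
  simp
  ring

lemma spinVal_mul (s t : ℤˣ) : spinVal (s * t) = spinVal s * spinVal t := by
  simp [spinVal]

lemma units_mul_self' (s : ℤˣ) : s * s = 1 := Int.units_mul_self s

section Broadcast

variable {V : Type*} (G : SimpleGraph V) (o : V)

open Classical in
/-- one step from `v` towards `o` -/
noncomputable def par (v : V) : V :=
  if h : ∃ w, G.Adj v w ∧ G.dist o v = G.dist o w + 1 then h.choose else v

variable {G o}

lemma par_spec (hG : G.Connected) {v : V} (hv : v ≠ o) :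
    G.Adj v (par G o v) ∧ G.dist o v = G.dist o (par G o v) + 1 := by
  have h : ∃ w, G.Adj v w ∧ G.dist o v = G.dist o w + 1 := exists_parent hG (Ne.symm hv)
  unfold par
  rw [dif_pos h]
  exact h.choose_spec

variable (G o)

/-- auxiliary recursion for the broadcast -/
noncomputable def bcastAux (η : V → ℤˣ) : ℕ → V → ℤˣ
  | 0, v => η v
  | n + 1, v => η v * bcastAux η n (par G o v)

/-- the broadcast configuration: the product of the increments along the path from `o` -/
noncomputable def bcast (η : V → ℤˣ) (v : V) : ℤˣ := bcastAux G o η (G.dist o v) v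

variable {G o}

lemma bcast_root (η : V → ℤˣ) : bcast G o η o = η o := by
  simp [bcast, bcastAux]

lemma bcast_step (hG : G.Connected) (η : V → ℤˣ) {v : V} (hv : v ≠ o) :
    bcast G o η v = η v * bcast G o η (par G o v) := by
  unfold bcast
  rw [(par_spec hG hv).2]
  rfl

lemma bcast_induction (hG : G.Connected) {P : V → Prop} (h0 : P o)
    (hs : ∀ v, v ≠ o → P (par G o v) → P v) : ∀ v, P v := by
  have : ∀ (n : ℕ) (v : V), G.dist o v = n → P v := by
    intro n
    induction n with
    | zero =>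
      intro v hv
      have : o = v := (hG.dist_eq_zero_iff).mp hv
      rw [← this]; exact h0
    | succ n ih =>
      intro v hv
      have hne : v ≠ o := by
        rintro rfl
        simp at hv
      have hp := par_spec hG hne
      exact hs v hne (ih _ (by omega))
  intro v
  exact this _ v rfl

lemma measurable_bcast (hG : G.Connected) : Measurable (bcast G o) := by
  rw [measurable_pi_iff]
  apply bcast_induction (o := o) hG (P := fun v => Measurable (fun η : V → ℤˣ => bcast G o η v))
  · simp only [bcast_root]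
    exact measurable_pi_apply o
  · intro v hv ih
    simp only [bcast_step hG _ hv]
    exact (measurable_of_finite (fun p : ℤˣ × ℤˣ => p.1 * p.2)).comp
      ((measurable_pi_apply v).prodMk ih)

lemma bcast_congr_a (hG : G.IsTree) {a b : V} (hab : G.Adj a b)
    (ho : G.dist o a < G.dist o b) {η η' : V → ℤˣ}
    (h : ∀ x, G.dist x a < G.dist x b → η x = η' x) :
    ∀ x, G.dist x a < G.dist x b → bcast G o η x = bcast G o η' x := by
  apply bcast_induction (o := o) hG.connected
    (P := fun x => G.dist x a < G.dist x b → bcast G o η x = bcast G o η' x)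
  · intro hx
    rw [bcast_root, bcast_root]
    exact h _ hx
  · intro x hx ih hxa
    have hp := par_spec hG.connected hx
    rw [bcast_step hG.connected _ hx, bcast_step hG.connected _ hx, h x hxa]
    rw [ih ?_]
    by_contra hcon
    have hne := hG.dist_ne_of_adj (par G o x) hab
    have h2 : G.dist (par G o x) b < G.dist (par G o x) a := by omega
    obtain ⟨e1, e2⟩ := side_adj hG hab hxa h2 hp.1
    have := hp.2
    rw [e2, e1] at this
    omega

lemma par_b (hG : G.IsTree) {a b : V} (hab : G.Adj a b) (ho : G.dist o a < G.dist o b) :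
    b ≠ o ∧ par G o b = a := by
  have hne : b ≠ o := by
    rintro rfl
    simp at ho
  have hp := par_spec hG.connected hne
  have h1 := hG.dist_eq_dist_add_one_of_adj o hab
  exact ⟨hne, parent_unique hG hp.1 hab.symm hp.2 (by omega)⟩

lemma bcast_b (hG : G.IsTree) {a b : V} (hab : G.Adj a b)
    (ho : G.dist o a < G.dist o b) {η η' : V → ℤˣ}
    (h : ∀ x, G.dist x b < G.dist x a → x ≠ b → η x = η' x) :
    ∀ x, G.dist x b < G.dist x a →
      bcast G o η x * bcast G o η b = bcast G o η' x * bcast G o η' b := by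
  apply bcast_induction (o := o) hG.connected
    (P := fun x => G.dist x b < G.dist x a →
      bcast G o η x * bcast G o η b = bcast G o η' x * bcast G o η' b)
  · intro hx
    omega
  · intro x hx ih hxb
    by_cases hxb' : x = b
    · subst hxb'
      rw [units_mul_self', units_mul_self']
    · have hp := par_spec hG.connected hx
      rw [bcast_step hG.connected _ hx, bcast_step hG.connected _ hx, h x hxb hxb', mul_assoc,
        mul_assoc, ih ?_]
      by_contra hcon
      have hne := hG.dist_ne_of_adj (par G o x) hab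
      have h2 : G.dist (par G o x) a < G.dist (par G o x) b := by omega
      obtain ⟨e1, e2⟩ := side_adj hG hab h2 hxb hp.1.symm
      exact hxb' e2

variable [DecidableEq V]

variable (o) in
/-- the laws of the increments -/
noncomputable def incLaw (θ : ℝ) : V → Measure ℤˣ := fun v => coin (if v = o then 0 else θ)

lemma isProb_incLaw {θ : ℝ} (h : |θ| ≤ 1) (v : V) : IsProbabilityMeasure (incLaw o θ v) := by
  unfold incLaw
  split_ifs
  · exact isProb_coin (by simp)
  · exact isProb_coin h

lemma bcast_update_root (hG : G.Connected) (ξ : V → ℤˣ) (x : ℤˣ) :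
    ∀ v, bcast G o (Function.update ξ o x) v = x * (ξ o * bcast G o ξ v) := by
  apply bcast_induction (o := o) hG
    (P := fun v => bcast G o (Function.update ξ o x) v = x * (ξ o * bcast G o ξ v))
  · rw [bcast_root, bcast_root, units_mul_self']
    simp
  · intro v hv ih
    rw [bcast_step hG _ hv, bcast_step hG _ hv, ih, Function.update_of_ne hv]
    ac_rfl

lemma integral_bcast_spin (hG : G.Connected) {θ : ℝ} (hθ : |θ| ≤ 1) (v : V) :
    ∫ ξ, spinVal (bcast G o ξ v) ∂(Measure.infinitePi (incLaw o θ)) = 0 := by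
  have hp : ∀ v, IsProbabilityMeasure (incLaw o θ v) := isProb_incLaw hθ
  have hN : Nice (fun ξ : V → ℤˣ => spinVal (bcast G o ξ v)) :=
    (nice_spin v).comp (measurable_bcast hG)
  rw [integral_update (incLaw o θ) o hN]
  have h0 : ∫ x, spinVal x ∂(incLaw o θ o) = 0 := by
    simp only [incLaw, if_true]
    exact integral_coin_spin (by simp)
  have e : ∀ ξ : V → ℤˣ, ∫ x, spinVal (bcast G o (Function.update ξ o x) v) ∂(incLaw o θ o) = 0 := by
    intro ξ
    simp only [bcast_update_root hG, spinVal_mul]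
    rw [integral_mul_const, h0, zero_mul]
  simp only [e, integral_zero]

/-- one step of the broadcast across the edge `a b` -/
lemma integral_bcast_edge (hG : G.IsTree) {θ : ℝ} (hθ : |θ| ≤ 1) {a b : V} (hab : G.Adj a b)
    (ho : G.dist o a < G.dist o b) {F : (V → ℤˣ) → ℝ} (hF : Nice F)
    (hFd : ∀ σ σ' : V → ℤˣ, (∀ x, G.dist x a < G.dist x b → σ x = σ' x) → F σ = F σ') :
    ∫ ξ, F (bcast G o ξ) * spinVal (bcast G o ξ b) ∂(Measure.infinitePi (incLaw o θ))
      = θ * ∫ ξ, F (bcast G o ξ) * spinVal (bcast G o ξ a) ∂(Measure.infinitePi (incLaw o θ)) := by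
  have hp : ∀ v, IsProbabilityMeasure (incLaw o θ v) := isProb_incLaw hθ
  have mb : Measurable (bcast G o) := measurable_bcast hG.connected
  have hN : Nice (fun ξ : V → ℤˣ => F (bcast G o ξ) * spinVal (bcast G o ξ b)) :=
    (hF.mul (nice_spin b)).comp mb
  obtain ⟨hbo, hpar⟩ := par_b hG hab ho
  rw [integral_update (incLaw o θ) b hN]
  have hb : ¬ G.dist b a < G.dist b b := by simp
  have haa : G.dist a a < G.dist a b := by
    have : G.dist a b = 1 := dist_eq_one_iff_adj.mpr hab
    simp [this]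
  have e1 : ∀ (ξ : V → ℤˣ) (x : ℤˣ), ∀ y, G.dist y a < G.dist y b →
      bcast G o (Function.update ξ b x) y = bcast G o ξ y := by
    intro ξ x
    apply bcast_congr_a hG hab ho
    intro y hy
    have : y ≠ b := by
      rintro rfl
      exact hb hy
    rw [Function.update_of_ne this]
  have e2 : ∀ (ξ : V → ℤˣ) (x : ℤˣ),
      bcast G o (Function.update ξ b x) b = x * bcast G o ξ a := by
    intro ξ x
    rw [bcast_step hG.connected _ hbo, hpar, e1 ξ x a haa]
    simp
  have e3 : ∀ (ξ : V → ℤˣ) (x : ℤˣ),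
      F (bcast G o (Function.update ξ b x)) = F (bcast G o ξ) := fun ξ x => hFd _ _ (e1 ξ x)
  have h0 : ∫ x, spinVal x ∂(incLaw o θ b) = θ := by
    simp only [incLaw, if_neg hbo]
    exact integral_coin_spin hθ
  have e4 : ∀ ξ : V → ℤˣ, ∫ x, F (bcast G o (Function.update ξ b x))
      * spinVal (bcast G o (Function.update ξ b x) b) ∂(incLaw o θ b)
      = θ * (F (bcast G o ξ) * spinVal (bcast G o ξ a)) := by
    intro ξ
    simp only [e2, e3, spinVal_mul]
    rw [integral_const_mul, integral_mul_const, h0]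
    ring
  simp only [e4]
  rw [integral_const_mul]

/-- resampling everything strictly beyond `b` -/
lemma integral_bcast_beyond (hG : G.IsTree) {θ : ℝ} (hθ : |θ| ≤ 1) {a b : V} (hab : G.Adj a b)
    (ho : G.dist o a < G.dist o b) {H : (V → ℤˣ) → ℝ} (hH : Nice H)
    (hHd : ∀ σ σ' : V → ℤˣ, (∀ x, G.dist x b < G.dist x a → σ x = σ' x) → H σ = H σ') :
    ∃ α γ : ℝ, ∀ F : (V → ℤˣ) → ℝ, Nice F →
      (∀ σ σ' : V → ℤˣ, (∀ x, G.dist x a < G.dist x b → σ x = σ' x) → σ b = σ' b → F σ = F σ') →
      ∫ ξ, F (bcast G o ξ) * H (bcast G o ξ) ∂(Measure.infinitePi (incLaw o θ))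
        = α * ∫ ξ, F (bcast G o ξ) ∂(Measure.infinitePi (incLaw o θ))
          + γ * ∫ ξ, F (bcast G o ξ) * spinVal (bcast G o ξ b)
              ∂(Measure.infinitePi (incLaw o θ)) := by
  classical
  have hp : ∀ v, IsProbabilityMeasure (incLaw o θ v) := isProb_incLaw hθ
  have mb : Measurable (bcast G o) := measurable_bcast hG.connected
  set h : ℤˣ → ℝ := fun s => ∫ ξ', H (fun x => s * (bcast G o ξ' x * bcast G o ξ' b))
    ∂(Measure.infinitePi (incLaw o θ)) with hh
  have hlin : ∀ s, h s = (h 1 + h (-1)) / 2 + (h 1 - h (-1)) / 2 * spinVal s := by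
    intro s
    rcases Int.units_eq_one_or s with hs | hs
    · rw [hs]; simp [spinVal]; ring
    · rw [hs]; simp [spinVal]; ring
  refine ⟨(h 1 + h (-1)) / 2, (h 1 - h (-1)) / 2, ?_⟩
  intro F hF hFd
  obtain ⟨hbo, hpar⟩ := par_b hG hab ho
  set A : Set V := {x | G.dist x b < G.dist x a ∧ x ≠ b} with hA
  have hN : Nice (fun ξ : V → ℤˣ => F (bcast G o ξ) * H (bcast G o ξ)) := (hF.mul hH).comp mb
  rw [integral_mix (incLaw o θ) A hN]
  have haa : G.dist a a < G.dist a b := by
    have : G.dist a b = 1 := dist_eq_one_iff_adj.mpr hab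
    simp [this]
  have m1 : ∀ (ξ ξ' : V → ℤˣ) (x : V), G.dist x a < G.dist x b → mix A ξ ξ' x = ξ x := by
    intro ξ ξ' x hx
    have : x ∉ A := by
      intro hxA
      have := hxA.1
      omega
    simp only [mix, if_neg this]
  have m2 : ∀ (ξ ξ' : V → ℤˣ), mix A ξ ξ' b = ξ b := by
    intro ξ ξ'
    have : b ∉ A := fun hbA => hbA.2 rfl
    simp only [mix, if_neg this]
  have m3 : ∀ (ξ ξ' : V → ℤˣ) (x : V), G.dist x b < G.dist x a → x ≠ b →
      mix A ξ ξ' x = ξ' x := by
    intro ξ ξ' x hx hxb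
    have : x ∈ A := ⟨hx, hxb⟩
    simp only [mix, if_pos this]
  have e1 : ∀ (ξ ξ' : V → ℤˣ) (y : V), G.dist y a < G.dist y b →
      bcast G o (mix A ξ ξ') y = bcast G o ξ y := by
    intro ξ ξ'
    exact bcast_congr_a hG hab ho (m1 ξ ξ')
  have e2 : ∀ (ξ ξ' : V → ℤˣ), bcast G o (mix A ξ ξ') b = bcast G o ξ b := by
    intro ξ ξ'
    rw [bcast_step hG.connected _ hbo, bcast_step hG.connected _ hbo, hpar, e1 ξ ξ' a haa, m2]
  have e3 : ∀ (ξ ξ' : V → ℤˣ) (y : V), G.dist y b < G.dist y a →
      bcast G o (mix A ξ ξ') y = bcast G o ξ b * (bcast G o ξ' y * bcast G o ξ' b) := by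
    intro ξ ξ' y hy
    have := bcast_b hG hab ho (m3 ξ ξ') y hy
    rw [e2] at this
    rw [← this]
    calc bcast G o (mix A ξ ξ') y = bcast G o (mix A ξ ξ') y * (bcast G o ξ b * bcast G o ξ b) := by
          rw [units_mul_self', mul_one]
      _ = _ := by ac_rfl
  have e4 : ∀ (ξ ξ' : V → ℤˣ), F (bcast G o (mix A ξ ξ')) = F (bcast G o ξ) := fun ξ ξ' =>
    hFd _ _ (e1 ξ ξ') (e2 ξ ξ')
  have e5 : ∀ (ξ ξ' : V → ℤˣ), H (bcast G o (mix A ξ ξ'))
      = H (fun x => bcast G o ξ b * (bcast G o ξ' x * bcast G o ξ' b)) := fun ξ ξ' =>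
    hHd _ _ (e3 ξ ξ')
  simp only [e4, e5]
  have e6 : ∀ ξ : V → ℤˣ, ∫ ξ', F (bcast G o ξ)
      * H (fun x => bcast G o ξ b * (bcast G o ξ' x * bcast G o ξ' b))
        ∂(Measure.infinitePi (incLaw o θ))
      = (h 1 + h (-1)) / 2 * F (bcast G o ξ)
        + (h 1 - h (-1)) / 2 * (F (bcast G o ξ) * spinVal (bcast G o ξ b)) := by
    intro ξ
    rw [integral_const_mul]
    have : ∫ ξ', H (fun x => bcast G o ξ b * (bcast G o ξ' x * bcast G o ξ' b))
        ∂(Measure.infinitePi (incLaw o θ)) = h (bcast G o ξ b) := rfl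
    rw [this, hlin]
    ring
  simp only [e6]
  have n1 : Nice (fun ξ : V → ℤˣ => F (bcast G o ξ)) := hF.comp mb
  have n2 : Nice (fun ξ : V → ℤˣ => F (bcast G o ξ) * spinVal (bcast G o ξ b)) :=
    (hF.mul (nice_spin b)).comp mb
  rw [((Nice.const _).mul n1).integral_add' ((Nice.const _).mul n2), integral_const_mul,
    integral_const_mul]

variable (G o) in
/-- the broadcast measure with root `o` -/
noncomputable def bcMeasure (θ : ℝ) : Measure (V → ℤˣ) :=
  (Measure.infinitePi (incLaw o θ)).map (bcast G o)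

lemma isProb_bcMeasure (hG : G.Connected) {θ : ℝ} (hθ : |θ| ≤ 1) :
    IsProbabilityMeasure (bcMeasure G o θ) := by
  have hp : ∀ v, IsProbabilityMeasure (incLaw o θ v) := isProb_incLaw hθ
  exact Measure.isProbabilityMeasure_map (measurable_bcast hG).aemeasurable

lemma integral_bcMeasure (hG : G.Connected) {θ : ℝ} {f : (V → ℤˣ) → ℝ} (hf : Nice f) :
    ∫ σ, f σ ∂(bcMeasure G o θ) = ∫ ξ, f (bcast G o ξ) ∂(Measure.infinitePi (incLaw o θ)) := by
  unfold bcMeasure
  rw [integral_map (measurable_bcast hG).aemeasurable hf.1.aestronglyMeasurable]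

lemma bcMeasure_spin (hG : G.Connected) {θ : ℝ} (hθ : |θ| ≤ 1) (v : V) :
    ∫ σ, spinVal (σ v) ∂(bcMeasure G o θ) = 0 := by
  rw [integral_bcMeasure hG (nice_spin v)]
  exact integral_bcast_spin hG hθ v

lemma edgeFactor_aux (hG : G.IsTree) {θ : ℝ} (hθ : |θ| ≤ 1) {a b : V} (hab : G.Adj a b)
    (ho : G.dist o a < G.dist o b) {F H : (V → ℤˣ) → ℝ} (hF : Nice F) (hH : Nice H)
    (hFd : ∀ σ σ' : V → ℤˣ, (∀ x, G.dist x a < G.dist x b → σ x = σ' x) → F σ = F σ')
    (hHd : ∀ σ σ' : V → ℤˣ, (∀ x, G.dist x b < G.dist x a → σ x = σ' x) → H σ = H σ') :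
    ∫ σ, F σ * H σ ∂(bcMeasure G o θ)
      = (∫ σ, F σ ∂(bcMeasure G o θ)) * (∫ σ, H σ ∂(bcMeasure G o θ))
      + θ * (∫ σ, F σ * spinVal (σ a) ∂(bcMeasure G o θ))
        * (∫ σ, H σ * spinVal (σ b) ∂(bcMeasure G o θ)) := by
  have hp : ∀ v, IsProbabilityMeasure (incLaw o θ v) := isProb_incLaw hθ
  have hc := hG.connected
  rw [integral_bcMeasure hc (hF.mul hH), integral_bcMeasure hc hF, integral_bcMeasure hc hH,
    integral_bcMeasure hc (hF.mul (nice_spin a)), integral_bcMeasure hc (hH.mul (nice_spin b))]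
  obtain ⟨α, γ, hαγ⟩ := integral_bcast_beyond hG hθ hab ho hH hHd
  have h1 := hαγ F hF (fun σ σ' h _ => hFd σ σ' h)
  have h2 := hαγ (fun _ => 1) (Nice.const 1) (fun _ _ _ _ => rfl)
  have h3 := hαγ (fun σ => spinVal (σ b)) (nice_spin b) (fun σ σ' _ h => by rw [h])
  have h4 := integral_bcast_edge hG hθ hab ho hF hFd
  simp only [one_mul, integral_bcast_spin hc hθ b, mul_zero, add_zero] at h2
  simp only [integral_const, smul_eq_mul, mul_one] at h2
  simp only [integral_bcast_spin hc hθ b, mul_zero, zero_add, spinVal_mul_self] at h3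
  simp only [integral_const, smul_eq_mul, mul_one] at h3
  have h5 : ∫ ξ, H (bcast G o ξ) * spinVal (bcast G o ξ b) ∂(Measure.infinitePi (incLaw o θ))
      = ∫ ξ, spinVal (bcast G o ξ b) * H (bcast G o ξ) ∂(Measure.infinitePi (incLaw o θ)) := by
    congr 1
    ext ξ
    ring
  rw [h1, h4, h5, h3, h2]
  simp
  ring

lemma edgeFactor_bcMeasure (hG : G.IsTree) {θ : ℝ} (hθ : |θ| ≤ 1) :
    EdgeFactor G θ (bcMeasure G o θ) := by
  intro a b hab F H hF hH hFd hHd
  have hne := hG.dist_ne_of_adj o hab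
  rcases lt_or_gt_of_ne hne with h | h
  · exact edgeFactor_aux hG hθ hab h hF hH hFd hHd
  · have := edgeFactor_aux hG hθ hab.symm h hH hF hHd hFd
    have e : ∫ σ, F σ * H σ ∂(bcMeasure G o θ) = ∫ σ, H σ * F σ ∂(bcMeasure G o θ) := by
      congr 1
      ext σ
      ring
    rw [e, this]
    ring

end Broadcast

end Vale.Agent.H13.P161
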