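import Vale.Agent.H13.P161.Nice

/-!
The soft observation channel: density `(1 + c y)/2` on `[-1,1]`, its distribution function `Fc`
and quantile function `Qc`.
-/

namespace Vale.Agent.H13.P161

open MeasureTheory

/-- quantile function of the density `(1 + c y)/2` on `[-1,1]` -/
noncomputable def Qc (c x : ℝ) : ℝ := (4 * x - 2 + c) / (1 + √((1 - c) ^ 2 + 4 * c * x))

/-- distribution function of the density `(1 + c y)/2` on `[-1,1]` -/
noncomputable def Fc (c y : ℝ) : ℝ := (y + 1) / 2 + c * (y ^ 2 - 1) / 4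

lemma disc_nonneg {c x : ℝ} (hx0 : 0 ≤ x) (hx1 : x ≤ 1) : 0 ≤ (1 - c) ^ 2 + 4 * c * x := by
  have : (1 - c) ^ 2 + 4 * c * x = (1 - x) * (1 - c) ^ 2 + x * (1 + c) ^ 2 := by ring
  rw [this]
  have h1 : 0 ≤ 1 - x := by linarith
  positivity

lemma Qc_spec {c x : ℝ} (hx0 : 0 ≤ x) (hx1 : x ≤ 1) :
    ∃ s : ℝ, 0 ≤ s ∧ s = 1 + c * Qc c x ∧ 2 * Qc c x + c * (Qc c x) ^ 2 = 4 * x - 2 + c := by
  set s := √((1 - c) ^ 2 + 4 * c * x) with hs
  have hs0 : 0 ≤ s := Real.sqrt_nonneg _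
  have hs2 : s ^ 2 = (1 - c) ^ 2 + 4 * c * x := Real.sq_sqrt (disc_nonneg hx0 hx1)
  have hq : Qc c x * (1 + s) = 4 * x - 2 + c := by
    unfold Qc
    rw [← hs]
    exact div_mul_cancel₀ _ (by positivity)
  have h1 : s = 1 + c * Qc c x := by
    have h2 : (s - 1 - c * Qc c x) * (1 + s) = 0 := by
      have : (s - 1 - c * Qc c x) * (1 + s) = s ^ 2 - 1 - c * (Qc c x * (1 + s)) := by ring
      rw [this, hq, hs2]; ring
    have h3 : (1 + s) ≠ 0 := by positivity
    have := (mul_eq_zero.mp h2).resolve_right h3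
    linarith
  refine ⟨s, hs0, h1, ?_⟩
  have : 2 * Qc c x + c * (Qc c x) ^ 2 = Qc c x * (1 + (1 + c * Qc c x)) := by ring
  rw [this, ← h1, hq]

lemma abs_Qc_le {c x : ℝ} (hc : |c| < 1) (hx0 : 0 ≤ x) (hx1 : x ≤ 1) : |Qc c x| ≤ 1 := by
  obtain ⟨s, hs0, hs, he⟩ := Qc_spec (c := c) hx0 hx1
  rw [abs_lt] at hc
  rw [abs_le]
  constructor
  · by_contra h
    push Not at h
    have : (Qc c x + 1) * (1 - c + s) = 4 * x := by rw [hs]; linear_combination he
    nlinarith
  · by_contra h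
    push Not at h
    have : (Qc c x - 1) * (1 + c + s) = 4 * x - 4 := by rw [hs]; linear_combination he
    nlinarith

lemma Fc_Qc {c x : ℝ} (hx0 : 0 ≤ x) (hx1 : x ≤ 1) : Fc c (Qc c x) = x := by
  obtain ⟨s, hs0, hs, he⟩ := Qc_spec (c := c) hx0 hx1
  unfold Fc
  linear_combination he / 4

lemma Fc_mem {c y : ℝ} (hc : |c| < 1) (hy : |y| ≤ 1) : 0 ≤ Fc c y ∧ Fc c y ≤ 1 := by
  rw [abs_lt] at hc
  rw [abs_le] at hy
  constructor
  · have : Fc c y = (y + 1) * (2 + c * (y - 1)) / 4 := by unfold Fc; ring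
    rw [this]
    have : 0 ≤ 2 + c * (y - 1) := by nlinarith
    have : 0 ≤ y + 1 := by linarith
    positivity
  · have : 1 - Fc c y = (1 - y) * (2 + c * (1 + y)) / 4 := by unfold Fc; ring
    have h1 : 0 ≤ 2 + c * (1 + y) := by nlinarith
    have h2 : 0 ≤ 1 - y := by linarith
    have : 0 ≤ 1 - Fc c y := by rw [this]; positivity
    linarith

lemma Qc_Fc {c y : ℝ} (hc : |c| < 1) (hy : |y| ≤ 1) : Qc c (Fc c y) = y := by
  rw [abs_lt] at hc
  rw [abs_le] at hy
  have h1 : (1 - c) ^ 2 + 4 * c * Fc c y = (1 + c * y) ^ 2 := by unfold Fc; ring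
  have h2 : 0 < 1 + c * y := by nlinarith
  unfold Qc
  rw [h1, Real.sqrt_sq h2.le, div_eq_iff (by linarith)]
  unfold Fc
  ring

lemma Fc_lip {c c' y : ℝ} (hy : |y| ≤ 1) : |Fc c y - Fc c' y| ≤ |c - c'| / 4 := by
  have : Fc c y - Fc c' y = (c - c') * ((y ^ 2 - 1) / 4) := by unfold Fc; ring
  rw [this, abs_mul]
  have h1 : y ^ 2 ≤ 1 := by rw [← sq_abs]; exact pow_le_one₀ (abs_nonneg _) hy
  have h2 : |(y ^ 2 - 1) / 4| ≤ 1 / 4 := by
    rw [abs_le]
    constructor <;> nlinarith [sq_nonneg y]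
  calc |c - c'| * |(y ^ 2 - 1) / 4| ≤ |c - c'| * (1 / 4) :=
        mul_le_mul_of_nonneg_left h2 (abs_nonneg _)
    _ = |c - c'| / 4 := by ring

lemma Qc_lip {ε c c' x x' : ℝ} (hε1 : ε < 1) (hc : |c| ≤ ε) (hc' : |c'| ≤ ε)
    (hx0 : 0 ≤ x) (hx1 : x ≤ 1) (hx0' : 0 ≤ x') (hx1' : x' ≤ 1) :
    |Qc c x - Qc c' x'| ≤ 2 / (1 - ε) * (|x - x'| + |c - c'| / 4) := by
  have hc1 : |c| < 1 := lt_of_le_of_lt hc hε1
  have hc1' : |c'| < 1 := lt_of_le_of_lt hc' hε1
  set y := Qc c x with hy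
  set y' := Qc c' x' with hy'
  have hy1 : |y| ≤ 1 := abs_Qc_le hc1 hx0 hx1
  have hy1' : |y'| ≤ 1 := abs_Qc_le hc1' hx0' hx1'
  have e1 : Fc c y = x := Fc_Qc hx0 hx1
  have e2 : Fc c' y' = x' := Fc_Qc hx0' hx1'
  have h1 : Fc c y - Fc c y' = (x - x') - (Fc c y' - Fc c' y') := by rw [e1, e2]; ring
  have h2 : |Fc c y - Fc c y'| ≤ |x - x'| + |c - c'| / 4 := by
    rw [h1]
    exact (abs_sub _ _).trans (add_le_add le_rfl (Fc_lip hy1'))
  have h3 : Fc c y - Fc c y' = (y - y') * ((2 + c * (y + y')) / 4) := by unfold Fc; ring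
  have h4 : (1 - ε) / 2 ≤ (2 + c * (y + y')) / 4 := by
    have h5 : |c * (y + y')| ≤ ε * 2 := by
      rw [abs_mul]
      apply mul_le_mul hc _ (abs_nonneg _) ((abs_nonneg _).trans hc)
      exact (abs_add_le _ _).trans (by linarith)
    have := neg_le_of_abs_le h5
    linarith
  have h6 : 0 < 1 - ε := by linarith
  have h7 : |y - y'| * ((1 - ε) / 2) ≤ |x - x'| + |c - c'| / 4 := by
    calc |y - y'| * ((1 - ε) / 2) ≤ |y - y'| * ((2 + c * (y + y')) / 4) :=
          mul_le_mul_of_nonneg_left h4 (abs_nonneg _)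
      _ = |Fc c y - Fc c y'| := by
          rw [h3, abs_mul, abs_of_nonneg (by linarith : 0 ≤ (2 + c * (y + y')) / 4)]
      _ ≤ _ := h2
  rw [div_mul_eq_mul_div, le_div_iff₀ h6]
  linarith

lemma integral_unitInterval (f : ℝ → ℝ) :
    ∫ x : unitInterval, f (x : ℝ) = ∫ x in Set.Icc (0 : ℝ) 1, f x := by
  exact integral_subtype measurableSet_Icc f

lemma integral_subst_Fc {c : ℝ} (hc : |c| < 1) (h : ℝ → ℝ) :
    ∫ x in Set.Icc (0 : ℝ) 1, h x
      = ∫ y in Set.Icc (-1 : ℝ) 1, ((1 + c * y) / 2) * h (Fc c y) := by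
  have himg : Fc c '' Set.Icc (-1 : ℝ) 1 = Set.Icc (0 : ℝ) 1 := by
    ext x
    constructor
    · rintro ⟨y, hy, rfl⟩
      exact Fc_mem hc (abs_le.mpr hy)
    · rintro ⟨hx0, hx1⟩
      exact ⟨Qc c x, abs_le.mp (abs_Qc_le hc hx0 hx1), Fc_Qc hx0 hx1⟩
  have hinj : Set.InjOn (Fc c) (Set.Icc (-1 : ℝ) 1) := by
    intro y hy y' hy' hyy
    rw [← Qc_Fc hc (abs_le.mpr hy), ← Qc_Fc hc (abs_le.mpr hy'), hyy]
  have hder : ∀ y ∈ Set.Icc (-1 : ℝ) 1,
      HasDerivWithinAt (Fc c) ((1 + c * y) / 2) (Set.Icc (-1 : ℝ) 1) y := by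
    intro y _
    have h1 : HasDerivAt (fun y : ℝ => (y + 1) / 2 + c * (y ^ 2 - 1) / 4)
        (1 / 2 + c * (2 * y) / 4) y := by
      have a1 : HasDerivAt (fun y : ℝ => (y + 1) / 2) (1 / 2) y :=
        ((hasDerivAt_id y).add_const 1).div_const 2
      have a2 : HasDerivAt (fun y : ℝ => c * (y ^ 2 - 1) / 4) (c * (2 * y) / 4) y := by
        have := (((hasDerivAt_pow 2 y).sub_const 1).const_mul c).div_const 4
        simpa using this
      exact a1.add a2
    have h2 : (1 / 2 + c * (2 * y) / 4) = (1 + c * y) / 2 := by ring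
    rw [h2] at h1
    exact h1.hasDerivWithinAt
  rw [← himg, integral_image_eq_integral_abs_deriv_smul measurableSet_Icc hder hinj]
  apply setIntegral_congr_fun measurableSet_Icc
  intro y hy
  have h1 : 0 ≤ (1 + c * y) / 2 := by
    rw [abs_lt] at hc
    have := hy.1
    have := hy.2
    nlinarith
  simp only [smul_eq_mul, abs_of_nonneg h1]

/-- Change of variables for the channel. -/
lemma integral_Qc {c : ℝ} (hc : |c| < 1) (g : ℝ → ℝ) :
    ∫ x : unitInterval, g (Qc c x) = ∫ x : unitInterval, g (2 * x - 1) * (1 + c * (2 * x - 1)) := by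
  rw [integral_unitInterval (fun x => g (Qc c x)),
    integral_unitInterval (fun x => g (2 * x - 1) * (1 + c * (2 * x - 1))),
    integral_subst_Fc hc, integral_subst_Fc (c := 0) (by simp)]
  apply setIntegral_congr_fun measurableSet_Icc
  intro y hy
  have e1 : Qc c (Fc c y) = y := Qc_Fc hc (abs_le.mpr hy)
  have e2 : 2 * Fc 0 y - 1 = y := by unfold Fc; ring
  simp only [e1, e2]
  ring

lemma measurable_Qc : Measurable (fun p : ℝ × ℝ => Qc p.1 p.2) := by
  unfold Qc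
  fun_prop

lemma measurable_Fc : Measurable (fun p : ℝ × ℝ => Fc p.1 p.2) := by
  unfold Fc
  fun_prop

lemma integral_centered : ∫ x : unitInterval, (2 * (x : ℝ) - 1) = 0 := by
  rw [integral_unitInterval (fun x => 2 * x - 1), integral_Icc_eq_integral_Ioc,
    ← intervalIntegral.integral_of_le (by norm_num)]
  rw [intervalIntegral.integral_sub (by apply Continuous.intervalIntegrable; fun_prop)
    (by apply Continuous.intervalIntegrable; fun_prop)]
  rw [intervalIntegral.integral_const_mul, integral_id]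
  norm_num

lemma integral_centered_sq : ∫ x : unitInterval, (2 * (x : ℝ) - 1) ^ 2 = 1 / 3 := by
  rw [integral_unitInterval (fun x => (2 * x - 1) ^ 2), integral_Icc_eq_integral_Ioc,
    ← intervalIntegral.integral_of_le (by norm_num)]
  have : ∀ x : ℝ, (2 * x - 1) ^ 2 = 4 * x ^ 2 - 4 * x + 1 := fun x => by ring
  simp only [this]
  rw [intervalIntegral.integral_add (by apply Continuous.intervalIntegrable; fun_prop)
    (by apply Continuous.intervalIntegrable; fun_prop),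
    intervalIntegral.integral_sub (by apply Continuous.intervalIntegrable; fun_prop)
    (by apply Continuous.intervalIntegrable; fun_prop)]
  rw [intervalIntegral.integral_const_mul, intervalIntegral.integral_const_mul, integral_pow,
    integral_id]
  norm_num

end Vale.Agent.H13.P161
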