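import Vale.Agent.H13.P161.Law

/-!
Comparison of the sampler in two volumes.
-/

set_option linter.unusedSectionVars false

namespace Vale.Agent.H13.P161

open MeasureTheory SimpleGraph

variable {V : Type*} {G : SimpleGraph V} [DecidableEq V]

/-- sum over sites of rounds at most `r` with weight `2 ^ round` -/
lemma sum_rounds_le (S : Finset (Site V)) (r : ℕ) (g : V → ℝ) (hg : ∀ w, 0 ≤ g w) {B : ℝ}
    (hB : ∀ F : Finset V, ∑ w ∈ F, g w ≤ B) :
    ∑ j ∈ S.filter (fun j => j.1 ≤ r), (2 : ℝ) ^ j.1 * g j.2 ≤ 2 ^ (r + 1) * B := by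
  have hB0 : 0 ≤ B := by simpa using hB ∅
  have hsub : S.filter (fun j => j.1 ≤ r) ⊆ (Finset.range (r + 1)) ×ˢ (S.image Prod.snd) := by
    intro j hj
    rw [Finset.mem_filter] at hj
    rw [Finset.mem_product]
    exact ⟨Finset.mem_range.mpr (by omega), Finset.mem_image_of_mem _ hj.1⟩
  calc ∑ j ∈ S.filter (fun j => j.1 ≤ r), (2 : ℝ) ^ j.1 * g j.2
      ≤ ∑ j ∈ (Finset.range (r + 1)) ×ˢ (S.image Prod.snd), (2 : ℝ) ^ j.1 * g j.2 :=
        Finset.sum_le_sum_of_subset_of_nonneg hsub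
          (fun j _ _ => mul_nonneg (by positivity) (hg _))
    _ = ∑ k ∈ Finset.range (r + 1), ∑ w ∈ S.image Prod.snd, (2 : ℝ) ^ k * g w := by
        rw [Finset.sum_product]
    _ ≤ ∑ k ∈ Finset.range (r + 1), (2 : ℝ) ^ k * B := by
        apply Finset.sum_le_sum
        intro k _
        rw [← Finset.mul_sum]
        exact mul_le_mul_of_nonneg_left (hB _) (by positivity)
    _ = (∑ k ∈ Finset.range (r + 1), (2 : ℝ) ^ k) * B := by rw [Finset.sum_mul]
    _ ≤ 2 ^ (r + 1) * B := by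
        apply mul_le_mul_of_nonneg_right _ hB0
        have h := geom_sum_eq (by norm_num : (2 : ℝ) ≠ 1) (r + 1)
        rw [h]
        norm_num

lemma sum_rounds_le' (S : Finset (Site V)) (r : ℕ) (g : V → ℝ) (hg : ∀ w, 0 ≤ g w) {B : ℝ}
    (hB : ∀ F : Finset V, ∑ w ∈ F, g w ≤ B) :
    ∑ j ∈ S.filter (fun j => j.1 ≤ r), g j.2 ≤ (r + 1) * B := by
  have hB0 : 0 ≤ B := by simpa using hB ∅
  have hsub : S.filter (fun j => j.1 ≤ r) ⊆ (Finset.range (r + 1)) ×ˢ (S.image Prod.snd) := by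
    intro j hj
    rw [Finset.mem_filter] at hj
    rw [Finset.mem_product]
    exact ⟨Finset.mem_range.mpr (by omega), Finset.mem_image_of_mem _ hj.1⟩
  calc ∑ j ∈ S.filter (fun j => j.1 ≤ r), g j.2
      ≤ ∑ j ∈ (Finset.range (r + 1)) ×ˢ (S.image Prod.snd), g j.2 :=
        Finset.sum_le_sum_of_subset_of_nonneg hsub (fun j _ _ => hg _)
    _ = ∑ k ∈ Finset.range (r + 1), ∑ w ∈ S.image Prod.snd, g w := by
        rw [Finset.sum_product]
    _ ≤ ∑ k ∈ Finset.range (r + 1), B := by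
        apply Finset.sum_le_sum
        intro k _
        exact hB _
    _ = (r + 1) * B := by simp

section

variable {μ : Measure (V → ℤˣ)} [IsProbabilityMeasure μ]
variable {ε : ℝ} (hε0 : 0 ≤ ε) (hε1 : ε < 1)

include hε0 hε1

/-- marginals of the sampler do not depend on the volume -/
lemma consistency {U : Site V → unitInterval} {S S' : Finset (Site V)} (hSS : S ⊆ S')
    (hnt : NoTie U S') {h : (Site V → ℝ) → ℝ} (hh : Nice h)
    (hdep : ∀ y y' : Site V → ℝ, (∀ j ∈ S, y j = y' j) → h y = h y') :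
    ∫ ξ, h (Ys μ ε S' U ξ) ∂(iidLabels (Site V)) = ∫ ξ, h (Ys μ ε S U ξ) ∂(iidLabels (Site V)) := by
  rw [law_Ys hε0 hε1 U S' hnt hh, law_Ys hε0 hε1 U S (hnt.mono hSS) hh]
  congr 1
  ext τ
  congr 1
  ext ζ
  apply hdep
  intro j hj
  simp [obs, hj, hSS hj]

/-- the law of the recovered noise -/
lemma law_Psi {U : Site V → unitInterval} {S S' : Finset (Site V)} (hSS : S ⊆ S')
    (hnt : NoTie U S') {g : (Site V → unitInterval) → ℝ} (hg : Nice g)
    (hdep : ∀ ξ ξ' : Site V → unitInterval, (∀ j ∈ S, ξ j = ξ' j) → g ξ = g ξ') :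
    ∫ ξ, g (Psi μ ε S U (Ys μ ε S' U ξ)) ∂(iidLabels (Site V))
      = ∫ ξ, g ξ ∂(iidLabels (Site V)) := by
  have h1 : Nice (fun y : Site V → ℝ => g (Psi μ ε S U y)) :=
    hg.comp (measurable_Psi hε0 hε1 S U)
  rw [consistency hε0 hε1 hSS hnt h1 (fun y y' h => by rw [Psi_congr U h])]
  congr 1
  ext ξ
  exact hdep _ _ (fun j hj => Psi_Ys hε0 hε1 S U ξ hj)

/-- `L²` identity for nested posterior means. -/
lemma l2_identity {U : Site V → unitInterval} {S S' : Finset (Site V)} (hSS : S ⊆ S')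
    (hnt : NoTie U S') (j : Site V) :
    ∫ ξ, (Mf μ ε j.2 S' (mask U j (Ys μ ε S' U ξ))
        - Mf μ ε j.2 S (mask U j (Ys μ ε S' U ξ))) ^ 2 ∂(iidLabels (Site V))
      = ∫ ξ, Mf μ ε j.2 S' (mask U j (Ys μ ε S' U ξ)) ^ 2 ∂(iidLabels (Site V))
        - ∫ ξ, Mf μ ε j.2 S (mask U j (Ys μ ε S U ξ)) ^ 2 ∂(iidLabels (Site V)) := by
  classical
  set f1 : (Site V → ℝ) → ℝ := fun y => Mf μ ε j.2 S' (mask U j y) with hf1
  set f2 : (Site V → ℝ) → ℝ := fun y => Mf μ ε j.2 S (mask U j y) with hf2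
  have n1 : Nice f1 := (nice_Mf hε0 hε1 j.2 S').comp
    (measurable_mask measurable_const measurable_id j)
  have n2 : Nice f2 := (nice_Mf hε0 hε1 j.2 S).comp
    (measurable_mask measurable_const measurable_id j)
  have mY := measurable_Ys_right (μ := μ) hε0 hε1 S' U
  have e1 : ∫ ξ, f2 (Ys μ ε S' U ξ) ^ 2 ∂(iidLabels (Site V))
      = ∫ ξ, f2 (Ys μ ε S U ξ) ^ 2 ∂(iidLabels (Site V)) := by
    apply consistency hε0 hε1 hSS hnt (n2.pow 2)
    intro y y' h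
    have : f2 y = f2 y' := Mf_congr j.2 (fun l hl => mask_congr (fun _ => h l hl))
    simp only [this]
  have e2 : ∫ ξ, f1 (Ys μ ε S' U ξ) * f2 (Ys μ ε S' U ξ) ∂(iidLabels (Site V))
      = ∫ ξ, f2 (Ys μ ε S' U ξ) ^ 2 ∂(iidLabels (Site V)) := by
    have l1 := law_Ys (μ := μ) hε0 hε1 U S' hnt (n1.mul n2)
    have l2 := law_Ys (μ := μ) hε0 hε1 U S' hnt (n2.pow 2)
    rw [l1, l2]
    set B := S'.filter (fun l => before U l j) with hB
    set A := S.filter (fun l => before U l j) with hA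
    have g1 : ∀ τ ζ, f1 (obs ε S' τ ζ) = Mf μ ε j.2 B (obs ε B τ ζ) := by
      intro τ ζ
      apply Mf_subset j.2 (Finset.filter_subset _ _)
      · intro l hl
        have hl' := Finset.mem_filter.mp hl
        have hlB : l ∈ B := hl
        simp only [mask, if_pos hl'.2, obs, if_pos hl'.1, if_pos hlB]
      · intro l hl hlB
        have : ¬ before U l j := fun hb => hlB (Finset.mem_filter.mpr ⟨hl, hb⟩)
        simp only [mask, if_neg this]
    have g2 : ∀ τ ζ, f2 (obs ε S' τ ζ) = Mf μ ε j.2 A (obs ε A τ ζ) := by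
      intro τ ζ
      apply Mf_subset j.2 (Finset.filter_subset _ _)
      · intro l hl
        have hl' := Finset.mem_filter.mp hl
        have hlA : l ∈ A := hl
        simp only [mask, if_pos hl'.2, obs, if_pos (hSS hl'.1), if_pos hlA]
      · intro l hl hlB
        have : ¬ before U l j := fun hb => hlB (Finset.mem_filter.mpr ⟨hl, hb⟩)
        simp only [mask, if_neg this]
    have g3 : ∀ τ ζ, Mf μ ε j.2 A (obs ε A τ ζ) = Mf μ ε j.2 A (obs ε B τ ζ) := by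
      intro τ ζ
      apply Mf_congr
      intro l hl
      have hl' := Finset.mem_filter.mp hl
      have hlB : l ∈ B := Finset.mem_filter.mpr ⟨hSS hl'.1, hl'.2⟩
      simp only [obs, if_pos hl, if_pos hlB]
    simp only [g1, g2]
    have t1 := tower (μ := μ) hε0 hε1 B j.2 (nice_Mf (μ := μ) hε0 hε1 j.2 A)
    have t2 := tower (μ := μ) hε0 hε1 A j.2 (nice_Mf (μ := μ) hε0 hε1 j.2 A)
    calc ∫ τ, ∫ ζ, Mf μ ε j.2 B (obs ε B τ ζ) * Mf μ ε j.2 A (obs ε A τ ζ)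
            ∂(iidLabels (Site V)) ∂μ
        = ∫ τ, ∫ ζ, Mf μ ε j.2 B (obs ε B τ ζ) * Mf μ ε j.2 A (obs ε B τ ζ)
            ∂(iidLabels (Site V)) ∂μ := by simp only [g3]
      _ = ∫ τ, ∫ ζ, spinVal (τ j.2) * Mf μ ε j.2 A (obs ε B τ ζ)
            ∂(iidLabels (Site V)) ∂μ := t1.symm
      _ = ∫ τ, ∫ ζ, spinVal (τ j.2) * Mf μ ε j.2 A (obs ε A τ ζ)
            ∂(iidLabels (Site V)) ∂μ := by simp only [g3]
      _ = ∫ τ, ∫ ζ, Mf μ ε j.2 A (obs ε A τ ζ) * Mf μ ε j.2 A (obs ε A τ ζ)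
            ∂(iidLabels (Site V)) ∂μ := t2
      _ = _ := by simp only [sq]
  have e3 := (n1.comp mY).integral_sub_sq (n2.comp mY) (iidLabels (Site V))
  calc _ = ∫ ξ, f1 (Ys μ ε S' U ξ) ^ 2 ∂(iidLabels (Site V))
        - 2 * ∫ ξ, f1 (Ys μ ε S' U ξ) * f2 (Ys μ ε S' U ξ) ∂(iidLabels (Site V))
        + ∫ ξ, f2 (Ys μ ε S' U ξ) ^ 2 ∂(iidLabels (Site V)) := e3
    _ = _ := by rw [e2, e1]; ring

end

section Lip

variable [LocallyFinite G]
variable {μ : Measure (V → ℤˣ)} [IsProbabilityMeasure μ]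
variable {ε : ℝ} (hε0 : 0 ≤ ε) (hε1 : ε < 1)
variable (hG : G.IsTree) {d : ℕ} (hd : 2 ≤ d) (hreg : ∀ v, G.degree v = d)
variable {θ ρ : ℝ} (hθ0 : 0 ≤ θ) (hθ1 : θ ≤ 1) (hθρ : θ < ρ) (hρ : ((d : ℝ) - 1) * (θ * ρ) < 1)
variable (hμ : EdgeFactor G θ μ)
variable (hκ : ε / 4 * (ε / (1 - ε) ^ 2) * (2 / (1 - ε)) * 2
  * (2 / (1 - ((d : ℝ) - 1) * (θ * ρ)) / (1 - θ / ρ)) ≤ 1 / 2)

include hε0 hε1 hG hd hreg hθ0 hθ1 hθρ hρ hμ hκ

/-- Lipschitz dependence of the observations on the driving noise. -/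
lemma Ys_lip (S : Finset (Site V)) (U ξ ξ' : Site V → unitInterval) :
    ∀ i ∈ S, |Ys μ ε S U ξ i - Ys μ ε S U ξ' i|
      ≤ 2 / (1 - ε) * 2 ^ i.1 * ∑ l ∈ S.filter (fun l => l.1 ≤ i.1),
          2 * ρ ^ (G.dist i.2 l.2) * |(ξ l : ℝ) - ξ' l| := by
  have hρ0 : 0 < ρ := lt_of_le_of_lt hθ0 hθρ
  have h1ε : 0 < 1 - ε := by linarith
  set C1 : ℝ := 2 / (1 - ((d : ℝ) - 1) * (θ * ρ)) / (1 - θ / ρ) with hC1
  set L : ℝ := 2 / (1 - ε) with hL
  set cE : ℝ := ε / (1 - ε) ^ 2 with hcE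
  have hL0 : 0 ≤ L := by positivity
  have hcE0 : 0 ≤ cE := by positivity
  have hdd : (2 : ℝ) ≤ d := by exact_mod_cast hd
  have hC10 : 0 ≤ C1 := by
    have h1 : 0 < 1 - θ / ρ := by
      have := (div_lt_one hρ0).mpr hθρ
      linarith
    have h2 : 0 < 1 - ((d : ℝ) - 1) * (θ * ρ) := by linarith
    positivity
  refine before_induction U S (p := fun i => |Ys μ ε S U ξ i - Ys μ ε S U ξ' i|
      ≤ L * 2 ^ i.1 * ∑ l ∈ S.filter (fun l => l.1 ≤ i.1),
          2 * ρ ^ (G.dist i.2 l.2) * |(ξ l : ℝ) - ξ' l|) ?_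
  intro i hi hb
  set y := Ys μ ε S U ξ with hy
  set y' := Ys μ ε S U ξ' with hy'
  set H : ℝ := ∑ l ∈ S.filter (fun l => l.1 ≤ i.1),
          2 * ρ ^ (G.dist i.2 l.2) * |(ξ l : ℝ) - ξ' l| with hH
  have hH0 : 0 ≤ H := Finset.sum_nonneg (fun l _ => by positivity)
  have hHi : 2 * |(ξ i : ℝ) - ξ' i| ≤ H := by
    have hmem : i ∈ S.filter (fun l => l.1 ≤ i.1) := Finset.mem_filter.mpr ⟨hi, le_rfl⟩
    have := Finset.single_le_sum (f := fun l : Site V =>
      2 * ρ ^ (G.dist i.2 l.2) * |(ξ l : ℝ) - ξ' l|) (fun l _ => by positivity) hmem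
    simpa using this
  -- first step: Lipschitz property of the quantile function
  have s1 : |y i - y' i| ≤ L * (|(ξ i : ℝ) - ξ' i|
      + |ε * Mf μ ε i.2 S (mask U i y) - ε * Mf μ ε i.2 S (mask U i y')| / 4) := by
    rw [hy, hy', Ys_eq S U ξ hi, Ys_eq S U ξ' hi]
    exact Qc_lip hε1 (abs_εM_le hε0 hε1 _ _ _) (abs_εM_le hε0 hε1 _ _ _) (ξ i).2.1 (ξ i).2.2
      (ξ' i).2.1 (ξ' i).2.2
  -- second step: Lipschitz property of the posterior mean
  have s2 : |Mf μ ε i.2 S (mask U i y) - Mf μ ε i.2 S (mask U i y')|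
      ≤ ∑ j ∈ S, (cE * θ ^ (G.dist i.2 j.2)) * |mask U i y j - mask U i y' j| :=
    Mf_lip hε0 hε1 hG hθ0 hθ1 hμ i.2 S _ _
  -- third step: use the induction hypothesis
  have s3 : ∑ j ∈ S, (cE * θ ^ (G.dist i.2 j.2)) * |mask U i y j - mask U i y' j|
      ≤ ∑ j ∈ S.filter (fun j => j.1 ≤ i.1), (cE * θ ^ (G.dist i.2 j.2)) *
          (L * 2 ^ j.1 * ∑ l ∈ S.filter (fun l => l.1 ≤ i.1),
            2 * ρ ^ (G.dist j.2 l.2) * |(ξ l : ℝ) - ξ' l|) := by
    rw [← Finset.sum_filter_add_sum_filter_not S (fun j => j.1 ≤ i.1)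
      (fun j => (cE * θ ^ (G.dist i.2 j.2)) * |mask U i y j - mask U i y' j|)]
    have z : ∑ j ∈ S.filter (fun j => ¬ j.1 ≤ i.1),
        (cE * θ ^ (G.dist i.2 j.2)) * |mask U i y j - mask U i y' j| = 0 := by
      apply Finset.sum_eq_zero
      intro j hj
      have hj' := (Finset.mem_filter.mp hj).2
      have : ¬ before U j i := fun h => hj' (before_fst_le h)
      simp [mask, this]
    rw [z, add_zero]
    apply Finset.sum_le_sum
    intro j hj
    have hjS := (Finset.mem_filter.mp hj).1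
    have hji := (Finset.mem_filter.mp hj).2
    apply mul_le_mul_of_nonneg_left _ (by positivity)
    have hR0 : 0 ≤ L * 2 ^ j.1 * ∑ l ∈ S.filter (fun l => l.1 ≤ i.1),
            2 * ρ ^ (G.dist j.2 l.2) * |(ξ l : ℝ) - ξ' l| := by
      apply mul_nonneg (by positivity)
      exact Finset.sum_nonneg (fun l _ => by positivity)
    by_cases hbf : before U j i
    · simp only [mask, if_pos hbf]
      refine (hb j hjS hbf).trans ?_
      apply mul_le_mul_of_nonneg_left _ (by positivity)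
      apply Finset.sum_le_sum_of_subset_of_nonneg
      · intro l hl
        rw [Finset.mem_filter] at hl ⊢
        exact ⟨hl.1, hl.2.trans hji⟩
      · intro l _ _
        positivity
    · simpa [mask, hbf] using hR0
  -- fourth step: exchange the sums and use the kernel inequality
  have s4 : ∑ j ∈ S.filter (fun j => j.1 ≤ i.1), (cE * θ ^ (G.dist i.2 j.2)) *
          (L * 2 ^ j.1 * ∑ l ∈ S.filter (fun l => l.1 ≤ i.1),
            2 * ρ ^ (G.dist j.2 l.2) * |(ξ l : ℝ) - ξ' l|)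
      ≤ cE * L * (2 ^ (i.1 + 1) * C1) * H := by
    have e1 : ∑ j ∈ S.filter (fun j => j.1 ≤ i.1), (cE * θ ^ (G.dist i.2 j.2)) *
          (L * 2 ^ j.1 * ∑ l ∈ S.filter (fun l => l.1 ≤ i.1),
            2 * ρ ^ (G.dist j.2 l.2) * |(ξ l : ℝ) - ξ' l|)
        = ∑ l ∈ S.filter (fun l => l.1 ≤ i.1), cE * L * (2 * |(ξ l : ℝ) - ξ' l|) *
            ∑ j ∈ S.filter (fun j => j.1 ≤ i.1),
              (2 : ℝ) ^ j.1 * (θ ^ (G.dist i.2 j.2) * ρ ^ (G.dist j.2 l.2)) := by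
      simp only [Finset.mul_sum]
      rw [Finset.sum_comm]
      apply Finset.sum_congr rfl
      intro l _
      apply Finset.sum_congr rfl
      intro j _
      ring
    rw [e1, hH, Finset.mul_sum]
    apply Finset.sum_le_sum
    intro l _
    have hk : ∑ j ∈ S.filter (fun j => j.1 ≤ i.1),
              (2 : ℝ) ^ j.1 * (θ ^ (G.dist i.2 j.2) * ρ ^ (G.dist j.2 l.2))
        ≤ 2 ^ (i.1 + 1) * (C1 * ρ ^ (G.dist i.2 l.2)) := by
      apply sum_rounds_le S i.1 (fun w => θ ^ (G.dist i.2 w) * ρ ^ (G.dist w l.2))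
      · intro w; positivity
      · intro F
        exact kernel_ineq hG hd hreg hθ0 hθρ hρ F l.2 _ i.2 rfl
    calc cE * L * (2 * |(ξ l : ℝ) - ξ' l|) *
            ∑ j ∈ S.filter (fun j => j.1 ≤ i.1),
              (2 : ℝ) ^ j.1 * (θ ^ (G.dist i.2 j.2) * ρ ^ (G.dist j.2 l.2))
        ≤ cE * L * (2 * |(ξ l : ℝ) - ξ' l|) * (2 ^ (i.1 + 1) * (C1 * ρ ^ (G.dist i.2 l.2))) :=
          mul_le_mul_of_nonneg_left hk (by positivity)
      _ = cE * L * (2 ^ (i.1 + 1) * C1) * (2 * ρ ^ (G.dist i.2 l.2) * |(ξ l : ℝ) - ξ' l|) := by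
          ring
  have s5 : |ε * Mf μ ε i.2 S (mask U i y) - ε * Mf μ ε i.2 S (mask U i y')|
      ≤ ε * (cE * L * (2 ^ (i.1 + 1) * C1) * H) := by
    rw [← mul_sub, abs_mul, abs_of_nonneg hε0]
    exact mul_le_mul_of_nonneg_left ((s2.trans s3).trans s4) hε0
  have hpow : (1 : ℝ) ≤ 2 ^ i.1 := one_le_pow₀ (by norm_num)
  calc |y i - y' i| ≤ L * (|(ξ i : ℝ) - ξ' i|
      + |ε * Mf μ ε i.2 S (mask U i y) - ε * Mf μ ε i.2 S (mask U i y')| / 4) := s1
    _ ≤ L * (2 ^ i.1 * (H / 2) + ε * (cE * L * (2 ^ (i.1 + 1) * C1) * H) / 4) := by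
        apply mul_le_mul_of_nonneg_left _ hL0
        apply add_le_add
        · calc |(ξ i : ℝ) - ξ' i| ≤ 1 * (H / 2) := by linarith
            _ ≤ 2 ^ i.1 * (H / 2) := mul_le_mul_of_nonneg_right hpow (by positivity)
        · linarith
    _ = L * 2 ^ i.1 * (H / 2) + L * 2 ^ i.1 * H * (ε / 4 * cE * L * 2 * C1) := by
        rw [pow_succ]; ring
    _ ≤ L * 2 ^ i.1 * (H / 2) + L * 2 ^ i.1 * H * (1 / 2) := by
        apply add_le_add le_rfl
        apply mul_le_mul_of_nonneg_left hκ (by positivity)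
    _ = L * 2 ^ i.1 * H := by ring

end Lip

end Vale.Agent.H13.P161
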