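import Vale.Agent.H13.P161.Compare

/-!
`L²` comparison of the sampler in two volumes.
-/

set_option linter.unusedSectionVars false

namespace Vale.Agent.H13.P161

open MeasureTheory SimpleGraph

variable {V : Type*} {G : SimpleGraph V} [DecidableEq V]

/-- Lipschitz constants of the observation at `i` in the noise at `l` -/
noncomputable def cc (G : SimpleGraph V) (ε ρ : ℝ) (i l : Site V) : ℝ :=
  if l.1 ≤ i.1 then 2 / (1 - ε) * 2 ^ i.1 * (2 * ρ ^ (G.dist i.2 l.2)) else 0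

/-- bound for the tail of the squared Lipschitz constants -/
noncomputable def tailC (ε ρ : ℝ) (d : ℕ) (r R : ℕ) : ℝ :=
  (r + 1) * ((2 / (1 - ε) * 2 ^ r * 2) ^ 2 *
    (2 * (((d : ℝ) - 1) * ρ ^ 2) ^ R / (1 - ((d : ℝ) - 1) * ρ ^ 2)))

/-- sites of rounds at most that of `i` and at distance less than `R` -/
noncomputable def Bfin (G : SimpleGraph V) [LocallyFinite G] (i : Site V) (R : ℕ) :
    Finset (Site V) :=
  (Finset.range (i.1 + 1)) ×ˢ ((Finset.range R).biUnion (sph G i.2))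

/-- expected squared posterior mean just before processing `l` -/
noncomputable def Jf (μ : Measure (V → ℤˣ)) (ε : ℝ) (l : Site V)
    (S : Finset (Site V)) (U : Site V → unitInterval) : ℝ :=
  ∫ ξ, Mf μ ε l.2 S (mask U l (Ys μ ε S U ξ)) ^ 2 ∂(iidLabels (Site V))

section

variable [LocallyFinite G]
variable {μ : Measure (V → ℤˣ)} [IsProbabilityMeasure μ]
variable {ε : ℝ} (hε0 : 0 ≤ ε) (hε1 : ε < 1)

include hε0 hε1

lemma Jf_mono {U : Site V → unitInterval} {S S' : Finset (Site V)} (hSS : S ⊆ S')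
    (hnt : NoTie U S') (l : Site V) : Jf μ ε l S U ≤ Jf μ ε l S' U := by
  have h := l2_identity (μ := μ) hε0 hε1 hSS hnt l
  have h0 : 0 ≤ ∫ ξ, (Mf μ ε l.2 S' (mask U l (Ys μ ε S' U ξ))
        - Mf μ ε l.2 S (mask U l (Ys μ ε S' U ξ))) ^ 2 ∂(iidLabels (Site V)) :=
    integral_nonneg (fun ξ => sq_nonneg _)
  unfold Jf
  linarith

lemma cc_nonneg {ρ : ℝ} (hρ0 : 0 ≤ ρ) (i l : Site V) : 0 ≤ cc G ε ρ i l := by
  unfold cc
  have h1ε : 0 < 1 - ε := by linarith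
  split_ifs
  · positivity
  · exact le_rfl

lemma tail_le (hG : G.IsTree) {d : ℕ} (hd : 2 ≤ d) (hreg : ∀ v, G.degree v = d)
    {ρ : ℝ} (hρ1 : ((d : ℝ) - 1) * ρ ^ 2 < 1) (S : Finset (Site V)) (i : Site V)
    (R : ℕ) :
    ∑ l ∈ S.filter (fun l => R ≤ G.dist i.2 l.2), cc G ε ρ i l ^ 2 ≤ tailC ε ρ d i.1 R := by
  set K : ℝ := 2 / (1 - ε) * 2 ^ i.1 * 2 with hK
  set g : V → ℝ := fun w => if R ≤ G.dist i.2 w then K ^ 2 * (ρ ^ 2) ^ (G.dist i.2 w) else 0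
    with hg
  have hg0 : ∀ w, 0 ≤ g w := by
    intro w
    simp only [hg]
    split_ifs
    · positivity
    · exact le_rfl
  have e1 : ∑ l ∈ S.filter (fun l => R ≤ G.dist i.2 l.2), cc G ε ρ i l ^ 2
      = ∑ l ∈ S.filter (fun l => l.1 ≤ i.1), g l.2 := by
    rw [Finset.sum_filter, Finset.sum_filter]
    apply Finset.sum_congr rfl
    intro l _
    simp only [hg, cc, hK]
    split_ifs
    · rw [← pow_mul ρ 2, mul_comm 2 (G.dist i.2 l.2), pow_mul]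
      ring
    · simp
    · rfl
    · rfl
  rw [e1]
  unfold tailC
  apply sum_rounds_le' S i.1 g hg0
  intro F
  have e2 : ∑ w ∈ F, g w = K ^ 2 * ∑ w ∈ F.filter (fun w => R ≤ G.dist i.2 w),
      (ρ ^ 2) ^ (G.dist i.2 w) := by
    rw [Finset.mul_sum, Finset.sum_filter]
  rw [e2]
  exact mul_le_mul_of_nonneg_left
    (sum_pow_dist_le hG.connected hd hreg i.2 (sq_nonneg ρ) hρ1 R F) (sq_nonneg K)

variable (hG : G.IsTree) {d : ℕ} (hd : 2 ≤ d) (hreg : ∀ v, G.degree v = d)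
variable {θ ρ : ℝ} (hθ0 : 0 ≤ θ) (hθ1 : θ ≤ 1) (hθρ : θ < ρ) (hρ : ((d : ℝ) - 1) * (θ * ρ) < 1)
variable (hρ1 : ((d : ℝ) - 1) * ρ ^ 2 < 1)
variable (hμ : EdgeFactor G θ μ)
variable (hκ : ε / 4 * (ε / (1 - ε) ^ 2) * (2 / (1 - ε)) * 2
  * (2 / (1 - ((d : ℝ) - 1) * (θ * ρ)) / (1 - θ / ρ)) ≤ 1 / 2)

include hG hd hreg hθ0 hθ1 hθρ hρ hμ hκ

lemma Ys_lip' (S : Finset (Site V)) (U ξ ξ' : Site V → unitInterval) {i : Site V} (hi : i ∈ S) :
    |Ys μ ε S U ξ i - Ys μ ε S U ξ' i|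
      ≤ ∑ l ∈ S, cc G ε ρ i l * |(ξ l : ℝ) - ξ' l| := by
  refine (Ys_lip hε0 hε1 hG hd hreg hθ0 hθ1 hθρ hρ hμ hκ S U ξ ξ' i hi).trans (le_of_eq ?_)
  rw [Finset.mul_sum, Finset.sum_filter]
  apply Finset.sum_congr rfl
  intro l _
  unfold cc
  split_ifs
  · ring
  · ring

lemma Ys_osc (S : Finset (Site V)) (U : Site V → unitInterval) {i : Site V} (hi : i ∈ S)
    (l : Site V) : OscLe (fun ξ => Ys μ ε S U ξ i) l (cc G ε ρ i l) := by
  intro ξ x x'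
  have hρ0 : 0 ≤ ρ := hθ0.trans hθρ.le
  have hcc := cc_nonneg (G := G) hε0 hε1 hρ0 i l
  refine (Ys_lip' hε0 hε1 hG hd hreg hθ0 hθ1 hθρ hρ hμ hκ S U _ _ hi).trans ?_
  by_cases hl : l ∈ S
  · rw [Finset.sum_eq_single l]
    · simp only [Function.update_self]
      have h1 : |(x : ℝ) - x'| ≤ 1 := by
        rw [abs_le]
        constructor <;> linarith [x.2.1, x.2.2, x'.2.1, x'.2.2]
      calc cc G ε ρ i l * |(x : ℝ) - x'| ≤ cc G ε ρ i l * 1 :=
            mul_le_mul_of_nonneg_left h1 hcc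
        _ = cc G ε ρ i l := mul_one _
    · intro b _ hb
      simp [Function.update_of_ne hb]
    · intro h; exact absurd hl h
  · rw [Finset.sum_eq_zero]
    · exact hcc
    · intro b hb
      have : b ≠ l := fun h => hl (h ▸ hb)
      simp [Function.update_of_ne this]

include hρ1

/-- Comparison of two volumes for fixed labels. -/
lemma compare_fixed {U : Site V → unitInterval} {S S' : Finset (Site V)} (hSS : S ⊆ S')
    (hnt : NoTie U S') {i : Site V} (hi : i ∈ S) (R : ℕ) :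
    ∫ ξ, (Ys μ ε S' U ξ i - Ys μ ε S U ξ i) ^ 2 ∂(iidLabels (Site V))
      ≤ 6 * tailC ε ρ d i.1 R
        + 3 * (∑ l ∈ Bfin G i R, cc G ε ρ i l ^ 2) * (ε ^ 2 / 16)
          * ∑ l ∈ Bfin G i R, (Jf μ ε l S' U - Jf μ ε l S U) := by
  have hρ0 : 0 ≤ ρ := hθ0.trans hθρ.le
  set P := iidLabels (Site V) with hP
  set f : (Site V → unitInterval) → ℝ := fun ξ => Ys μ ε S U ξ i with hf
  have nf : Nice f := ⟨(measurable_pi_apply i).comp (measurable_Ys_right hε0 hε1 S U), 1,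
    fun ξ => abs_Ys_le hε0 hε1 S U ξ i⟩
  set A := S.filter (fun l => R ≤ G.dist i.2 l.2) with hA
  set B := S.filter (fun l => ¬ R ≤ G.dist i.2 l.2 ∧ l.1 ≤ i.1) with hB
  set fA := avg (volume : Measure unitInterval) A f with hfA
  have nfA : Nice fA := nf.avg A
  have depf : ∀ ξ ξ' : Site V → unitInterval, (∀ j ∈ S, ξ j = ξ' j) → f ξ = f ξ' := by
    intro ξ ξ' h
    simp only [hf, Ys_congr S U h]
  have depfA : ∀ ξ ξ' : Site V → unitInterval, (∀ j ∈ S, ξ j = ξ' j) → fA ξ = fA ξ' := by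
    intro ξ ξ' h
    simp only [hfA, avg]
    congr 1
    ext ζ
    apply depf
    intro j hj
    unfold mix
    split_ifs
    · rfl
    · exact h j hj
  -- variance bound
  have key1 : ∫ ξ, (f ξ - fA ξ) ^ 2 ∂P ≤ tailC ε ρ d i.1 R :=
    (integral_sub_avg_sq_le nf (cc G ε ρ i) A (fun l _ =>
      Ys_osc hε0 hε1 hG hd hreg hθ0 hθ1 hθρ hρ hμ hκ S U hi l)).trans
      (tail_le hε0 hε1 hG hd hreg hρ1 S i R)
  set xt : (Site V → unitInterval) → Site V → unitInterval :=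
    fun ξ => Psi μ ε S U (Ys μ ε S' U ξ) with hxt
  have mxt : Measurable xt := (measurable_Psi hε0 hε1 S U).comp (measurable_Ys_right hε0 hε1 S' U)
  have h1 : ∀ ξ, f (xt ξ) = Ys μ ε S' U ξ i := by
    intro ξ
    simp only [hf, hxt]
    rw [Ys_Psi hε0 hε1 S U (fun j _ => abs_Ys_le hε0 hε1 S' U ξ j)]
    simp [res, hi]
  have key2 : ∫ ξ, (f (xt ξ) - fA (xt ξ)) ^ 2 ∂P = ∫ ξ, (f ξ - fA ξ) ^ 2 ∂P :=
    law_Psi hε0 hε1 hSS hnt ((nf.sub nfA).pow 2)
      (fun ξ ξ' h => by simp only [depf ξ ξ' h, depfA ξ ξ' h])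
  -- the averaged function is Lipschitz in the near coordinates
  have key3 : ∀ η η' : Site V → unitInterval, |fA η - fA η'|
      ≤ ∑ l ∈ B, cc G ε ρ i l * |(η l : ℝ) - η' l| := by
    intro η η'
    have nm : ∀ η : Site V → unitInterval, Nice (fun ζ : Site V → unitInterval =>
        f (mix (A : Set (Site V)) η ζ)) := fun η =>
      nf.comp ((measurable_mix (X := fun _ : Site V => unitInterval) _).comp measurable_prodMk_left)
    have e0 : fA η - fA η' = ∫ ζ, (f (mix (A : Set (Site V)) η ζ)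
        - f (mix (A : Set (Site V)) η' ζ)) ∂P := ((nm η).integral_sub' (nm η') P).symm
    rw [e0]
    calc |∫ ζ, (f (mix (A : Set (Site V)) η ζ) - f (mix (A : Set (Site V)) η' ζ)) ∂P|
        ≤ ∫ ζ, |f (mix (A : Set (Site V)) η ζ) - f (mix (A : Set (Site V)) η' ζ)| ∂P :=
          abs_integral_le_integral_abs
      _ ≤ ∫ _ζ, (∑ l ∈ B, cc G ε ρ i l * |(η l : ℝ) - η' l|) ∂P := by
          apply ((nm η).sub (nm η')).abs.integral_mono' (Nice.const _)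
          intro ζ
          refine (Ys_lip' hε0 hε1 hG hd hreg hθ0 hθ1 hθρ hρ hμ hκ S U _ _ hi).trans ?_
          rw [hB, Finset.sum_filter]
          apply Finset.sum_le_sum
          intro l hl
          by_cases hlA : l ∈ A
          · have : mix (A : Set (Site V)) η ζ l = mix (A : Set (Site V)) η' ζ l := by
              simp [mix, hlA]
            rw [this]
            simp only [sub_self, abs_zero, mul_zero]
            split_ifs
            · exact mul_nonneg (cc_nonneg hε0 hε1 hρ0 i l) (abs_nonneg _)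
            · exact le_rfl
          · have e1 : ∀ η : Site V → unitInterval, mix (A : Set (Site V)) η ζ l = η l := by
              intro η; simp [mix, hlA]
            rw [e1, e1]
            have hR : ¬ R ≤ G.dist i.2 l.2 := fun h => hlA (Finset.mem_filter.mpr ⟨hl, h⟩)
            by_cases hl1 : l.1 ≤ i.1
            · rw [if_pos ⟨hR, hl1⟩]
            · rw [if_neg (fun h => hl1 h.2)]
              unfold cc
              rw [if_neg hl1, zero_mul]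
      _ = _ := by simp
  have key3' : ∀ ξ, (fA (xt ξ) - fA ξ) ^ 2
      ≤ (∑ l ∈ B, cc G ε ρ i l ^ 2) * ∑ l ∈ B, ((xt ξ l : ℝ) - ξ l) ^ 2 := by
    intro ξ
    rw [← sq_abs]
    calc |fA (xt ξ) - fA ξ| ^ 2 ≤ (∑ l ∈ B, cc G ε ρ i l * |((xt ξ) l : ℝ) - ξ l|) ^ 2 :=
          pow_le_pow_left₀ (abs_nonneg _) (key3 _ _) 2
      _ ≤ (∑ l ∈ B, cc G ε ρ i l ^ 2) * ∑ l ∈ B, |((xt ξ) l : ℝ) - ξ l| ^ 2 :=
          Finset.sum_mul_sq_le_sq_mul_sq _ _ _
      _ = _ := by simp only [sq_abs]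
  -- the recovered noise is close to the driving noise
  have key4 : ∀ l ∈ S, ∀ ξ, ((xt ξ l : ℝ) - ξ l) ^ 2 ≤ ε ^ 2 / 16 *
      (Mf μ ε l.2 S' (mask U l (Ys μ ε S' U ξ)) - Mf μ ε l.2 S (mask U l (Ys μ ε S' U ξ))) ^ 2 := by
    intro l hl ξ
    have a1 : ((xt ξ l : unitInterval) : ℝ)
        = Fc (ε * Mf μ ε l.2 S (mask U l (Ys μ ε S' U ξ))) (Ys μ ε S' U ξ l) :=
      Psi_coe hε0 hε1 U hl (abs_Ys_le hε0 hε1 S' U ξ l)
    have a2 : ((ξ l : unitInterval) : ℝ)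
        = Fc (ε * Mf μ ε l.2 S' (mask U l (Ys μ ε S' U ξ))) (Ys μ ε S' U ξ l) := by
      have e := Ys_eq (μ := μ) (ε := ε) S' U ξ (hSS hl)
      generalize hc : ε * Mf μ ε l.2 S' (mask U l (Ys μ ε S' U ξ)) = c at e ⊢
      rw [e]
      exact (Fc_Qc (ξ l).2.1 (ξ l).2.2).symm
    have a3 : |((xt ξ l : ℝ) - ξ l)| ≤ |ε * Mf μ ε l.2 S (mask U l (Ys μ ε S' U ξ))
        - ε * Mf μ ε l.2 S' (mask U l (Ys μ ε S' U ξ))| / 4 := by
      rw [a1, a2]
      exact Fc_lip (abs_Ys_le hε0 hε1 S' U ξ l)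
    rw [← sq_abs ((xt ξ l : ℝ) - ξ l)]
    calc |((xt ξ l : ℝ) - ξ l)| ^ 2 ≤ (|ε * Mf μ ε l.2 S (mask U l (Ys μ ε S' U ξ))
        - ε * Mf μ ε l.2 S' (mask U l (Ys μ ε S' U ξ))| / 4) ^ 2 :=
          pow_le_pow_left₀ (abs_nonneg _) a3 2
      _ = _ := by
          rw [div_pow, sq_abs]
          ring
  have nM : ∀ (l : Site V) (T : Finset (Site V)), Nice (fun ξ : Site V → unitInterval =>
      Mf μ ε l.2 T (mask U l (Ys μ ε S' U ξ))) := by
    intro l T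
    exact (nice_Mf hε0 hε1 l.2 T).comp
      (measurable_mask measurable_const (measurable_Ys_right hε0 hε1 S' U) l)
  have nxt : ∀ l : Site V, Nice (fun ξ : Site V → unitInterval => ((xt ξ l : ℝ) - ξ l)) := by
    intro l
    refine ⟨?_, 1, fun ξ => ?_⟩
    · exact (measurable_coe_unit.comp ((measurable_pi_apply l).comp mxt)).sub
        (measurable_coe_unit.comp (measurable_pi_apply l))
    · rw [abs_le]
      constructor <;> linarith [(xt ξ l).2.1, (xt ξ l).2.2, (ξ l).2.1, (ξ l).2.2]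
  have key5 : ∀ l ∈ S, ∫ ξ, ((xt ξ l : ℝ) - ξ l) ^ 2 ∂P
      ≤ ε ^ 2 / 16 * (Jf μ ε l S' U - Jf μ ε l S U) := by
    intro l hl
    have h2 := l2_identity (μ := μ) hε0 hε1 hSS hnt l
    unfold Jf
    rw [← h2, ← integral_const_mul]
    exact ((nxt l).pow 2).integral_mono'
      ((Nice.const _).mul (((nM l S').sub (nM l S)).pow 2)) P (key4 l hl)
  have hBsub : B ⊆ Bfin G i R := by
    intro l hl
    have hl' := Finset.mem_filter.mp hl
    unfold Bfin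
    rw [Finset.mem_product]
    refine ⟨Finset.mem_range.mpr (by omega), ?_⟩
    rw [Finset.mem_biUnion]
    exact ⟨G.dist i.2 l.2, Finset.mem_range.mpr (by omega),
      (mem_sph hG.connected _ _ _).mpr rfl⟩
  have hJ0 : ∀ l, 0 ≤ Jf μ ε l S' U - Jf μ ε l S U := fun l =>
    sub_nonneg.mpr (Jf_mono hε0 hε1 hSS hnt l)
  have hcB : ∑ l ∈ B, cc G ε ρ i l ^ 2 ≤ ∑ l ∈ Bfin G i R, cc G ε ρ i l ^ 2 :=
    Finset.sum_le_sum_of_subset_of_nonneg hBsub (fun l _ _ => sq_nonneg _)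
  have hcB0 : 0 ≤ ∑ l ∈ B, cc G ε ρ i l ^ 2 := Finset.sum_nonneg (fun l _ => sq_nonneg _)
  have key6 : ∫ ξ, (fA (xt ξ) - fA ξ) ^ 2 ∂P
      ≤ (∑ l ∈ Bfin G i R, cc G ε ρ i l ^ 2) * (ε ^ 2 / 16)
          * ∑ l ∈ Bfin G i R, (Jf μ ε l S' U - Jf μ ε l S U) := by
    have nsum : Nice (fun ξ : Site V → unitInterval => ∑ l ∈ B, ((xt ξ l : ℝ) - ξ l) ^ 2) :=
      Nice.sum B (fun l _ => (nxt l).pow 2)
    calc ∫ ξ, (fA (xt ξ) - fA ξ) ^ 2 ∂P
        ≤ ∫ ξ, (∑ l ∈ B, cc G ε ρ i l ^ 2) * ∑ l ∈ B, ((xt ξ l : ℝ) - ξ l) ^ 2 ∂P :=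
          (((nfA.comp mxt).sub nfA).pow 2).integral_mono' ((Nice.const _).mul nsum) P key3'
      _ = (∑ l ∈ B, cc G ε ρ i l ^ 2) * ∑ l ∈ B, ∫ ξ, ((xt ξ l : ℝ) - ξ l) ^ 2 ∂P := by
          rw [integral_const_mul, integral_finsetSum _
            (fun l _ => ((nxt l).pow 2).integrable P)]
      _ ≤ (∑ l ∈ B, cc G ε ρ i l ^ 2)
            * ∑ l ∈ B, ε ^ 2 / 16 * (Jf μ ε l S' U - Jf μ ε l S U) := by
          apply mul_le_mul_of_nonneg_left _ hcB0
          apply Finset.sum_le_sum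
          intro l hl
          exact key5 l (Finset.mem_filter.mp hl).1
      _ ≤ (∑ l ∈ Bfin G i R, cc G ε ρ i l ^ 2)
            * ∑ l ∈ Bfin G i R, ε ^ 2 / 16 * (Jf μ ε l S' U - Jf μ ε l S U) := by
          apply mul_le_mul hcB
          · apply Finset.sum_le_sum_of_subset_of_nonneg hBsub
            intro l _ _
            exact mul_nonneg (by positivity) (hJ0 l)
          · apply Finset.sum_nonneg
            intro l _
            exact mul_nonneg (by positivity) (hJ0 l)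
          · exact Finset.sum_nonneg (fun l _ => sq_nonneg _)
      _ = _ := by rw [← Finset.mul_sum]; ring
  -- combine
  have nD : Nice (fun ξ : Site V → unitInterval => (Ys μ ε S' U ξ i - Ys μ ε S U ξ i) ^ 2) := by
    have : Nice (fun ξ : Site V → unitInterval => Ys μ ε S' U ξ i) :=
      ⟨(measurable_pi_apply i).comp (measurable_Ys_right hε0 hε1 S' U), 1,
        fun ξ => abs_Ys_le hε0 hε1 S' U ξ i⟩
    exact (this.sub nf).pow 2
  have na : Nice (fun ξ => (f (xt ξ) - fA (xt ξ)) ^ 2) := ((nf.sub nfA).pow 2).comp mxt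
  have nb : Nice (fun ξ => (fA (xt ξ) - fA ξ) ^ 2) := ((nfA.comp mxt).sub nfA).pow 2
  have nc : Nice (fun ξ => (f ξ - fA ξ) ^ 2) := (nf.sub nfA).pow 2
  have hpt : ∀ ξ, (Ys μ ε S' U ξ i - Ys μ ε S U ξ i) ^ 2
      ≤ 3 * ((f (xt ξ) - fA (xt ξ)) ^ 2 + (fA (xt ξ) - fA ξ) ^ 2 + (f ξ - fA ξ) ^ 2) := by
    intro ξ
    have e : Ys μ ε S' U ξ i - Ys μ ε S U ξ i
        = (f (xt ξ) - fA (xt ξ)) + (fA (xt ξ) - fA ξ) - (f ξ - fA ξ) := by
      rw [h1]; simp only [hf]; ring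
    rw [e]
    nlinarith [sq_nonneg ((f (xt ξ) - fA (xt ξ)) - (fA (xt ξ) - fA ξ)),
      sq_nonneg ((f (xt ξ) - fA (xt ξ)) + (f ξ - fA ξ)),
      sq_nonneg ((fA (xt ξ) - fA ξ) + (f ξ - fA ξ))]
  calc ∫ ξ, (Ys μ ε S' U ξ i - Ys μ ε S U ξ i) ^ 2 ∂P
      ≤ ∫ ξ, 3 * ((f (xt ξ) - fA (xt ξ)) ^ 2 + (fA (xt ξ) - fA ξ) ^ 2 + (f ξ - fA ξ) ^ 2) ∂P :=
        nD.integral_mono' ((Nice.const 3).mul ((na.add nb).add nc)) P hpt
    _ = 3 * (∫ ξ, (f (xt ξ) - fA (xt ξ)) ^ 2 ∂P + ∫ ξ, (fA (xt ξ) - fA ξ) ^ 2 ∂P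
          + ∫ ξ, (f ξ - fA ξ) ^ 2 ∂P) := by
        rw [integral_const_mul, (na.add nb).integral_add' nc, na.integral_add' nb]
    _ ≤ _ := by
        rw [key2]
        linarith

end

end Vale.Agent.H13.P161
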