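import Mathlib

/-!
Definitions for the free Ising measure on a regular tree and for factors of IID.
-/

namespace Vale.Agent.H13.P161

open MeasureTheory

/-- The real number `1` or `-1` attached to a spin (spins are the units `1, -1` of the integers). -/
def spinVal (s : ℤˣ) : ℝ := ((s : ℤ) : ℝ)

/-- The factor `(1 + θ η_u η_v) / 2` attached to an unordered pair `e = {u, v}` of vertices. -/
noncomputable def edgeWeight {V : Type*} (θ : ℝ) (η : V → ℤˣ) (e : Sym2 V) : ℝ :=
  Sym2.lift ⟨fun u v => (1 + θ * (spinVal (η u) * spinVal (η v))) / 2, fun u v => by ring⟩ e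

open Classical in
/-- `μ` is the free zero-field ferromagnetic Ising measure on the graph `G` (used for trees) at
inverse temperature `β`: with `θ = tanh β`, for every finite vertex set `D` inducing a connected
subgraph and every `η`, the cylinder event `σ = η on D` has probability
`(1/2) * ∏ (1 + θ η_u η_v)/2`, the product over the edges `{u, v}` of `G` with both ends in `D`. -/
def IsFreeIsing {V : Type*} (G : SimpleGraph V) (β : ℝ) (μ : Measure (V → ℤˣ)) : Prop :=
  ∀ D : Finset V, (G.induce (D : Set V)).Connected → ∀ η : V → ℤˣ,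
    μ {σ | ∀ v ∈ D, σ v = η v} =
      ENNReal.ofReal (1 / 2 * ∏ e ∈ D.sym2 with e ∈ G.edgeSet, edgeWeight (Real.tanh β) η e)

/-- The law of i.i.d. uniform `[0,1]` labels on `V`. -/
noncomputable def iidLabels (V : Type*) : Measure (V → unitInterval) :=
  Measure.infinitePi (fun _ : V => (volume : Measure unitInterval))

/-- `ν` is a factor of IID on `G`: it is the law of `Φ(U)` with `U` i.i.d. uniform on `[0,1]`,
`Φ` measurable, and `Φ(gU) = gΦ(U)` almost surely for each automorphism `g` of `G`, where
`(g x)_v = x_{g⁻¹ v}`. -/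
def IsFactorOfIID {V : Type*} (G : SimpleGraph V) (ν : Measure (V → ℤˣ)) : Prop :=
  ∃ Φ : (V → unitInterval) → (V → ℤˣ), Measurable Φ ∧
    (iidLabels V).map Φ = ν ∧
    ∀ g : G ≃g G, ∀ᵐ U ∂(iidLabels V),
      Φ (fun v => U (g.symm v)) = fun v => Φ U (g.symm v)

end Vale.Agent.H13.P161
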