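import Mathlib

/-!
Bounded measurable functions and elementary tools for product measures.
-/

namespace Vale.Agent.H13.P161

open MeasureTheory

/-- bounded measurable real functions -/
def Nice {Ω : Type*} [MeasurableSpace Ω] (f : Ω → ℝ) : Prop :=
  Measurable f ∧ ∃ C : ℝ, ∀ ω, |f ω| ≤ C

namespace Nice

variable {Ω Ω' : Type*} [MeasurableSpace Ω] [MeasurableSpace Ω'] {f g : Ω → ℝ}

lemma measurable (hf : Nice f) : Measurable f := hf.1

lemma mk' (hm : Measurable f) {C : ℝ} (hC : ∀ ω, |f ω| ≤ C) : Nice f := ⟨hm, C, hC⟩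

lemma const (c : ℝ) : Nice (fun _ : Ω => c) := ⟨measurable_const, |c|, fun _ => le_rfl⟩

lemma mul (hf : Nice f) (hg : Nice g) : Nice (fun ω => f ω * g ω) := by
  obtain ⟨C, hC⟩ := hf.2
  obtain ⟨D, hD⟩ := hg.2
  refine ⟨hf.1.mul hg.1, C * D, fun ω => ?_⟩
  rw [abs_mul]
  exact mul_le_mul (hC ω) (hD ω) (abs_nonneg _) ((abs_nonneg _).trans (hC ω))

lemma add (hf : Nice f) (hg : Nice g) : Nice (fun ω => f ω + g ω) := by
  obtain ⟨C, hC⟩ := hf.2
  obtain ⟨D, hD⟩ := hg.2
  exact ⟨hf.1.add hg.1, C + D, fun ω => (abs_add_le _ _).trans (add_le_add (hC ω) (hD ω))⟩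

lemma sub (hf : Nice f) (hg : Nice g) : Nice (fun ω => f ω - g ω) := by
  obtain ⟨C, hC⟩ := hf.2
  obtain ⟨D, hD⟩ := hg.2
  exact ⟨hf.1.sub hg.1, C + D, fun ω => (abs_sub _ _).trans (add_le_add (hC ω) (hD ω))⟩

lemma pow (hf : Nice f) (n : ℕ) : Nice (fun ω => f ω ^ n) := by
  induction n with
  | zero => simpa using Nice.const (Ω := Ω) 1
  | succ n ih => simpa [pow_succ] using ih.mul hf

lemma comp (hf : Nice f) {φ : Ω' → Ω} (hφ : Measurable φ) : Nice (fun ω => f (φ ω)) := by
  obtain ⟨C, hC⟩ := hf.2
  exact ⟨hf.1.comp hφ, C, fun ω => hC _⟩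

lemma prod {ι : Type*} (s : Finset ι) {F : ι → Ω → ℝ} (hF : ∀ i ∈ s, Nice (F i)) :
    Nice (fun ω => ∏ i ∈ s, F i ω) := by
  classical
  induction s using Finset.induction_on with
  | empty => simpa using Nice.const (Ω := Ω) 1
  | insert a s ha ih =>
    simp only [Finset.prod_insert ha]
    exact (hF a (Finset.mem_insert_self _ _)).mul
      (ih (fun i hi => hF i (Finset.mem_insert_of_mem hi)))

lemma sum {ι : Type*} (s : Finset ι) {F : ι → Ω → ℝ} (hF : ∀ i ∈ s, Nice (F i)) :
    Nice (fun ω => ∑ i ∈ s, F i ω) := by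
  classical
  induction s using Finset.induction_on with
  | empty => simpa using Nice.const (Ω := Ω) 0
  | insert a s ha ih =>
    simp only [Finset.sum_insert ha]
    exact (hF a (Finset.mem_insert_self _ _)).add
      (ih (fun i hi => hF i (Finset.mem_insert_of_mem hi)))

lemma integrable (hf : Nice f) (μ : Measure Ω) [IsFiniteMeasure μ] : Integrable f μ := by
  obtain ⟨C, hC⟩ := hf.2
  refine (integrable_const C).mono' hf.1.aestronglyMeasurable ?_
  exact Filter.Eventually.of_forall (fun ω => by simpa [Real.norm_eq_abs] using hC ω)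

lemma integral_add' (hf : Nice f) (hg : Nice g) (μ : Measure Ω) [IsFiniteMeasure μ] :
    ∫ ω, (f ω + g ω) ∂μ = ∫ ω, f ω ∂μ + ∫ ω, g ω ∂μ :=
  integral_add (hf.integrable μ) (hg.integrable μ)

lemma integral_sub' (hf : Nice f) (hg : Nice g) (μ : Measure Ω) [IsFiniteMeasure μ] :
    ∫ ω, (f ω - g ω) ∂μ = ∫ ω, f ω ∂μ - ∫ ω, g ω ∂μ :=
  integral_sub (hf.integrable μ) (hg.integrable μ)

lemma integral_sub_sq (hf : Nice f) (hg : Nice g) (μ : Measure Ω) [IsFiniteMeasure μ] :
    ∫ ω, (f ω - g ω) ^ 2 ∂μ
      = ∫ ω, f ω ^ 2 ∂μ - 2 * ∫ ω, f ω * g ω ∂μ + ∫ ω, g ω ^ 2 ∂μ := by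
  have e : ∀ ω, (f ω - g ω) ^ 2 = (f ω ^ 2 - 2 * (f ω * g ω)) + g ω ^ 2 := fun ω => by ring
  simp only [e]
  rw [((hf.pow 2).sub ((Nice.const 2).mul (hf.mul hg))).integral_add' (hg.pow 2),
    (hf.pow 2).integral_sub' ((Nice.const 2).mul (hf.mul hg)), integral_const_mul]

lemma integral_mono' (hf : Nice f) (hg : Nice g) (μ : Measure Ω) [IsFiniteMeasure μ]
    (h : ∀ ω, f ω ≤ g ω) : ∫ ω, f ω ∂μ ≤ ∫ ω, g ω ∂μ :=
  integral_mono (hf.integrable μ) (hg.integrable μ) h

lemma abs (hf : Nice f) : Nice (fun ω => |f ω|) := by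
  obtain ⟨C, hC⟩ := hf.2
  exact ⟨hf.1.abs, C, fun ω => by simpa using hC ω⟩

/-- partial integration of a nice function on a product -/
lemma integral_right {F : Ω × Ω' → ℝ} (hF : Nice F) (ν : Measure Ω') [IsProbabilityMeasure ν] :
    Nice (fun ω => ∫ x, F (ω, x) ∂ν) := by
  obtain ⟨C, hC⟩ := hF.2
  refine ⟨?_, C, fun ω => ?_⟩
  · exact (hF.1.stronglyMeasurable.integral_prod_right').measurable
  · calc |∫ x, F (ω, x) ∂ν| ≤ ∫ x, |F (ω, x)| ∂ν := abs_integral_le_integral_abs
      _ ≤ ∫ _x, C ∂ν := by
        apply integral_mono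
        · have := (hF.comp (measurable_prodMk_left (x := ω))).integrable ν
          exact this.abs
        · exact integrable_const C
        · exact fun x => hC _
      _ = C := by simp

lemma integral_left {F : Ω × Ω' → ℝ} (hF : Nice F) (μ : Measure Ω) [IsProbabilityMeasure μ] :
    Nice (fun x => ∫ ω, F (ω, x) ∂μ) := by
  have : Nice (fun p : Ω' × Ω => F (p.2, p.1)) := hF.comp measurable_swap
  exact this.integral_right μ

/-- Fubini for nice functions. -/
lemma integral_integral_swap {F : Ω × Ω' → ℝ} (hF : Nice F) (μ : Measure Ω) (ν : Measure Ω')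
    [IsFiniteMeasure μ] [IsFiniteMeasure ν] :
    ∫ ω, ∫ x, F (ω, x) ∂ν ∂μ = ∫ x, ∫ ω, F (ω, x) ∂μ ∂ν := by
  apply MeasureTheory.integral_integral_swap
  exact hF.integrable (μ.prod ν)

lemma integral_prod {F : Ω × Ω' → ℝ} (hF : Nice F) (μ : Measure Ω) (ν : Measure Ω')
    [IsFiniteMeasure μ] [IsFiniteMeasure ν] :
    ∫ p, F p ∂(μ.prod ν) = ∫ ω, ∫ x, F (ω, x) ∂ν ∂μ := by
  exact MeasureTheory.integral_prod F (hF.integrable (μ.prod ν))

end Nice

set_option linter.unusedSectionVars false

section Update

variable {I : Type*} [DecidableEq I]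
variable {X : I → Type*} [∀ i, MeasurableSpace (X i)]

lemma measurable_update_pair (i : I) :
    Measurable (fun p : (∀ j, X j) × X i => Function.update p.1 i p.2) := by
  rw [measurable_pi_iff]
  intro j
  by_cases h : j = i
  · subst h
    simpa using measurable_snd
  · simp only [Function.update_of_ne h]
    exact (measurable_pi_apply j).comp measurable_fst

/-- Resampling one coordinate preserves a product measure. -/
lemma measurePreserving_update (P : ∀ i, Measure (X i)) [∀ i, IsProbabilityMeasure (P i)] (i : I) :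
    MeasurePreserving (fun p : (∀ j, X j) × X i => Function.update p.1 i p.2)
      ((Measure.infinitePi P).prod (P i)) (Measure.infinitePi P) := by
  refine ⟨measurable_update_pair i, ?_⟩
  apply Measure.eq_infinitePi
  intro s t ht
  rw [Measure.map_apply (measurable_update_pair i) (.pi s.countable_toSet fun _ _ ↦ ht _)]
  have hset : (fun p : (∀ j, X j) × X i => Function.update p.1 i p.2) ⁻¹' ((s : Set I).pi t)
      = ((s.erase i : Finset I) : Set I).pi t ×ˢ (if i ∈ s then t i else Set.univ) := by
    ext p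
    simp only [Set.mem_preimage, Set.mem_pi, Finset.mem_coe, Set.mem_prod, Finset.mem_erase]
    constructor
    · intro h
      refine ⟨fun j hj => ?_, ?_⟩
      · have := h j hj.2
        rwa [Function.update_of_ne hj.1] at this
      · split_ifs with hi
        · simpa using h i hi
        · trivial
    · rintro ⟨h1, h2⟩ j hj
      by_cases hji : j = i
      · subst hji
        simpa [hj] using h2
      · rw [Function.update_of_ne hji]
        exact h1 j ⟨hji, hj⟩
  rw [hset, Measure.prod_prod, Measure.infinitePi_pi _ (fun i _ => ht i)]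
  by_cases hi : i ∈ s
  · rw [if_pos hi, Finset.prod_erase_mul _ _ hi]
  · rw [if_neg hi, Finset.erase_eq_of_notMem hi]
    simp

lemma integral_update (P : ∀ i, Measure (X i)) [∀ i, IsProbabilityMeasure (P i)] (i : I)
    {f : (∀ j, X j) → ℝ} (hf : Nice f) :
    ∫ ξ, f ξ ∂(Measure.infinitePi P)
      = ∫ ξ, ∫ x, f (Function.update ξ i x) ∂(P i) ∂(Measure.infinitePi P) := by
  have h := measurePreserving_update P i
  calc ∫ ξ, f ξ ∂(Measure.infinitePi P)
      = ∫ ξ, f ξ ∂(((Measure.infinitePi P).prod (P i)).map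
          (fun p : (∀ j, X j) × X i => Function.update p.1 i p.2)) := by rw [h.map_eq]
    _ = ∫ p, f (Function.update p.1 i p.2) ∂((Measure.infinitePi P).prod (P i)) := by
        rw [integral_map h.measurable.aemeasurable]
        exact hf.1.aestronglyMeasurable
    _ = _ := by
        exact (hf.comp (measurable_update_pair i)).integral_prod (Measure.infinitePi P) (P i)

/-- Mixture of two configurations: coordinates in `A` from the second. -/
def mix (A : Set I) [DecidablePred (· ∈ A)] (ξ ξ' : ∀ j, X j) : ∀ j, X j :=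
  fun j => if j ∈ A then ξ' j else ξ j

lemma measurable_mix (A : Set I) [DecidablePred (· ∈ A)] :
    Measurable (fun p : (∀ j, X j) × (∀ j, X j) => mix A p.1 p.2) := by
  rw [measurable_pi_iff]
  intro j
  by_cases h : j ∈ A
  · simp only [mix, if_pos h]
    exact (measurable_pi_apply j).comp measurable_snd
  · simp only [mix, if_neg h]
    exact (measurable_pi_apply j).comp measurable_fst

/-- Resampling the coordinates in `A` preserves a product measure. -/
lemma measurePreserving_mix (P : ∀ i, Measure (X i)) [∀ i, IsProbabilityMeasure (P i)]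
    (A : Set I) [DecidablePred (· ∈ A)] :
    MeasurePreserving (fun p : (∀ j, X j) × (∀ j, X j) => mix A p.1 p.2)
      ((Measure.infinitePi P).prod (Measure.infinitePi P)) (Measure.infinitePi P) := by
  refine ⟨measurable_mix A, ?_⟩
  apply Measure.eq_infinitePi
  intro s t ht
  rw [Measure.map_apply (measurable_mix A) (.pi s.countable_toSet fun _ _ ↦ ht _)]
  have hset : (fun p : (∀ j, X j) × (∀ j, X j) => mix A p.1 p.2) ⁻¹' ((s : Set I).pi t)
      = ((s.filter (fun j => ¬ j ∈ A) : Finset I) : Set I).pi t ×ˢ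
        ((s.filter (fun j => j ∈ A) : Finset I) : Set I).pi t := by
    ext p
    simp only [Set.mem_preimage, Set.mem_pi, Finset.mem_coe, Set.mem_prod, Finset.mem_filter, mix]
    constructor
    · intro h
      refine ⟨fun j hj => ?_, fun j hj => ?_⟩
      · have := h j hj.1
        rwa [if_neg hj.2] at this
      · have := h j hj.1
        rwa [if_pos hj.2] at this
    · rintro ⟨h1, h2⟩ j hj
      split_ifs with hA
      · exact h2 j ⟨hj, hA⟩
      · exact h1 j ⟨hj, hA⟩
  rw [hset, Measure.prod_prod, Measure.infinitePi_pi _ (fun i _ => ht i),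
    Measure.infinitePi_pi _ (fun i _ => ht i), mul_comm]
  exact Finset.prod_filter_mul_prod_filter_not s (fun j => j ∈ A) (fun i => P i (t i))

lemma integral_mix (P : ∀ i, Measure (X i)) [∀ i, IsProbabilityMeasure (P i)]
    (A : Set I) [DecidablePred (· ∈ A)] {f : (∀ j, X j) → ℝ} (hf : Nice f) :
    ∫ ξ, f ξ ∂(Measure.infinitePi P)
      = ∫ ξ, ∫ ξ', f (mix A ξ ξ') ∂(Measure.infinitePi P) ∂(Measure.infinitePi P) := by
  have h := measurePreserving_mix P A
  calc ∫ ξ, f ξ ∂(Measure.infinitePi P)
      = ∫ ξ, f ξ ∂(((Measure.infinitePi P).prod (Measure.infinitePi P)).map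
          (fun p : (∀ j, X j) × (∀ j, X j) => mix A p.1 p.2)) := by rw [h.map_eq]
    _ = ∫ p, f (mix A p.1 p.2) ∂((Measure.infinitePi P).prod (Measure.infinitePi P)) := by
        rw [integral_map h.measurable.aemeasurable]
        exact hf.1.aestronglyMeasurable
    _ = _ := by
        exact (hf.comp (measurable_mix A)).integral_prod (Measure.infinitePi P)
          (Measure.infinitePi P)

end Update

section Variance

variable {I : Type*} [DecidableEq I]
variable {X : Type*} [MeasurableSpace X] (P : Measure X) [IsProbabilityMeasure P]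

/-- average over the coordinates in `A` -/
noncomputable def avg (A : Finset I) (f : (I → X) → ℝ) (ξ : I → X) : ℝ :=
  ∫ ξ', f (mix (A : Set I) ξ ξ') ∂(Measure.infinitePi (fun _ : I => P))

variable {P}

lemma Nice.avg {f : (I → X) → ℝ} (hf : Nice f) (A : Finset I) : Nice (avg P A f) :=
  (hf.comp (measurable_mix (X := fun _ : I => X) (A : Set I))).integral_right
    (Measure.infinitePi (fun _ : I => P))

lemma avg_empty (f : (I → X) → ℝ) : avg P (∅ : Finset I) f = f := by
  ext ξ
  have h : ∀ ξ' : I → X, mix ((∅ : Finset I) : Set I) ξ ξ' = ξ := by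
    intro ξ'
    ext j
    simp [mix]
  unfold avg
  simp [h]

lemma avg_mix (A : Finset I) (f : (I → X) → ℝ) (ξ ξ' : I → X) :
    avg P A f (mix (A : Set I) ξ ξ') = avg P A f ξ := by
  unfold avg
  congr 1
  ext ξ''
  congr 1
  ext j
  by_cases h : j ∈ A <;> simp [mix, h]

lemma avg_insert {A : Finset I} {i : I} (hi : i ∉ A) {f : (I → X) → ℝ} (hf : Nice f) (ξ : I → X) :
    avg P (insert i A) f ξ = ∫ x, avg P A f (Function.update ξ i x) ∂P := by
  have hN : Nice (fun ξ' : I → X => f (mix ((insert i A : Finset I) : Set I) ξ ξ')) :=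
    hf.comp ((measurable_mix (X := fun _ : I => X) _).comp measurable_prodMk_left)
  unfold avg
  rw [integral_update (fun _ : I => P) i hN]
  have hN2 : Nice (fun p : (I → X) × X =>
      f (mix ((insert i A : Finset I) : Set I) ξ (Function.update p.1 i p.2))) :=
    hN.comp (measurable_update_pair (X := fun _ : I => X) i)
  rw [hN2.integral_integral_swap]
  congr 1
  ext x
  congr 1
  ext ξ'
  congr 1
  ext j
  by_cases hj : j = i
  · subst hj
    simp [mix, hi]
  · by_cases hjA : j ∈ A <;> simp [mix, hj, hjA]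

/-- oscillation of `f` in the coordinate `i` is at most `c` -/
def OscLe (f : (I → X) → ℝ) (i : I) (c : ℝ) : Prop :=
  ∀ (ξ : I → X) (x x' : X), |f (Function.update ξ i x) - f (Function.update ξ i x')| ≤ c

lemma OscLe.avg {f : (I → X) → ℝ} {i : I} {c : ℝ} (h : OscLe f i c) (hf : Nice f)
    {A : Finset I} (hi : i ∉ A) : OscLe (avg P A f) i c := by
  intro ξ x x'
  have hN : ∀ ξ : I → X, Nice (fun ξ' : I → X => f (mix (A : Set I) ξ ξ')) := fun ξ =>
    hf.comp ((measurable_mix (X := fun _ : I => X) _).comp measurable_prodMk_left)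
  unfold Vale.Agent.H13.P161.avg
  rw [← integral_sub ((hN _).integrable _) ((hN _).integrable _)]
  calc |∫ ξ', (f (mix (A : Set I) (Function.update ξ i x) ξ')
          - f (mix (A : Set I) (Function.update ξ i x') ξ')) ∂(Measure.infinitePi fun _ : I => P)|
      ≤ ∫ ξ', |f (mix (A : Set I) (Function.update ξ i x) ξ')
          - f (mix (A : Set I) (Function.update ξ i x') ξ')| ∂(Measure.infinitePi fun _ : I => P) :=
        abs_integral_le_integral_abs
    _ ≤ ∫ _ξ', c ∂(Measure.infinitePi fun _ : I => P) := by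
        apply integral_mono
        · exact (((hN _).sub (hN _)).integrable _).abs
        · exact integrable_const c
        · intro ξ'
          have e : ∀ x, mix (A : Set I) (Function.update ξ i x) ξ'
              = Function.update (mix (A : Set I) ξ ξ') i x := by
            intro x
            ext j
            by_cases hj : j = i
            · subst hj
              simp [mix, hi]
            · simp [mix, hj]
          simp only [e]
          exact h _ x x'
    _ = c := by simp

/-- Orthogonality: `∫ f * avg f = ∫ (avg f)^2`. -/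
lemma integral_mul_avg {f : (I → X) → ℝ} (hf : Nice f) (A : Finset I) :
    ∫ ξ, f ξ * avg P A f ξ ∂(Measure.infinitePi fun _ : I => P)
      = ∫ ξ, avg P A f ξ ^ 2 ∂(Measure.infinitePi fun _ : I => P) := by
  rw [integral_mix (fun _ : I => P) (A : Set I) (hf.mul (hf.avg A))]
  congr 1
  ext ξ
  simp only [avg_mix]
  rw [integral_mul_const, sq]
  rfl

/-- one more averaged coordinate costs at most `c ^ 2` -/
lemma integral_sq_avg_insert {f : (I → X) → ℝ} (hf : Nice f) {A : Finset I} {i : I} (hi : i ∉ A)
    {c : ℝ} (hc : OscLe f i c) :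
    ∫ ξ, avg P A f ξ ^ 2 ∂(Measure.infinitePi fun _ : I => P)
      - ∫ ξ, avg P (insert i A) f ξ ^ 2 ∂(Measure.infinitePi fun _ : I => P) ≤ c ^ 2 := by
  set g := avg P A f with hg
  have hgN : Nice g := hf.avg A
  have hosc : OscLe g i c := hc.avg hf hi
  have hins : avg P (insert i A) f = avg P {i} g := by
    ext ξ
    rw [avg_insert hi hf]
    have : ({i} : Finset I) = insert i ∅ := by simp
    rw [this, avg_insert (by simp) hgN]
    simp only [avg_empty]
    rfl
  rw [hins]
  have h1 : ∫ ξ, g ξ ^ 2 ∂(Measure.infinitePi fun _ : I => P)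
      - ∫ ξ, avg P {i} g ξ ^ 2 ∂(Measure.infinitePi fun _ : I => P)
      = ∫ ξ, (g ξ - avg P {i} g ξ) ^ 2 ∂(Measure.infinitePi fun _ : I => P) := by
    rw [hgN.integral_sub_sq (hgN.avg {i}), integral_mul_avg hgN]
    ring
  rw [h1]
  have hcnn : 0 ≤ c := by
    obtain ⟨ξ₀⟩ : Nonempty (I → X) := by
      have : (Measure.infinitePi fun _ : I => P) ≠ 0 := IsProbabilityMeasure.ne_zero _
      by_contra h
      rw [not_nonempty_iff] at h
      exact this (Measure.eq_zero_of_isEmpty _)
    exact (abs_nonneg _).trans (hosc ξ₀ (ξ₀ i) (ξ₀ i))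
  calc ∫ ξ, (g ξ - avg P {i} g ξ) ^ 2 ∂(Measure.infinitePi fun _ : I => P)
      ≤ ∫ _ξ, c ^ 2 ∂(Measure.infinitePi fun _ : I => P) := by
        apply integral_mono
        · exact ((hgN.sub (hgN.avg (P := P) {i})).pow 2).integrable _
        · exact integrable_const _
        · intro ξ
          have hle : |g ξ - avg P {i} g ξ| ≤ c := by
            have hN : Nice (fun ξ' : I → X => g (mix (({i} : Finset I) : Set I) ξ ξ')) :=
              hgN.comp ((measurable_mix (X := fun _ : I => X) _).comp measurable_prodMk_left)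
            have : g ξ - avg P {i} g ξ = ∫ ξ', (g ξ - g (mix (({i} : Finset I) : Set I) ξ ξ'))
                ∂(Measure.infinitePi fun _ : I => P) := by
              rw [integral_sub (integrable_const _) (hN.integrable _)]
              simp [Vale.Agent.H13.P161.avg]
            rw [this]
            calc |∫ ξ', (g ξ - g (mix (({i} : Finset I) : Set I) ξ ξ'))
                  ∂(Measure.infinitePi fun _ : I => P)|
                ≤ ∫ ξ', |g ξ - g (mix (({i} : Finset I) : Set I) ξ ξ')|
                  ∂(Measure.infinitePi fun _ : I => P) := abs_integral_le_integral_abs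
              _ ≤ ∫ _ξ', c ∂(Measure.infinitePi fun _ : I => P) := by
                apply integral_mono
                · exact (((Nice.const (g ξ)).sub hN).integrable _).abs
                · exact integrable_const _
                · intro ξ'
                  have e : mix (({i} : Finset I) : Set I) ξ ξ' = Function.update ξ i (ξ' i) := by
                    ext j
                    by_cases hj : j = i
                    · subst hj; simp [mix]
                    · simp [mix, hj]
                  have e2 : ξ = Function.update ξ i (ξ i) := by simp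
                  have := hosc ξ (ξ i) (ξ' i)
                  rw [← e2] at this
                  simpa [e] using this
              _ = c := by simp
          calc (g ξ - avg P {i} g ξ) ^ 2 = |g ξ - avg P {i} g ξ| ^ 2 := (sq_abs _).symm
            _ ≤ c ^ 2 := by
              exact pow_le_pow_left₀ (abs_nonneg _) hle 2
    _ = c ^ 2 := by simp

/-- Variance bound by squared oscillations. -/
lemma integral_sub_avg_sq_le {f : (I → X) → ℝ} (hf : Nice f) (c : I → ℝ) (A : Finset I)
    (hc : ∀ i ∈ A, OscLe f i (c i)) :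
    ∫ ξ, (f ξ - avg P A f ξ) ^ 2 ∂(Measure.infinitePi fun _ : I => P) ≤ ∑ i ∈ A, c i ^ 2 := by
  have h1 : ∫ ξ, (f ξ - avg P A f ξ) ^ 2 ∂(Measure.infinitePi fun _ : I => P)
      = ∫ ξ, f ξ ^ 2 ∂(Measure.infinitePi fun _ : I => P)
        - ∫ ξ, avg P A f ξ ^ 2 ∂(Measure.infinitePi fun _ : I => P) := by
    rw [hf.integral_sub_sq (hf.avg A), integral_mul_avg hf]
    ring
  rw [h1]
  clear h1
  induction A using Finset.induction_on with
  | empty => simp [avg_empty]
  | insert i A hi ih =>
    have ih' := ih (fun j hj => hc j (Finset.mem_insert_of_mem hj))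
    have h2 := integral_sq_avg_insert (P := P) hf hi (hc i (Finset.mem_insert_self _ _))
    rw [Finset.sum_insert hi]
    linarith

end Variance

end Vale.Agent.H13.P161
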