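import Vale.Agent.H13.P161.TreeMetric
import Vale.Agent.H13.P161.Nice
import Vale.Agent.H13.P161.Defs

/-!
The edge factorization property and the covariance bound on trees.
-/

namespace Vale.Agent.H13.P161

open MeasureTheory SimpleGraph

instance instMSCUnits : MeasurableSingletonClass ℤˣ := by
  refine ⟨fun a => ?_⟩
  refine ⟨{(a : ℤ)}, measurableSet_singleton _, ?_⟩
  ext b
  simp [Units.ext_iff]

lemma spinVal_mul_self (s : ℤˣ) : spinVal s * spinVal s = 1 := by
  rcases Int.units_eq_one_or s with h | h <;> simp [spinVal, h]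

lemma abs_spinVal (s : ℤˣ) : |spinVal s| = 1 := by
  rcases Int.units_eq_one_or s with h | h <;> simp [spinVal, h]

lemma measurable_spinFun (w : ℤˣ → ℝ) : Measurable w := measurable_of_finite w

variable {V : Type*} {G : SimpleGraph V}

lemma nice_site (w : ℤˣ → ℝ) (v : V) : Nice (fun σ : V → ℤˣ => w (σ v)) := by
  have : Nice w := by
    refine ⟨measurable_spinFun w, |w 1| + |w (-1)|, fun s => ?_⟩
    rcases Int.units_eq_one_or s with h | h
    · rw [h]; linarith [abs_nonneg (w (-1))]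
    · rw [h]; linarith [abs_nonneg (w 1)]
  exact this.comp (measurable_pi_apply v)

lemma nice_spin (v : V) : Nice (fun σ : V → ℤˣ => spinVal (σ v)) := nice_site _ v

/-- The Markov property of the free Ising measure across an edge, in algebraic form. -/
def EdgeFactor (G : SimpleGraph V) (θ : ℝ) (μ : Measure (V → ℤˣ)) : Prop :=
  ∀ a b, G.Adj a b → ∀ F H : (V → ℤˣ) → ℝ, Nice F → Nice H →
    (∀ σ σ' : V → ℤˣ, (∀ x, G.dist x a < G.dist x b → σ x = σ' x) → F σ = F σ') →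
    (∀ σ σ' : V → ℤˣ, (∀ x, G.dist x b < G.dist x a → σ x = σ' x) → H σ = H σ') →
    ∫ σ, F σ * H σ ∂μ = (∫ σ, F σ ∂μ) * (∫ σ, H σ ∂μ)
      + θ * (∫ σ, F σ * spinVal (σ a) ∂μ) * (∫ σ, H σ * spinVal (σ b) ∂μ)

section CovBound

variable {I : Type*} [DecidableEq I] (loc : I → V)

/-- product of single-site weights -/
noncomputable def Wt (w : I → ℤˣ → ℝ) (S : Finset I) (σ : V → ℤˣ) : ℝ :=
  ∏ j ∈ S, w j (σ (loc j))

lemma nice_Wt (w : I → ℤˣ → ℝ) (S : Finset I) : Nice (Wt loc w S) :=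
  Nice.prod S (fun j _ => nice_site (w j) (loc j))

lemma Wt_nonneg {w : I → ℤˣ → ℝ} (hw : ∀ j s, 0 ≤ w j s) (S : Finset I) (σ : V → ℤˣ) :
    0 ≤ Wt loc w S σ := Finset.prod_nonneg (fun j _ => hw j _)

lemma abs_integral_Wt_spin_le {μ : Measure (V → ℤˣ)} [IsProbabilityMeasure μ]
    {w : I → ℤˣ → ℝ} (hw : ∀ j s, 0 ≤ w j s) (S : Finset I) (v : V) :
    |∫ σ, Wt loc w S σ * spinVal (σ v) ∂μ| ≤ ∫ σ, Wt loc w S σ ∂μ := by
  calc |∫ σ, Wt loc w S σ * spinVal (σ v) ∂μ|
      ≤ ∫ σ, |Wt loc w S σ * spinVal (σ v)| ∂μ := abs_integral_le_integral_abs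
    _ = ∫ σ, Wt loc w S σ ∂μ := by
      congr 1
      ext σ
      rw [abs_mul, abs_spinVal, mul_one, abs_of_nonneg (Wt_nonneg loc hw S σ)]

/-- The covariance bound: the tilted covariance of `σ_u, σ_v` is at most `θ ^ dist`. -/
lemma cov_bound (hG : G.IsTree) {θ : ℝ} (hθ0 : 0 ≤ θ) (hθ1 : θ ≤ 1)
    {μ : Measure (V → ℤˣ)} [IsProbabilityMeasure μ] (hμ : EdgeFactor G θ μ)
    {w : I → ℤˣ → ℝ} (hw : ∀ j s, 0 ≤ w j s) :
    ∀ (n : ℕ) (u v : V), G.dist u v = n → ∀ S : Finset I,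
      |(∫ σ, Wt loc w S σ * spinVal (σ u) * spinVal (σ v) ∂μ) * (∫ σ, Wt loc w S σ ∂μ)
        - (∫ σ, Wt loc w S σ * spinVal (σ u) ∂μ) * (∫ σ, Wt loc w S σ * spinVal (σ v) ∂μ)|
      ≤ θ ^ n * ((∫ σ, Wt loc w S σ ∂μ) ^ 2 - (∫ σ, Wt loc w S σ * spinVal (σ v) ∂μ) ^ 2) := by
  intro n
  induction n with
  | zero =>
    intro u v huv S
    have : u = v := (hG.connected.dist_eq_zero_iff).mp huv
    subst this
    have e1 : ∀ σ : V → ℤˣ, Wt loc w S σ * spinVal (σ u) * spinVal (σ u) = Wt loc w S σ := by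
      intro σ
      rw [mul_assoc, spinVal_mul_self, mul_one]
    simp only [e1]
    have h := abs_integral_Wt_spin_le (μ := μ) loc hw S u
    have h2 : (∫ σ, Wt loc w S σ * spinVal (σ u) ∂μ) ^ 2 ≤ (∫ σ, Wt loc w S σ ∂μ) ^ 2 := by
      rw [← sq_abs]
      exact pow_le_pow_left₀ (abs_nonneg _) h 2
    rw [pow_zero, one_mul, ← sq, ← sq, abs_of_nonneg (by linarith)]
  | succ n ih =>
    intro u v huv S
    have hne : u ≠ v := by
      rintro rfl
      simp at huv
    obtain ⟨a, hadj, hda⟩ := exists_parent hG.connected hne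
    -- edge (a, v)
    have hav : G.Adj a v := hadj.symm
    classical
    set S₁ := S.filter (fun j => G.dist (loc j) a < G.dist (loc j) v) with hS₁
    set S₂ := S.filter (fun j => ¬ G.dist (loc j) a < G.dist (loc j) v) with hS₂
    have hW : ∀ σ, Wt loc w S σ = Wt loc w S₁ σ * Wt loc w S₂ σ := by
      intro σ
      exact (Finset.prod_filter_mul_prod_filter_not S _ _).symm
    have dep1 : ∀ σ σ' : V → ℤˣ, (∀ x, G.dist x a < G.dist x v → σ x = σ' x) →
        Wt loc w S₁ σ = Wt loc w S₁ σ' := by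
      intro σ σ' h
      apply Finset.prod_congr rfl
      intro j hj
      rw [h _ (Finset.mem_filter.mp hj).2]
    have dep2 : ∀ σ σ' : V → ℤˣ, (∀ x, G.dist x v < G.dist x a → σ x = σ' x) →
        Wt loc w S₂ σ = Wt loc w S₂ σ' := by
      intro σ σ' h
      apply Finset.prod_congr rfl
      intro j hj
      have h1 := (Finset.mem_filter.mp hj).2
      have h2 := hG.dist_ne_of_adj (loc j) hav
      rw [h _ (by omega)]
    have haside : G.dist a a < G.dist a v := by
      have : G.dist a v = 1 := dist_eq_one_iff_adj.mpr hav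
      simp [this]
    have hvside : G.dist v v < G.dist v a := by
      have : G.dist v a = 1 := dist_eq_one_iff_adj.mpr hadj
      simp [this]
    have huside : G.dist u a < G.dist u v := by omega
    have nW1 := nice_Wt loc w S₁
    have nW2 := nice_Wt loc w S₂
    -- abbreviations
    set A := ∫ σ, Wt loc w S₁ σ ∂μ with hA
    set B := ∫ σ, Wt loc w S₁ σ * spinVal (σ a) ∂μ with hB
    set Au := ∫ σ, Wt loc w S₁ σ * spinVal (σ u) ∂μ with hAu
    set Bu := ∫ σ, Wt loc w S₁ σ * spinVal (σ u) * spinVal (σ a) ∂μ with hBu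
    set C := ∫ σ, Wt loc w S₂ σ ∂μ with hC
    set E := ∫ σ, Wt loc w S₂ σ * spinVal (σ v) ∂μ with hE
    have hEE : ∫ σ, Wt loc w S₂ σ * spinVal (σ v) * spinVal (σ v) ∂μ = C := by
      rw [hC]
      congr 1
      ext σ
      rw [mul_assoc, spinVal_mul_self, mul_one]
    -- the four factorizations
    have f1 : ∫ σ, Wt loc w S σ ∂μ = A * C + θ * B * E := by
      simp only [hW]
      exact hμ a v hav _ _ nW1 nW2 dep1 dep2
    have f2 : ∫ σ, Wt loc w S σ * spinVal (σ u) ∂μ = Au * C + θ * Bu * E := by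
      have := hμ a v hav (fun σ => Wt loc w S₁ σ * spinVal (σ u)) (Wt loc w S₂)
        (nW1.mul (nice_spin u)) nW2
        (fun σ σ' h => by simp only [dep1 σ σ' h, h u huside]) dep2
      rw [hAu, hC, hBu, hE, ← this]
      congr 1
      ext σ
      rw [hW]; ring
    have f3 : ∫ σ, Wt loc w S σ * spinVal (σ v) ∂μ = A * E + θ * B * C := by
      have := hμ a v hav (Wt loc w S₁) (fun σ => Wt loc w S₂ σ * spinVal (σ v))
        nW1 (nW2.mul (nice_spin v)) dep1
        (fun σ σ' h => by simp only [dep2 σ σ' h, h v hvside])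
      rw [hEE] at this
      rw [hA, hE, hB, ← this]
      congr 1
      ext σ
      rw [hW]; ring
    have f4 : ∫ σ, Wt loc w S σ * spinVal (σ u) * spinVal (σ v) ∂μ = Au * E + θ * Bu * C := by
      have := hμ a v hav (fun σ => Wt loc w S₁ σ * spinVal (σ u))
        (fun σ => Wt loc w S₂ σ * spinVal (σ v))
        (nW1.mul (nice_spin u)) (nW2.mul (nice_spin v))
        (fun σ σ' h => by simp only [dep1 σ σ' h, h u huside])
        (fun σ σ' h => by simp only [dep2 σ σ' h, h v hvside])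
      rw [hEE] at this
      rw [hAu, hE, hBu, ← this]
      congr 1
      ext σ
      rw [hW]; ring
    have hih := ih u a (by omega) S₁
    rw [f1, f2, f3, f4]
    have hBa : |B| ≤ A := abs_integral_Wt_spin_le (μ := μ) loc hw S₁ a
    have hEC : |E| ≤ C := abs_integral_Wt_spin_le (μ := μ) loc hw S₂ v
    have hB2 : B ^ 2 ≤ A ^ 2 := by
      rw [← sq_abs]; exact pow_le_pow_left₀ (abs_nonneg _) hBa 2
    have hE2 : E ^ 2 ≤ C ^ 2 := by
      rw [← sq_abs]; exact pow_le_pow_left₀ (abs_nonneg _) hEC 2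
    have alg : (Au * E + θ * Bu * C) * (A * C + θ * B * E)
        - (Au * C + θ * Bu * E) * (A * E + θ * B * C)
        = θ * (Bu * A - Au * B) * (C ^ 2 - E ^ 2) := by ring
    have alg2 : (A * C + θ * B * E) ^ 2 - (A * E + θ * B * C) ^ 2
        = (A ^ 2 - θ ^ 2 * B ^ 2) * (C ^ 2 - E ^ 2) := by ring
    rw [alg, alg2, abs_mul, abs_mul, abs_of_nonneg hθ0, abs_of_nonneg (by linarith : 0 ≤ C ^ 2 - E ^ 2)]
    have hθB : θ ^ 2 * B ^ 2 ≤ B ^ 2 := by
      have : θ ^ 2 ≤ 1 := pow_le_one₀ hθ0 hθ1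
      nlinarith [sq_nonneg B]
    calc θ * |Bu * A - Au * B| * (C ^ 2 - E ^ 2)
        ≤ θ * (θ ^ n * (A ^ 2 - B ^ 2)) * (C ^ 2 - E ^ 2) := by
          apply mul_le_mul_of_nonneg_right _ (by linarith)
          exact mul_le_mul_of_nonneg_left hih hθ0
      _ = θ ^ (n + 1) * ((A ^ 2 - B ^ 2) * (C ^ 2 - E ^ 2)) := by ring
      _ ≤ θ ^ (n + 1) * ((A ^ 2 - θ ^ 2 * B ^ 2) * (C ^ 2 - E ^ 2)) := by
          apply mul_le_mul_of_nonneg_left _ (pow_nonneg hθ0 _)
          apply mul_le_mul_of_nonneg_right _ (by linarith)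
          linarith

end CovBound

end Vale.Agent.H13.P161
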