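import Vale.Agent.H13.P161.Broadcast

/-!
Existence, uniqueness, Markov property and invariance of the free Ising measure on a tree.
-/

set_option linter.unusedSectionVars false

namespace Vale.Agent.H13.P161

open MeasureTheory SimpleGraph

variable {V : Type*} {G : SimpleGraph V}

/-! ### Cylinder indicators -/

/-- the indicator of `σ = η on D` as a product -/
noncomputable def cylInd (D : Finset V) (η σ : V → ℤˣ) : ℝ :=
  ∏ v ∈ D, (1 + spinVal (η v) * spinVal (σ v)) / 2

lemma nice_cylInd (D : Finset V) (η : V → ℤˣ) : Nice (cylInd D η) :=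
  Nice.prod D (fun v _ => nice_site (fun s => (1 + spinVal (η v) * spinVal s) / 2) v)

lemma half_eq_ite (s t : ℤˣ) : (1 + spinVal s * spinVal t) / 2 = if t = s then 1 else 0 := by
  rcases Int.units_eq_one_or s with hs | hs <;> rcases Int.units_eq_one_or t with ht | ht <;>
    · subst hs; subst ht
      simp [spinVal]

lemma measurableSet_cyl (D : Finset V) (η : V → ℤˣ) :
    MeasurableSet {σ : V → ℤˣ | ∀ v ∈ D, σ v = η v} := by
  have : {σ : V → ℤˣ | ∀ v ∈ D, σ v = η v} = ⋂ v ∈ D, (fun σ : V → ℤˣ => σ v) ⁻¹' {η v} := by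
    ext σ
    simp
  rw [this]
  exact Finset.measurableSet_biInter _ (fun v _ => measurable_pi_apply v (measurableSet_singleton _))

lemma integral_cylInd (μ : Measure (V → ℤˣ)) (D : Finset V) (η : V → ℤˣ) :
    ∫ σ, cylInd D η σ ∂μ = μ.real {σ | ∀ v ∈ D, σ v = η v} := by
  classical
  rw [← integral_indicator_one (measurableSet_cyl D η)]
  congr 1
  ext σ
  simp only [cylInd, half_eq_ite, Finset.prod_boole, Set.indicator, Pi.one_apply]
  rfl

/-! ### Leaves of finite connected subsets -/

lemma exists_leaf [DecidableEq V] {D : Finset V} (hD : (G.induce (D : Set V)).Connected)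
    (h2 : 2 ≤ D.card) :
    ∃ b ∈ D, (G.induce ((D.erase b : Finset V) : Set V)).Connected := by
  have hnt : Nontrivial ↥(D : Set V) := by
    obtain ⟨x, hx, y, hy, hxy⟩ := Finset.one_lt_card.mp (by omega : 1 < D.card)
    exact ⟨⟨x, hx⟩, ⟨y, hy⟩, fun h => hxy (congrArg Subtype.val h)⟩
  obtain ⟨v, hv⟩ := hD.exists_connected_induce_compl_singleton_of_finite_nontrivial
  refine ⟨v.1, v.2, ?_⟩
  have hmem : ∀ x : ↥({v}ᶜ : Set ↥(D : Set V)), (x.1.1 : V) ∈ ((D.erase v.1 : Finset V) : Set V) := by
    intro x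
    rw [Finset.mem_coe, Finset.mem_erase]
    refine ⟨fun h => x.2 ?_, x.1.2⟩
    exact Subtype.ext h
  let φ : ((G.induce (D : Set V)).induce ({v}ᶜ : Set ↥(D : Set V))) →g
      (G.induce ((D.erase v.1 : Finset V) : Set V)) :=
    { toFun := fun x => ⟨x.1.1, hmem x⟩
      map_rel' := by
        intro x y hxy
        exact hxy }
  refine hv.map φ ?_
  intro y
  have hy := Finset.mem_erase.mp y.2
  refine ⟨⟨⟨y.1, hy.2⟩, ?_⟩, ?_⟩
  · intro h
    exact hy.1 (congrArg Subtype.val h)
  · rfl

lemma exists_nbr [DecidableEq V] {D : Finset V} (hD : (G.induce (D : Set V)).Connected)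
    (h2 : 2 ≤ D.card) {b : V} (hb : b ∈ D) : ∃ a ∈ D.erase b, G.Adj a b := by
  have hnt : Nontrivial ↥(D : Set V) := by
    obtain ⟨x, hx, y, hy, hxy⟩ := Finset.one_lt_card.mp (by omega : 1 < D.card)
    exact ⟨⟨x, hx⟩, ⟨y, hy⟩, fun h => hxy (congrArg Subtype.val h)⟩
  obtain ⟨w, hw⟩ := hD.preconnected.exists_adj_of_nontrivial (⟨b, hb⟩ : ↥(D : Set V))
  refine ⟨w.1, ?_, hw.symm⟩
  rw [Finset.mem_erase]
  refine ⟨fun h => ?_, w.2⟩
  have : G.Adj b w.1 := hw
  rw [h] at this
  exact this.ne rfl

lemma side_of_leaf [DecidableEq V] (hG : G.IsTree) {D : Finset V} {a b : V}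
    (hD : (G.induce ((D.erase b : Finset V) : Set V)).Connected) (ha : a ∈ D.erase b)
    (hab : G.Adj a b) : ∀ x ∈ D.erase b, G.dist x a < G.dist x b := by
  have haa : G.dist a a < G.dist a b := by
    have : G.dist a b = 1 := dist_eq_one_iff_adj.mpr hab
    simp [this]
  have key : ∀ (x y : ↥((D.erase b : Finset V) : Set V)),
      (G.induce ((D.erase b : Finset V) : Set V)).Walk x y →
      G.dist x.1 a < G.dist x.1 b → G.dist y.1 a < G.dist y.1 b := by
    intro x y p
    induction p with
    | nil => exact id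
    | @cons u w y huw q ih =>
      intro hu
      apply ih
      by_contra hcon
      have hne := hG.dist_ne_of_adj w.1 hab
      have h2 : G.dist w.1 b < G.dist w.1 a := by omega
      have := (side_adj hG hab hu h2 huw).2
      have hw : w.1 ∈ D.erase b := w.2
      rw [this] at hw
      simp at hw
  intro x hx
  obtain ⟨p⟩ := hD.preconnected (⟨a, ha⟩ : ↥((D.erase b : Finset V) : Set V)) ⟨x, hx⟩
  exact key _ _ p haa

open Classical in
lemma prod_edges_leaf (hG : G.IsTree) {D : Finset V} {a b : V} (hb : b ∈ D)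
    (ha : a ∈ D.erase b) (hab : G.Adj a b) (hside : ∀ x ∈ D.erase b, G.dist x a < G.dist x b)
    (f : Sym2 V → ℝ) :
    ∏ e ∈ D.sym2 with e ∈ G.edgeSet, f e
      = f s(a, b) * ∏ e ∈ (D.erase b).sym2 with e ∈ G.edgeSet, f e := by
  have hset : D.sym2.filter (fun e => e ∈ G.edgeSet)
      = insert s(a, b) ((D.erase b).sym2.filter (fun e => e ∈ G.edgeSet)) := by
    ext e
    induction e with | _ x y =>
    simp only [Finset.mem_filter, Finset.mk_mem_sym2_iff, Finset.mem_insert, mem_edgeSet]
    have hbb : G.dist b b < G.dist b a := by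
      have : G.dist b a = 1 := dist_eq_one_iff_adj.mpr hab.symm
      simp [this]
    constructor
    · rintro ⟨⟨hx, hy⟩, hxy⟩
      by_cases hxb : x = b
      · subst hxb
        have hy' : y ∈ D.erase x := Finset.mem_erase.mpr ⟨hxy.ne.symm, hy⟩
        have := (side_adj hG hab (hside y hy') hbb hxy.symm).1
        left
        rw [this]
        exact Sym2.eq_swap
      · by_cases hyb : y = b
        · subst hyb
          have hx' : x ∈ D.erase y := Finset.mem_erase.mpr ⟨hxy.ne, hx⟩
          have := (side_adj hG hab (hside x hx') hbb hxy).1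
          left
          rw [this]
        · right
          exact ⟨⟨Finset.mem_erase.mpr ⟨hxb, hx⟩, Finset.mem_erase.mpr ⟨hyb, hy⟩⟩, hxy⟩
    · rintro (h | ⟨⟨hx, hy⟩, hxy⟩)
      · have haD : a ∈ D := Finset.mem_of_mem_erase ha
        rcases Sym2.eq_iff.mp h with ⟨h1, h2⟩ | ⟨h1, h2⟩
        · rw [h1, h2]
          exact ⟨⟨haD, hb⟩, hab⟩
        · rw [h1, h2]
          exact ⟨⟨hb, haD⟩, hab.symm⟩
      · exact ⟨⟨Finset.mem_of_mem_erase hx, Finset.mem_of_mem_erase hy⟩, hxy⟩
  rw [hset, Finset.prod_insert]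
  simp

/-- A probability measure with the Markov factorization and centered spins has the marginals of
the free Ising measure. -/
lemma isFreeIsing_of_edgeFactor (hG : G.IsTree) {β : ℝ} {μ : Measure (V → ℤˣ)}
    [IsProbabilityMeasure μ] (hμ : EdgeFactor G (Real.tanh β) μ)
    (h0 : ∀ v, ∫ σ, spinVal (σ v) ∂μ = 0) : IsFreeIsing G β μ := by
  classical
  set θ := Real.tanh β with hθ
  have key : ∀ (n : ℕ) (D : Finset V), D.card = n → (G.induce (D : Set V)).Connected →
      ∀ η : V → ℤˣ, ∫ σ, cylInd D η σ ∂μ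
        = 1 / 2 * ∏ e ∈ D.sym2 with e ∈ G.edgeSet, edgeWeight θ η e := by
    intro n
    induction n with
    | zero =>
      intro D hD hc
      have : D = ∅ := Finset.card_eq_zero.mp hD
      subst this
      obtain ⟨x⟩ := hc.nonempty
      exact absurd x.2 (by simp)
    | succ n ih =>
      intro D hD hc η
      have half : ∀ v, ∫ σ, (1 + spinVal (η v) * spinVal (σ v)) / 2 ∂μ = 1 / 2 := by
        intro v
        have e : ∀ σ : V → ℤˣ, (1 + spinVal (η v) * spinVal (σ v)) / 2
            = 1 / 2 + (spinVal (η v) / 2) * spinVal (σ v) := fun σ => by ring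
        simp only [e]
        rw [(Nice.const (1 / 2)).integral_add' ((Nice.const _).mul (nice_spin v)),
          integral_const_mul, h0]
        simp
      by_cases h1 : D.card = 1
      · obtain ⟨v, rfl⟩ := Finset.card_eq_one.mp h1
        have e1 : ∀ σ : V → ℤˣ, cylInd {v} η σ = (1 + spinVal (η v) * spinVal (σ v)) / 2 := by
          intro σ; simp [cylInd]
        simp only [e1, half]
        have e2 : (({v} : Finset V).sym2.filter (fun e => e ∈ G.edgeSet)) = ∅ := by
          rw [Finset.sym2_singleton]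
          ext e
          simp only [Finset.mem_filter, Finset.mem_singleton, Finset.notMem_empty, iff_false]
          rintro ⟨rfl, h⟩
          exact G.loopless.irrefl v h
        rw [e2]
        simp
      · have h2 : 2 ≤ D.card := by omega
        obtain ⟨b, hb, hcb⟩ := exists_leaf hc h2
        obtain ⟨a, ha, hab⟩ := exists_nbr hc h2 hb
        have hside := side_of_leaf hG hcb ha hab
        have hih := ih (D.erase b) (by rw [Finset.card_erase_of_mem hb, hD]; rfl) hcb η
        rw [prod_edges_leaf hG hb ha hab hside]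
        have e1 : ∀ σ : V → ℤˣ, cylInd D η σ
            = cylInd (D.erase b) η σ * ((1 + spinVal (η b) * spinVal (σ b)) / 2) := by
          intro σ
          exact (Finset.prod_erase_mul D _ hb).symm
        have e2 : ∀ σ : V → ℤˣ, cylInd (D.erase b) η σ * spinVal (σ a)
            = spinVal (η a) * cylInd (D.erase b) η σ := by
          intro σ
          have : cylInd (D.erase b) η σ = ((1 + spinVal (η a) * spinVal (σ a)) / 2)
              * ∏ v ∈ (D.erase b).erase a, (1 + spinVal (η v) * spinVal (σ v)) / 2 :=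
            (Finset.mul_prod_erase (D.erase b) _ ha).symm
          rw [this]
          have h5 := spinVal_mul_self (σ a)
          have h6 := spinVal_mul_self (η a)
          have h7 : ((1 + spinVal (η a) * spinVal (σ a)) / 2) * spinVal (σ a)
              = spinVal (η a) * ((1 + spinVal (η a) * spinVal (σ a)) / 2) := by
            linear_combination (spinVal (η a) / 2) * h5 - (spinVal (σ a) / 2) * h6
          linear_combination
            (∏ v ∈ (D.erase b).erase a, (1 + spinVal (η v) * spinVal (σ v)) / 2) * h7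
        have hf := hμ a b hab (cylInd (D.erase b) η)
          (fun σ => (1 + spinVal (η b) * spinVal (σ b)) / 2) (nice_cylInd _ _)
          (nice_site (fun s => (1 + spinVal (η b) * spinVal s) / 2) b)
          (fun σ σ' h => Finset.prod_congr rfl (fun x hx => by rw [h x (hside x hx)]))
          (fun σ σ' h => by
            have hbb : G.dist b b < G.dist b a := by
              have : G.dist b a = 1 := dist_eq_one_iff_adj.mpr hab.symm
              simp [this]
            simp only [h b hbb])
        simp only [e1]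
        rw [hf]
        simp only [e2, half]
        rw [integral_const_mul, hih]
        have e3 : ∀ σ : V → ℤˣ, (1 + spinVal (η b) * spinVal (σ b)) / 2 * spinVal (σ b)
            = spinVal (η b) / 2 + 1 / 2 * spinVal (σ b) := by
          intro σ
          have h5 := spinVal_mul_self (σ b)
          linear_combination (spinVal (η b) / 2) * h5
        have e4 : ∫ σ, (1 + spinVal (η b) * spinVal (σ b)) / 2 * spinVal (σ b) ∂μ
            = spinVal (η b) / 2 := by
          simp only [e3]
          rw [(Nice.const _).integral_add' ((Nice.const _).mul (nice_spin b)),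
            integral_const_mul, h0]
          simp
        rw [e4]
        have e5 : edgeWeight θ η s(a, b)
            = (1 + θ * (spinVal (η a) * spinVal (η b))) / 2 := rfl
        rw [e5]
        ring
  intro D hD η
  have h := key D.card D rfl hD η
  rw [integral_cylInd] at h
  rw [← h, ofReal_measureReal]

/-! ### Uniqueness -/

lemma IsFreeIsing.univ_eq_one [Nonempty V] {β : ℝ} {μ : Measure (V → ℤˣ)}
    (hμ : IsFreeIsing G β μ) : μ Set.univ = 1 := by
  classical
  obtain ⟨o⟩ := ‹Nonempty V›
  have hc : (G.induce (({o} : Finset V) : Set V)).Connected := by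
    have : Nonempty ↥(({o} : Finset V) : Set V) := ⟨⟨o, by simp⟩⟩
    refine ⟨fun x y => ?_⟩
    have hx : x.1 = o := by simpa using x.2
    have hy : y.1 = o := by simpa using y.2
    have : x = y := Subtype.ext (hx.trans hy.symm)
    rw [this]
  have e2 : (({o} : Finset V).sym2.filter (fun e => e ∈ G.edgeSet)) = ∅ := by
    rw [Finset.sym2_singleton]
    ext e
    simp only [Finset.mem_filter, Finset.mem_singleton, Finset.notMem_empty, iff_false]
    rintro ⟨rfl, h⟩
    exact G.loopless.irrefl o h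
  have h1 := hμ {o} hc (fun _ => 1)
  have h2 := hμ {o} hc (fun _ => -1)
  rw [e2] at h1 h2
  have hu : (Set.univ : Set (V → ℤˣ)) = {σ | ∀ v ∈ ({o} : Finset V), σ v = 1}
      ∪ {σ | ∀ v ∈ ({o} : Finset V), σ v = -1} := by
    ext σ
    simp only [Set.mem_univ, Finset.mem_singleton, forall_eq, Set.mem_union, true_iff]
    exact Int.units_eq_one_or (σ o)
  have hd : Disjoint {σ : V → ℤˣ | ∀ v ∈ ({o} : Finset V), σ v = 1}
      {σ | ∀ v ∈ ({o} : Finset V), σ v = -1} := by
    rw [Set.disjoint_left]
    intro σ h h'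
    have a1 := h o (Finset.mem_singleton_self o)
    have a2 := h' o (Finset.mem_singleton_self o)
    rw [a1] at a2
    exact absurd a2 (by decide)
  rw [hu, measure_union hd (measurableSet_cyl {o} (fun _ => -1)), h1, h2]
  simp only [Finset.prod_empty, mul_one]
  rw [← ENNReal.ofReal_add (by norm_num) (by norm_num)]
  norm_num

/-- the generating family of cylinders -/
def cylFamily (G : SimpleGraph V) (o : V) : Set (Set (V → ℤˣ)) :=
  {A | ∃ (D : Finset V) (η : V → ℤˣ), o ∈ D ∧ (G.induce (D : Set V)).Connected ∧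
    A = {σ | ∀ v ∈ D, σ v = η v}}

lemma isPiSystem_cylFamily (o : V) : IsPiSystem (cylFamily G o) := by
  classical
  rintro A ⟨D, η, ho, hD, rfl⟩ B ⟨D', η', ho', hD', rfl⟩ ⟨τ, hτ1, hτ2⟩
  refine ⟨D ∪ D', τ, Finset.mem_union_left _ ho, ?_, ?_⟩
  · rw [Finset.coe_union]
    exact induce_union_connected hD.preconnected hD'.preconnected ⟨o, ho, ho'⟩
  · ext σ
    simp only [Set.mem_inter_iff, Set.mem_ofPred_eq, Finset.mem_union]
    constructor
    · rintro ⟨h1, h2⟩ v (hv | hv)
      · rw [h1 v hv, hτ1 v hv]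
      · rw [h2 v hv, hτ2 v hv]
    · intro h
      refine ⟨fun v hv => ?_, fun v hv => ?_⟩
      · rw [h v (Or.inl hv), hτ1 v hv]
      · rw [h v (Or.inr hv), hτ2 v hv]

lemma generateFrom_cylFamily (hG : G.Connected) (o : V) :
    (MeasurableSpace.pi : MeasurableSpace (V → ℤˣ))
      = MeasurableSpace.generateFrom (cylFamily G o) := by
  classical
  apply le_antisymm
  · apply iSup_le
    intro v
    rintro _ ⟨B, _, rfl⟩
    obtain ⟨D, hvD, hD⟩ := extend_finset_to_connected hG.preconnected
      (t := {o, v}) ⟨o, by simp⟩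
    have hoD : o ∈ D := hvD (by simp)
    have hvD' : v ∈ D := hvD (by simp)
    have e : (fun σ : V → ℤˣ => σ v) ⁻¹' B = ⋃ ξ : {ξ : (↥D → ℤˣ) // ξ ⟨v, hvD'⟩ ∈ B},
        {σ : V → ℤˣ | ∀ w ∈ D, σ w = (fun w => if h : w ∈ D then ξ.1 ⟨w, h⟩ else 1) w} := by
      ext σ
      simp only [Set.mem_preimage, Set.mem_iUnion, Set.mem_ofPred_eq]
      constructor
      · intro h
        refine ⟨⟨fun w => σ w.1, h⟩, ?_⟩
        intro w hw
        simp [hw]
      · rintro ⟨ξ, hξ⟩
        have := hξ v hvD'
        rw [dif_pos hvD'] at this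
        rw [this]
        exact ξ.2
    rw [e]
    refine MeasurableSet.iUnion (fun ξ => ?_)
    exact MeasurableSpace.measurableSet_generateFrom ⟨D, _, hoD, hD, rfl⟩
  · apply MeasurableSpace.generateFrom_le
    rintro A ⟨D, η, _, _, rfl⟩
    exact measurableSet_cyl D η

lemma isFreeIsing_unique (hG : G.Connected) {β : ℝ} {μ ν : Measure (V → ℤˣ)}
    (hμ : IsFreeIsing G β μ) (hν : IsFreeIsing G β ν) : μ = ν := by
  have hne : Nonempty V := hG.nonempty
  obtain ⟨o⟩ := hG.nonempty
  have : IsProbabilityMeasure μ := ⟨hμ.univ_eq_one⟩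
  apply ext_of_generate_finite (cylFamily G o) (generateFrom_cylFamily hG o)
    (isPiSystem_cylFamily o)
  · rintro A ⟨D, η, _, hD, rfl⟩
    rw [hμ D hD η, hν D hD η]
  · rw [hμ.univ_eq_one, hν.univ_eq_one]

lemma exists_isFreeIsing (hG : G.IsTree) (β : ℝ) :
    ∃ μ : Measure (V → ℤˣ), IsFreeIsing G β μ ∧ IsProbabilityMeasure μ ∧
      EdgeFactor G (Real.tanh β) μ := by
  classical
  obtain ⟨o⟩ := hG.connected.nonempty
  have hθ : |Real.tanh β| ≤ 1 := by
    have h1 := Real.tanh_lt_one β
    have h2 := Real.neg_one_lt_tanh β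
    exact abs_le.mpr ⟨h2.le, h1.le⟩
  have hp : IsProbabilityMeasure (bcMeasure G o (Real.tanh β)) :=
    isProb_bcMeasure hG.connected hθ
  refine ⟨bcMeasure G o (Real.tanh β), ?_, hp, edgeFactor_bcMeasure hG hθ⟩
  exact isFreeIsing_of_edgeFactor hG (edgeFactor_bcMeasure hG hθ)
    (bcMeasure_spin hG.connected hθ)

theorem existsUnique_isFreeIsing (hG : G.IsTree) (β : ℝ) :
    ∃! μ : Measure (V → ℤˣ), IsFreeIsing G β μ := by
  obtain ⟨μ, hμ, _, _⟩ := exists_isFreeIsing hG β
  exact ⟨μ, hμ, fun ν hν => isFreeIsing_unique hG.connected hν hμ⟩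

lemma IsFreeIsing.isProbabilityMeasure [Nonempty V] {β : ℝ} {μ : Measure (V → ℤˣ)}
    (hμ : IsFreeIsing G β μ) : IsProbabilityMeasure μ := ⟨hμ.univ_eq_one⟩

lemma IsFreeIsing.edgeFactor (hG : G.IsTree) {β : ℝ} {μ : Measure (V → ℤˣ)}
    (hμ : IsFreeIsing G β μ) : EdgeFactor G (Real.tanh β) μ := by
  obtain ⟨ν, hν, _, hν2⟩ := exists_isFreeIsing hG β
  rw [isFreeIsing_unique hG.connected hμ hν]
  exact hν2

/-! ### Invariance under automorphisms -/

lemma isFreeIsing_map {β : ℝ} {μ : Measure (V → ℤˣ)} (hμ : IsFreeIsing G β μ) (g : G ≃g G) :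
    IsFreeIsing G β (μ.map (fun (σ : V → ℤˣ) v => σ (g v))) := by
  classical
  intro D hD η
  have mg : Measurable (fun (σ : V → ℤˣ) (v : V) => σ (g v)) := by
    rw [measurable_pi_iff]
    intro v
    exact measurable_pi_apply _
  rw [Measure.map_apply mg (measurableSet_cyl D η)]
  have e : (fun (σ : V → ℤˣ) (v : V) => σ (g v)) ⁻¹' {σ | ∀ v ∈ D, σ v = η v}
      = {σ | ∀ v ∈ D.map g.toEquiv.toEmbedding, σ v = η (g.symm v)} := by
    ext σ
    simp only [Set.mem_preimage, Set.mem_ofPred_eq, Finset.mem_map]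
    constructor
    · rintro h v ⟨w, hw, rfl⟩
      have := h w hw
      simpa using this
    · intro h v hv
      have := h (g v) ⟨v, hv, rfl⟩
      simpa using this
  rw [e]
  have hc : (G.induce ((D.map g.toEquiv.toEmbedding : Finset V) : Set V)).Connected := by
    let φ : (G.induce (D : Set V)) →g
        (G.induce ((D.map g.toEquiv.toEmbedding : Finset V) : Set V)) :=
      { toFun := fun x => ⟨g x.1, by
          rw [Finset.mem_coe, Finset.mem_map]
          exact ⟨x.1, x.2, rfl⟩⟩
        map_rel' := by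
          intro x y hxy
          have h1 : G.Adj x.1 y.1 := hxy
          exact g.map_rel_iff.mpr h1 }
    refine hD.map φ ?_
    intro y
    obtain ⟨w, hw, hwy⟩ := Finset.mem_map.mp (Finset.mem_coe.mp y.2)
    exact ⟨⟨w, hw⟩, Subtype.ext hwy⟩
  rw [hμ _ hc (fun v => η (g.symm v))]
  congr 2
  symm
  apply Finset.prod_bij (fun e _ => Sym2.map g e)
  · intro e he
    rw [Finset.mem_filter] at he ⊢
    induction e with | _ x y =>
    rw [Finset.mk_mem_sym2_iff] at he
    rw [Sym2.map_mk, Finset.mk_mem_sym2_iff]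
    refine ⟨⟨Finset.mem_map.mpr ⟨x, he.1.1, rfl⟩, Finset.mem_map.mpr ⟨y, he.1.2, rfl⟩⟩, ?_⟩
    exact g.map_rel_iff.mpr he.2
  · intro e _ e' _ h
    exact Sym2.map.injective g.injective h
  · intro e he
    rw [Finset.mem_filter] at he
    induction e with | _ x y =>
    rw [Finset.mk_mem_sym2_iff] at he
    obtain ⟨⟨hx, hy⟩, hxy⟩ := he
    obtain ⟨x', hx', rfl⟩ := Finset.mem_map.mp hx
    obtain ⟨y', hy', rfl⟩ := Finset.mem_map.mp hy
    refine ⟨s(x', y'), ?_, rfl⟩
    rw [Finset.mem_filter, Finset.mk_mem_sym2_iff]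
    exact ⟨⟨hx', hy'⟩, g.map_rel_iff.mp hxy⟩
  · intro e _
    induction e with | _ x y =>
    simp [edgeWeight, Sym2.map_mk]

/-- invariance of the free Ising measure under automorphisms -/
lemma IsFreeIsing.inv (hG : G.Connected) {β : ℝ} {μ : Measure (V → ℤˣ)}
    (hμ : IsFreeIsing G β μ) (g : G ≃g G) :
    μ.map (fun (σ : V → ℤˣ) v => σ (g v)) = μ :=
  isFreeIsing_unique hG (isFreeIsing_map hμ g) hμ

end Vale.Agent.H13.P161
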