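import Vale.Agent.H13.P161.Assemble
import Vale.Agent.H13.P161.IsingMeasure

/-!
The free Ising measure on a regular tree is a factor of IID below the reconstruction threshold.
-/

namespace Vale.Agent.H13.P161

open MeasureTheory SimpleGraph

lemma countable_of_connected {V : Type*} {G : SimpleGraph V} [LocallyFinite G]
    (hG : G.Connected) : Countable V := by
  classical
  obtain ⟨o⟩ := hG.nonempty
  have h : (Set.univ : Set V) = ⋃ n : ℕ, ((sph G o n : Finset V) : Set V) := by
    ext v
    simp only [Set.mem_univ, Set.mem_iUnion, Finset.mem_coe, true_iff]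
    exact ⟨G.dist o v, (mem_sph hG o _ v).mpr rfl⟩
  rw [← Set.countable_univ_iff, h]
  exact Set.countable_iUnion (fun n => (sph G o n).countable_toSet)

theorem isFactorOfIID_of_isFreeIsing {V : Type*} {G : SimpleGraph V} [LocallyFinite G]
    (hG : G.IsTree) {d : ℕ} (hd : 3 ≤ d) (hreg : G.IsRegularOfDegree d) {β : ℝ} (hβ : 0 ≤ β)
    (hθ : Real.tanh β < 1 / √((d : ℝ) - 1)) {μ : Measure (V → ℤˣ)} (hμ : IsFreeIsing G β μ) :
    IsFactorOfIID G μ := by
  classical
  have hne : Nonempty V := hG.connected.nonempty
  have hc : Countable V := countable_of_connected hG.connected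
  have hp : IsProbabilityMeasure μ := hμ.isProbabilityMeasure
  have hθ0 : 0 ≤ Real.tanh β := by
    rw [Real.tanh_eq_sinh_div_cosh]
    exact div_nonneg (Real.sinh_nonneg_iff.mpr hβ) (Real.cosh_pos β).le
  exact factor_of_edgeFactor hG (by omega) hreg hθ0 hθ (hμ.edgeFactor hG)
    (fun g => hμ.inv hG.connected g)

end Vale.Agent.H13.P161
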