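import Vale.Agent.H13.P161.Sampler

/-!
The law of the sequentially sampled observations is the law of the soft observations of the
Ising configuration.
-/

set_option linter.unusedSectionVars false

namespace Vale.Agent.H13.P161

open MeasureTheory SimpleGraph

instance instProbIid (I : Type*) : IsProbabilityMeasure (iidLabels I) := by
  unfold iidLabels; infer_instance

lemma integral_update_iid {I : Type*} [DecidableEq I] (i : I) {f : (I → unitInterval) → ℝ}
    (hf : Nice f) :
    ∫ ξ, f ξ ∂(iidLabels I)
      = ∫ ξ, (∫ x : unitInterval, f (Function.update ξ i x)) ∂(iidLabels I) :=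
  integral_update (fun _ : I => (volume : Measure unitInterval)) i hf

variable {V : Type*} {G : SimpleGraph V} [DecidableEq V]

lemma spinVal_abs_lt {ε : ℝ} (hε0 : 0 ≤ ε) (hε1 : ε < 1) (s : ℤˣ) : |ε * spinVal s| < 1 := by
  rw [abs_mul, abs_spinVal, mul_one, abs_of_nonneg hε0]; exact hε1

/-- soft observations of the configuration `τ` at the sites of `S` -/
noncomputable def obs (ε : ℝ) (S : Finset (Site V)) (τ : V → ℤˣ) (ζ : Site V → unitInterval) :
    Site V → ℝ :=
  fun i => if i ∈ S then Qc (ε * spinVal (τ i.2)) (ζ i) else 0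

/-- independent uniform variables on `[-1,1]` at the sites of `S` -/
noncomputable def uni (S : Finset (Site V)) (ζ : Site V → unitInterval) : Site V → ℝ :=
  fun i => if i ∈ S then 2 * (ζ i : ℝ) - 1 else 0

lemma measurable_obs (ε : ℝ) (S : Finset (Site V)) :
    Measurable (fun p : (V → ℤˣ) × (Site V → unitInterval) => obs ε S p.1 p.2) := by
  rw [measurable_pi_iff]
  intro i
  unfold obs
  by_cases hi : i ∈ S
  · simp only [if_pos hi]
    have h1 : Measurable (fun p : (V → ℤˣ) × (Site V → unitInterval) =>
        ε * spinVal (p.1 i.2)) :=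
      ((nice_spin i.2).1.comp measurable_fst).const_mul ε
    have h2 : Measurable (fun p : (V → ℤˣ) × (Site V → unitInterval) =>
        ((p.2 i : unitInterval) : ℝ)) :=
      measurable_subtype_coe.comp ((measurable_pi_apply i).comp measurable_snd)
    exact measurable_Qc.comp (h1.prodMk h2)
  · simp only [if_neg hi]
    exact measurable_const

lemma measurable_obs_right (ε : ℝ) (S : Finset (Site V)) (τ : V → ℤˣ) :
    Measurable (fun ζ : Site V → unitInterval => obs ε S τ ζ) := by
  have h1 : Measurable (fun ζ : Site V → unitInterval => ((τ, ζ) :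
      (V → ℤˣ) × (Site V → unitInterval))) := measurable_prodMk_left
  exact (measurable_obs ε S).comp h1

lemma measurable_uni (S : Finset (Site V)) :
    Measurable (fun ζ : Site V → unitInterval => uni S ζ) := by
  rw [measurable_pi_iff]
  intro i
  unfold uni
  by_cases hi : i ∈ S
  · simp only [if_pos hi]
    have h2 : Measurable (fun ζ : Site V → unitInterval => ((ζ i : unitInterval) : ℝ)) :=
      measurable_subtype_coe.comp (measurable_pi_apply i)
    exact (h2.const_mul 2).sub_const 1
  · simp only [if_neg hi]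
    exact measurable_const

lemma obs_insert_update {ε : ℝ} {S : Finset (Site V)} {i : Site V} (_hi : i ∉ S) (τ : V → ℤˣ)
    (ζ : Site V → unitInterval) (x : unitInterval) :
    obs ε (insert i S) τ (Function.update ζ i x)
      = Function.update (obs ε S τ ζ) i (Qc (ε * spinVal (τ i.2)) x) := by
  ext j
  by_cases hj : j = i
  · subst hj; simp [obs]
  · simp [obs, hj]

lemma uni_insert_update {S : Finset (Site V)} {i : Site V} (_hi : i ∉ S)
    (ζ : Site V → unitInterval) (x : unitInterval) :
    uni (insert i S) (Function.update ζ i x) = Function.update (uni S ζ) i (2 * (x : ℝ) - 1) := by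
  ext j
  by_cases hj : j = i
  · subst hj; simp [uni]
  · simp [uni, hj]

lemma abs_two_mul_sub_one_le (x : unitInterval) : |2 * (x : ℝ) - 1| ≤ 1 := by
  rw [abs_le]
  constructor <;> linarith [x.2.1, x.2.2]

lemma measurable_coe_unit : Measurable (fun x : unitInterval => (x : ℝ)) := measurable_subtype_coe

lemma nice_centered (c : ℝ) : Nice (fun x : unitInterval => 1 + c * (2 * (x : ℝ) - 1)) := by
  have h : Nice (fun x : unitInterval => 2 * (x : ℝ) - 1) :=
    ⟨(measurable_coe_unit.const_mul 2).sub_const 1, 1, abs_two_mul_sub_one_le⟩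
  exact (Nice.const 1).add ((Nice.const c).mul h)

lemma measurable_upd_centered (i : Site V) :
    Measurable (fun p : (Site V → ℝ) × unitInterval =>
      Function.update p.1 i (2 * (p.2 : ℝ) - 1)) := by
  have h1 : Measurable (fun p : (Site V → ℝ) × unitInterval => (p.1, 2 * (p.2 : ℝ) - 1)) :=
    measurable_fst.prodMk
      (((measurable_coe_unit.comp measurable_snd).const_mul 2).sub_const 1)
  exact (measurable_update_pair (X := fun _ : Site V => ℝ) i).comp h1

/-- adding one observation to a test function -/
lemma nice_add_obs {k : (Site V → ℝ) → ℝ} (hk : Nice k) (i : Site V) (c : ℝ) :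
    Nice (fun y : Site V → ℝ => ∫ x : unitInterval,
      k (Function.update y i (2 * (x : ℝ) - 1)) * (1 + c * (2 * (x : ℝ) - 1))) := by
  have h : Nice (fun p : (Site V → ℝ) × unitInterval =>
      k (Function.update p.1 i (2 * (p.2 : ℝ) - 1)) * (1 + c * (2 * (p.2 : ℝ) - 1))) :=
    (hk.comp (measurable_upd_centered i)).mul ((nice_centered c).comp measurable_snd)
  exact h.integral_right volume

section

variable {ε : ℝ} (hε0 : 0 ≤ ε) (hε1 : ε < 1)

include hε0 hε1

lemma integral_obs (τ : V → ℤˣ) (S : Finset (Site V)) :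
    ∀ {k : (Site V → ℝ) → ℝ}, Nice k →
    ∫ ζ, k (obs ε S τ ζ) ∂(iidLabels (Site V))
      = ∫ ζ, k (uni S ζ) * Wy ε S (uni S ζ) τ ∂(iidLabels (Site V)) := by
  induction S using Finset.induction_on with
  | empty =>
    intro k _
    have e1 : ∀ ζ, obs ε (∅ : Finset (Site V)) τ ζ = fun _ => 0 := by
      intro ζ; ext j; simp [obs]
    have e2 : ∀ ζ, uni (∅ : Finset (Site V)) ζ = fun _ => 0 := by
      intro ζ; ext j; simp [uni]
    simp [e1, e2, Wy_def]
  | insert i S hi ih =>
    intro k hk
    set c := ε * spinVal (τ i.2) with hc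
    set K : (Site V → ℝ) → ℝ := fun y => ∫ x : unitInterval,
      k (Function.update y i (2 * (x : ℝ) - 1)) * (1 + c * (2 * (x : ℝ) - 1)) with hK
    have hKn : Nice K := nice_add_obs hk i c
    have hL : ∫ ζ, k (obs ε (insert i S) τ ζ) ∂(iidLabels (Site V))
        = ∫ ζ, K (obs ε S τ ζ) ∂(iidLabels (Site V)) := by
      rw [integral_update_iid i (hk.comp (measurable_obs_right ε (insert i S) τ))]
      congr 1
      ext ζ
      simp only [obs_insert_update hi]
      exact integral_Qc (spinVal_abs_lt hε0 hε1 _)
        (fun z => k (Function.update (obs ε S τ ζ) i z))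
    rw [hL, ih hKn]
    have hn : Nice (fun ζ : Site V → unitInterval =>
        k (uni (insert i S) ζ) * Wy ε (insert i S) (uni (insert i S) ζ) τ) := by
      apply (hk.comp (measurable_uni _)).mul
      have h1 : Nice (fun y : Site V → ℝ => Wy ε (insert i S) y τ) :=
        (nice_Wy_joint ε (insert i S)).comp measurable_prodMk_right
      exact h1.comp (measurable_uni _)
    rw [integral_update_iid i hn]
    congr 1
    ext ζ
    rw [hK]
    simp only [uni_insert_update hi]
    rw [← integral_mul_const]
    congr 1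
    ext x
    have e3 : ∀ j ∈ S, Function.update (uni S ζ) i (2 * (x : ℝ) - 1) j = uni S ζ j := by
      intro j hj
      have hji : j ≠ i := fun h => hi (h ▸ hj)
      exact Function.update_of_ne hji _ _
    rw [Wy_insert hi, Function.update_self, cl_of_abs_le (abs_two_mul_sub_one_le x),
      Wy_congr e3, hc]
    ring

end

section

variable {μ : Measure (V → ℤˣ)} [IsProbabilityMeasure μ]
variable {ε : ℝ} (hε0 : 0 ≤ ε) (hε1 : ε < 1)

include hε0 hε1

lemma integral_obs_joint (S : Finset (Site V)) {k : (Site V → ℝ) → ℝ} (hk : Nice k)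
    {f : (V → ℤˣ) → ℝ} (hf : Nice f) :
    ∫ τ, ∫ ζ, f τ * k (obs ε S τ ζ) ∂(iidLabels (Site V)) ∂μ
      = ∫ ζ, k (uni S ζ) * (∫ τ, Wy ε S (uni S ζ) τ * f τ ∂μ) ∂(iidLabels (Site V)) := by
  have h1 : ∀ τ : V → ℤˣ, ∫ ζ, f τ * k (obs ε S τ ζ) ∂(iidLabels (Site V))
      = ∫ ζ, f τ * (k (uni S ζ) * Wy ε S (uni S ζ) τ) ∂(iidLabels (Site V)) := by
    intro τ
    rw [integral_const_mul, integral_const_mul, integral_obs hε0 hε1 τ S hk]
  simp only [h1]
  have hN : Nice (fun p : (V → ℤˣ) × (Site V → unitInterval) =>
      f p.1 * (k (uni S p.2) * Wy ε S (uni S p.2) p.1)) := by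
    apply (hf.comp measurable_fst).mul
    have m1 : Measurable (fun p : (V → ℤˣ) × (Site V → unitInterval) => uni S p.2) :=
      (measurable_uni S).comp measurable_snd
    have m2 : Measurable (fun p : (V → ℤˣ) × (Site V → unitInterval) => (uni S p.2, p.1)) :=
      m1.prodMk measurable_fst
    have n1 := hk.comp m1
    have n2 := (nice_Wy_joint ε S).comp m2
    exact n1.mul n2
  rw [hN.integral_integral_swap]
  congr 1
  ext ζ
  rw [← integral_const_mul]
  congr 1
  ext τ
  ring

/-- The tower property: `Mf` is the conditional mean of the spin given the observations. -/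
lemma tower (S : Finset (Site V)) (v : V) {k : (Site V → ℝ) → ℝ} (hk : Nice k) :
    ∫ τ, ∫ ζ, spinVal (τ v) * k (obs ε S τ ζ) ∂(iidLabels (Site V)) ∂μ
      = ∫ τ, ∫ ζ, Mf μ ε v S (obs ε S τ ζ) * k (obs ε S τ ζ) ∂(iidLabels (Site V)) ∂μ := by
  rw [integral_obs_joint hε0 hε1 S hk (nice_spin v)]
  have h2 := integral_obs_joint (μ := μ) hε0 hε1 S ((nice_Mf (μ := μ) hε0 hε1 v S).mul hk)
    (Nice.const 1)
  simp only [one_mul, mul_one] at h2
  rw [h2]
  congr 1
  ext ζ
  have h3 : ∫ τ, Wy ε S (uni S ζ) τ * spinVal (τ v) ∂μ = Nf μ ε v S (uni S ζ) := rfl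
  have h4 : ∫ τ, Wy ε S (uni S ζ) τ ∂μ = Zf μ ε S (uni S ζ) := rfl
  rw [h3, h4, ← Mf_mul_Zf hε0 hε1]
  ring

omit hε0 hε1 in
lemma mask_self_insert {U : Site V → unitInterval} {S : Finset (Site V)} {a : Site V}
    (hb : ∀ x ∈ S, before U x a) (y : Site V → ℝ) (z : ℝ) :
    ∀ i ∈ S, Mf μ ε i.2 (insert a S) (mask U i (Function.update y a z))
      = Mf μ ε i.2 S (mask U i y) := by
  intro i hi
  apply Mf_subset i.2 (Finset.subset_insert a S)
  · intro j hj
    apply mask_congr
    intro _
    have : j ≠ a := by
      rintro rfl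
      exact before_irrefl U j (hb j hj)
    exact Function.update_of_ne this _ _
  · intro j hj hjS
    have hja : j = a := (Finset.mem_insert.mp hj).resolve_right hjS
    subst hja
    unfold mask
    rw [if_neg (before_asymm (hb i hi))]

lemma Ys_insert {U : Site V → unitInterval} {S : Finset (Site V)} {a : Site V} (ha : a ∉ S)
    (hb : ∀ x ∈ S, before U x a) (ξ : Site V → unitInterval) :
    Ys μ ε (insert a S) U ξ
      = Function.update (Ys μ ε S U ξ) a (Qc (ε * Mf μ ε a.2 S (Ys μ ε S U ξ)) (ξ a)) := by
  apply IsSol.unique (Ys_isSol _ U ξ)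
  refine ⟨fun i hi => ?_, fun i hi => ?_⟩
  · by_cases hia : i = a
    · subst hia
      rw [Function.update_self]
      have : Mf μ ε i.2 (insert i S) (mask U i (Function.update (Ys μ ε S U ξ) i
          (Qc (ε * Mf μ ε i.2 S (Ys μ ε S U ξ)) (ξ i)))) = Mf μ ε i.2 S (Ys μ ε S U ξ) := by
        apply Mf_subset i.2 (Finset.subset_insert i S)
        · intro j hj
          unfold mask
          rw [if_pos (hb j hj)]
          exact Function.update_of_ne (by rintro rfl; exact ha hj) _ _
        · intro j hj hjS
          have hja : j = i := (Finset.mem_insert.mp hj).resolve_right hjS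
          subst hja
          unfold mask
          rw [if_neg (before_irrefl U j)]
      rw [this]
    · have hiS : i ∈ S := (Finset.mem_insert.mp hi).resolve_left hia
      rw [Function.update_of_ne hia, mask_self_insert hb _ _ i hiS]
      exact Ys_eq S U ξ hiS
  · have hia : i ≠ a := by
      rintro rfl
      exact hi (Finset.mem_insert_self _ _)
    rw [Function.update_of_ne hia]
    exact Ys_off S U ξ (fun h => hi (Finset.mem_insert_of_mem h))

/-- The law of the sampler (fixed labels without ties). -/
lemma law_Ys (U : Site V → unitInterval) (S : Finset (Site V)) :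
    NoTie U S → ∀ {h : (Site V → ℝ) → ℝ}, Nice h →
    ∫ ξ, h (Ys μ ε S U ξ) ∂(iidLabels (Site V))
      = ∫ τ, ∫ ζ, h (obs ε S τ ζ) ∂(iidLabels (Site V)) ∂μ := by
  induction S using Finset.induction_on_max_value (fun i : Site V => toLex (i.1, U i)) with
  | empty =>
    intro _ h _
    have e1 : ∀ ξ, Ys μ ε (∅ : Finset (Site V)) U ξ = fun _ => 0 := by
      intro ξ; ext j; exact Ys_off _ _ _ (by simp)
    have e2 : ∀ τ ζ, obs ε (∅ : Finset (Site V)) τ ζ = fun _ => 0 := by
      intro τ ζ; ext j; simp [obs]
    simp [e1, e2]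
  | insert a S ha hmax ih =>
    intro hnt h hh
    have hb : ∀ x ∈ S, before U x a := by
      intro x hx
      rw [before_iff]
      refine lt_of_le_of_ne (hmax x hx) ?_
      intro heq
      have hxa : x ≠ a := by rintro rfl; exact ha hx
      have h2 := hnt x (Finset.mem_insert_of_mem hx) a (Finset.mem_insert_self _ _) hxa
      have h3 := congrArg (fun z => (ofLex z).2) heq
      exact h2 h3
    have hntS := hnt.mono (Finset.subset_insert _ _)
    -- test functions
    set k0 : (Site V → ℝ) → ℝ := fun y => ∫ x : unitInterval,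
      h (Function.update y a (2 * (x : ℝ) - 1)) with hk0
    set k1 : (Site V → ℝ) → ℝ := fun y => ∫ x : unitInterval,
      h (Function.update y a (2 * (x : ℝ) - 1)) * (2 * (x : ℝ) - 1) with hk1
    have hN0 : Nice (fun p : (Site V → ℝ) × unitInterval =>
        h (Function.update p.1 a (2 * (p.2 : ℝ) - 1))) := hh.comp (measurable_upd_centered a)
    have hc1 : Nice (fun x : unitInterval => 2 * (x : ℝ) - 1) :=
      ⟨(measurable_coe_unit.const_mul 2).sub_const 1, 1, abs_two_mul_sub_one_le⟩
    have hN1 : Nice (fun p : (Site V → ℝ) × unitInterval =>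
        h (Function.update p.1 a (2 * (p.2 : ℝ) - 1)) * (2 * (p.2 : ℝ) - 1)) :=
      hN0.mul (hc1.comp measurable_snd)
    have hk0n : Nice k0 := hN0.integral_right volume
    have hk1n : Nice k1 := hN1.integral_right volume
    have hcomb : ∀ (y : Site V → ℝ) (c : ℝ), |c| < 1 →
        ∫ x : unitInterval, h (Function.update y a (Qc c x)) = k0 y + c * k1 y := by
      intro y c hc
      rw [integral_Qc hc (fun z => h (Function.update y a z)), hk0, hk1]
      simp only
      have hy0 : Nice (fun x : unitInterval => h (Function.update y a (2 * (x : ℝ) - 1))) :=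
        hN0.comp (φ := fun x : unitInterval => (y, x)) measurable_prodMk_left
      have hy1 : Nice (fun x : unitInterval =>
          h (Function.update y a (2 * (x : ℝ) - 1)) * (2 * (x : ℝ) - 1)) :=
        hN1.comp (φ := fun x : unitInterval => (y, x)) measurable_prodMk_left
      rw [← integral_const_mul, ← hy0.integral_add' ((Nice.const c).mul hy1)]
      congr 1
      ext x
      ring
    have hMn := nice_Mf (μ := μ) hε0 hε1 a.2 S
    calc ∫ ξ, h (Ys μ ε (insert a S) U ξ) ∂(iidLabels (Site V))
        = ∫ ξ, (∫ x : unitInterval, h (Ys μ ε (insert a S) U (Function.update ξ a x)))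
            ∂(iidLabels (Site V)) :=
          integral_update_iid a (hh.comp (measurable_Ys_right hε0 hε1 _ U))
      _ = ∫ ξ, (k0 (Ys μ ε S U ξ)
            + ε * (Mf μ ε a.2 S (Ys μ ε S U ξ) * k1 (Ys μ ε S U ξ))) ∂(iidLabels (Site V)) := by
          congr 1
          ext ξ
          have e : ∀ x : unitInterval, Ys μ ε (insert a S) U (Function.update ξ a x)
              = Function.update (Ys μ ε S U ξ) a (Qc (ε * Mf μ ε a.2 S (Ys μ ε S U ξ)) x) := by
            intro x
            rw [Ys_insert hε0 hε1 ha hb, Ys_congr S U (ξ := Function.update ξ a x) (ξ' := ξ)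
              (fun i hi => Function.update_of_ne (by rintro rfl; exact ha hi) _ _),
              Function.update_self]
          simp only [e]
          rw [hcomb _ _ (abs_εM_lt hε0 hε1 _ _ _)]
          ring
      _ = ∫ τ, ∫ ζ, (k0 (obs ε S τ ζ)
            + ε * (Mf μ ε a.2 S (obs ε S τ ζ) * k1 (obs ε S τ ζ)))
              ∂(iidLabels (Site V)) ∂μ :=
          ih hntS (hk0n.add ((Nice.const ε).mul (hMn.mul hk1n)))
      _ = ∫ τ, ∫ ζ, (k0 (obs ε S τ ζ) + ε * (spinVal (τ a.2) * k1 (obs ε S τ ζ)))
              ∂(iidLabels (Site V)) ∂μ := by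
          have hon : ∀ {k : (Site V → ℝ) → ℝ}, Nice k →
              Nice (fun p : (V → ℤˣ) × (Site V → unitInterval) => k (obs ε S p.1 p.2)) :=
            fun hk => hk.comp (measurable_obs ε S)
          have hon1 : ∀ {k : (Site V → ℝ) → ℝ}, Nice k → ∀ τ,
              Nice (fun ζ : Site V → unitInterval => k (obs ε S τ ζ)) :=
            fun hk τ => hk.comp (measurable_obs_right ε S τ)
          have ea : ∀ τ, ∫ ζ, (k0 (obs ε S τ ζ)
              + ε * (Mf μ ε a.2 S (obs ε S τ ζ) * k1 (obs ε S τ ζ))) ∂(iidLabels (Site V))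
              = ∫ ζ, k0 (obs ε S τ ζ) ∂(iidLabels (Site V))
                + ε * ∫ ζ, Mf μ ε a.2 S (obs ε S τ ζ) * k1 (obs ε S τ ζ)
                  ∂(iidLabels (Site V)) := by
            intro τ
            rw [(hon1 hk0n τ).integral_add' ((Nice.const ε).mul (hon1 (hMn.mul hk1n) τ)),
              integral_const_mul]
          have eb : ∀ τ : V → ℤˣ, ∫ ζ, (k0 (obs ε S τ ζ)
              + ε * (spinVal (τ a.2) * k1 (obs ε S τ ζ))) ∂(iidLabels (Site V))
              = ∫ ζ, k0 (obs ε S τ ζ) ∂(iidLabels (Site V))
                + ε * ∫ ζ, spinVal (τ a.2) * k1 (obs ε S τ ζ) ∂(iidLabels (Site V)) := by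
            intro τ
            rw [(hon1 hk0n τ).integral_add'
              ((Nice.const ε).mul ((Nice.const _).mul (hon1 hk1n τ))), integral_const_mul]
          simp only [ea, eb]
          have n0 := (hon hk0n).integral_right (iidLabels (Site V))
          have n1 := (hon (hMn.mul hk1n)).integral_right (iidLabels (Site V))
          have n2 := (((nice_spin a.2).comp (measurable_fst)).mul (hon hk1n)).integral_right
            (iidLabels (Site V))
          rw [n0.integral_add' ((Nice.const ε).mul n1), n0.integral_add' ((Nice.const ε).mul n2),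
            integral_const_mul, integral_const_mul, tower hε0 hε1 S a.2 hk1n]
      _ = ∫ τ, ∫ ζ, h (obs ε (insert a S) τ ζ) ∂(iidLabels (Site V)) ∂μ := by
          congr 1
          ext τ
          rw [integral_update_iid a (hh.comp (measurable_obs_right ε (insert a S) τ))]
          congr 1
          ext ζ
          simp only [obs_insert_update ha]
          rw [hcomb _ _ (spinVal_abs_lt hε0 hε1 _)]
          ring

end

end Vale.Agent.H13.P161
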