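import Vale.Agent.H13.P161.Net

/-!
The infinite-volume limit of the sampler, its law and its equivariance.
-/

set_option linter.unusedSectionVars false

namespace Vale.Agent.H13.P161

open MeasureTheory SimpleGraph Filter Topology

lemma eLpNorm_two_le {Ω : Type*} [MeasurableSpace Ω] {P : Measure Ω} [IsProbabilityMeasure P]
    {f : Ω → ℝ} (hf : Nice f) {N : ℕ} (h : ∫ ω, f ω ^ 2 ∂P ≤ (1 / 4) ^ N) :
    eLpNorm f 2 P ≤ ENNReal.ofReal ((1 / 2) ^ N) := by
  obtain ⟨C, hC⟩ := hf.2
  have hmem : MemLp f 2 P := MemLp.of_bound hf.1.aestronglyMeasurable C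
    (Eventually.of_forall (fun ω => by simpa [Real.norm_eq_abs] using hC ω))
  rw [hmem.eLpNorm_eq_integral_rpow_norm (by norm_num) (by norm_num)]
  apply ENNReal.ofReal_le_ofReal
  have e1 : ∫ ω, ‖f ω‖ ^ (2 : ENNReal).toReal ∂P = ∫ ω, f ω ^ 2 ∂P := by
    congr 1
    ext ω
    rw [ENNReal.toReal_ofNat, Real.norm_eq_abs]
    have : |f ω| ^ (2 : ℝ) = |f ω| ^ (2 : ℕ) := by
      rw [← Real.rpow_natCast]; norm_num
    rw [this, sq_abs]
  rw [e1, ENNReal.toReal_ofNat]
  have h0 : 0 ≤ ∫ ω, f ω ^ 2 ∂P := integral_nonneg (fun ω => sq_nonneg _)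
  calc (∫ ω, f ω ^ 2 ∂P) ^ ((2 : ℝ)⁻¹) ≤ ((1 / 4 : ℝ) ^ N) ^ ((2 : ℝ)⁻¹) :=
        Real.rpow_le_rpow h0 h (by norm_num)
    _ = (1 / 2) ^ N := by
        have e2 : (1 / 4 : ℝ) ^ N = ((1 / 2) ^ N) ^ (2 : ℕ) := by
          rw [← pow_mul, mul_comm, pow_mul]; norm_num
        rw [e2, ← Real.rpow_natCast _ 2, ← Real.rpow_mul (by positivity)]
        norm_num

lemma ae_tendsto_of_sq_cauchy {Ω : Type*} [MeasurableSpace Ω] {P : Measure Ω}
    [IsProbabilityMeasure P] {f : ℕ → Ω → ℝ} (hf : ∀ n, Nice (f n)) {m₀ : ℕ}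
    (h : ∀ N, m₀ ≤ N → ∀ n m, N ≤ n → N ≤ m → ∫ ω, (f n ω - f m ω) ^ 2 ∂P ≤ (1 / 4) ^ N) :
    ∀ᵐ ω ∂P, ∃ l : ℝ, Tendsto (fun n => f n ω) atTop (𝓝 l) := by
  have key : ∀ᵐ ω ∂P, ∃ l : ℝ, Tendsto (fun n => f (n + m₀) ω) atTop (𝓝 l) := by
    apply Lp.ae_tendsto_of_cauchy_eLpNorm (p := 2) (f := fun n => f (n + m₀))
      (B := fun N => ENNReal.ofReal (2 * (1 / 2) ^ N))
    · exact fun n => (hf _).1.aestronglyMeasurable
    · norm_num
    · apply Summable.tsum_ofReal_ne_top
      exact (summable_geometric_of_lt_one (by norm_num) (by norm_num)).mul_left 2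
    · intro N n m hn hm
      have h1 := h (N + m₀) (by omega) (n + m₀) (m + m₀) (by omega) (by omega)
      have h2 : (1 / 4 : ℝ) ^ (N + m₀) ≤ (1 / 4) ^ N :=
        pow_le_pow_of_le_one (by norm_num) (by norm_num) (by omega)
      have h3 := eLpNorm_two_le (P := P) ((hf (n + m₀)).sub (hf (m + m₀))) (h1.trans h2)
      refine lt_of_le_of_lt h3 ?_
      rw [ENNReal.ofReal_lt_ofReal_iff (by positivity)]
      have : (0 : ℝ) < (1 / 2) ^ N := by positivity
      linarith
  filter_upwards [key] with ω hω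
  obtain ⟨l, hl⟩ := hω
  exact ⟨l, (tendsto_add_atTop_iff_nat m₀).mp hl⟩

variable {V : Type*} {G : SimpleGraph V} [DecidableEq V]

/-! ### Choice of an exhausting sequence -/

section

variable {μ : Measure (V → ℤˣ)} [IsProbabilityMeasure μ]
variable {ε : ℝ}

/-- abbreviation for the pair space -/
abbrev Om (V : Type*) := (Site V → unitInterval) × (Site V → unitInterval)

/-- law of labels and driving noise -/
noncomputable def PP (V : Type*) : Measure (Om V) :=
  (iidLabels (Site V)).prod (iidLabels (Site V))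

instance instProbPP : IsProbabilityMeasure (PP V) := by unfold PP; infer_instance

/-- Cauchy property along the net of finite volumes -/
def NetCauchy (μ : Measure (V → ℤˣ)) (ε : ℝ) : Prop :=
  ∀ i : Site V, ∀ δ : ℝ, 0 < δ → ∃ S₀ : Finset (Site V), ∀ A B : Finset (Site V),
    S₀ ⊆ A → S₀ ⊆ B → ∫ p, (Ys μ ε A p.1 p.2 i - Ys μ ε B p.1 p.2 i) ^ 2 ∂(PP V) ≤ δ

lemma exists_seq [Countable V] [Nonempty V] (h : NetCauchy μ ε) :
    ∃ T : ℕ → Finset (Site V), (∀ S : Finset (Site V), ∀ᶠ n in atTop, S ⊆ T n) ∧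
      ∀ i, ∃ m₀, ∀ N, m₀ ≤ N → ∀ n m, N ≤ n → N ≤ m →
        ∫ p, (Ys μ ε (T n) p.1 p.2 i - Ys μ ε (T m) p.1 p.2 i) ^ 2 ∂(PP V) ≤ (1 / 4) ^ N := by
  choose S₀ hS₀ using fun (i : Site V) (k : ℕ) =>
    h i ((1 / 4 : ℝ) ^ k) (by positivity)
  obtain ⟨e, he⟩ := exists_surjective_nat (Site V)
  set T : ℕ → Finset (Site V) := fun n => (Finset.range (n+1)).biUnion fun m =>
    insert (e m) ((Finset.range (n+1)).biUnion fun k => S₀ (e m) k) with hT
  refine ⟨T, ?_, ?_⟩
  · intro S
    have : ∀ᶠ n in atTop, ∀ i ∈ S, i ∈ T n := by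
      rw [Filter.eventually_all_finset]
      intro i _
      obtain ⟨m, rfl⟩ := he i
      filter_upwards [eventually_ge_atTop m] with n hn
      simp only [hT, Finset.mem_biUnion]
      exact ⟨m, Finset.mem_range.mpr (by omega), Finset.mem_insert_self _ _⟩
    filter_upwards [this] with n hn using hn
  · intro i
    obtain ⟨m, rfl⟩ := he i
    refine ⟨m, fun N hN n n' hn hn' => ?_⟩
    have hsub : ∀ n, N ≤ n → S₀ (e m) N ⊆ T n := by
      intro n hn x hx
      simp only [hT, Finset.mem_biUnion]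
      refine ⟨m, Finset.mem_range.mpr (by omega), Finset.mem_insert_of_mem ?_⟩
      rw [Finset.mem_biUnion]
      exact ⟨N, Finset.mem_range.mpr (by omega), hx⟩
    exact hS₀ (e m) N (T n) (T n') (hsub n hn) (hsub n' hn')

variable (μ ε) in
/-- the infinite-volume limit -/
noncomputable def Lm (T : ℕ → Finset (Site V)) (p : Om V) : Site V → ℝ :=
  fun i => limsup (fun n => Ys μ ε (T n) p.1 p.2 i) atTop

variable (hε0 : 0 ≤ ε) (hε1 : ε < 1)

include hε0 hε1

lemma measurable_Lm (T : ℕ → Finset (Site V)) : Measurable (Lm μ ε T) := by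
  rw [measurable_pi_iff]
  intro i
  exact Measurable.limsup (fun n => (nice_Ys hε0 hε1 (T n) i).1)

lemma ae_tendsto_Lm [Countable V] {T : ℕ → Finset (Site V)}
    (hT : ∀ i, ∃ m₀, ∀ N, m₀ ≤ N → ∀ n m, N ≤ n → N ≤ m →
        ∫ p, (Ys μ ε (T n) p.1 p.2 i - Ys μ ε (T m) p.1 p.2 i) ^ 2 ∂(PP V) ≤ (1 / 4) ^ N) :
    ∀ᵐ p ∂(PP V), ∀ i, Tendsto (fun n => Ys μ ε (T n) p.1 p.2 i) atTop (𝓝 (Lm μ ε T p i)) := by
  rw [ae_all_iff]
  intro i
  obtain ⟨m₀, hm₀⟩ := hT i
  filter_upwards [ae_tendsto_of_sq_cauchy (fun n => nice_Ys hε0 hε1 (T n) i) hm₀] with p hp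
  obtain ⟨l, hl⟩ := hp
  have : Lm μ ε T p i = l := hl.limsup_eq
  rw [this]
  exact hl

/-- full observation field -/
noncomputable def Obs (ε : ℝ) (τ : V → ℤˣ) (ζ : Site V → unitInterval) : Site V → ℝ :=
  fun i => Qc (ε * spinVal (τ i.2)) (ζ i)

omit hε0 hε1 in
lemma measurable_Obs (ε : ℝ) :
    Measurable (fun p : (V → ℤˣ) × (Site V → unitInterval) => Obs ε p.1 p.2) := by
  rw [measurable_pi_iff]
  intro i
  unfold Obs
  have h1 : Measurable (fun p : (V → ℤˣ) × (Site V → unitInterval) =>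
      ε * spinVal (p.1 i.2)) :=
    ((nice_spin i.2).1.comp measurable_fst).const_mul ε
  have h2 : Measurable (fun p : (V → ℤˣ) × (Site V → unitInterval) =>
      ((p.2 i : unitInterval) : ℝ)) :=
    measurable_subtype_coe.comp ((measurable_pi_apply i).comp measurable_snd)
  exact measurable_Qc.comp (h1.prodMk h2)

/-- The law of the limit is the law of the full observation field. -/
lemma law_Lm [Countable V] {T : ℕ → Finset (Site V)}
    (hex : ∀ S : Finset (Site V), ∀ᶠ n in atTop, S ⊆ T n)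
    (hconv : ∀ᵐ p ∂(PP V), ∀ i, Tendsto (fun n => Ys μ ε (T n) p.1 p.2 i) atTop
      (𝓝 (Lm μ ε T p i))) :
    (PP V).map (Lm μ ε T)
      = (μ.prod (iidLabels (Site V))).map (fun p => Obs ε p.1 p.2) := by
  have mL := measurable_Lm (μ := μ) hε0 hε1 T
  have mO := measurable_Obs (V := V) ε
  have i1 : IsProbabilityMeasure ((PP V).map (Lm μ ε T)) :=
    Measure.isProbabilityMeasure_map mL.aemeasurable
  have i2 : IsProbabilityMeasure ((μ.prod (iidLabels (Site V))).map
      (fun p => Obs ε p.1 p.2)) := Measure.isProbabilityMeasure_map mO.aemeasurable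
  apply ext_of_forall_integral_eq_of_IsFiniteMeasure
  intro f
  have mf : Measurable f := f.continuous.measurable
  have nf : Nice f := ⟨mf, ‖f‖, fun y => by
    simpa [Real.norm_eq_abs] using f.norm_coe_le_norm y⟩
  rw [integral_map mL.aemeasurable mf.aestronglyMeasurable,
    integral_map mO.aemeasurable mf.aestronglyMeasurable]
  -- the finite volume identity
  have e : ∀ n, ∫ p, f (Ys μ ε (T n) p.1 p.2) ∂(PP V)
      = ∫ p, f (obs ε (T n) p.1 p.2) ∂(μ.prod (iidLabels (Site V))) := by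
    intro n
    have n1 : Nice (fun p : Om V => f (Ys μ ε (T n) p.1 p.2)) :=
      nf.comp (measurable_Ys hε0 hε1 (T n))
    have n2 : Nice (fun p : (V → ℤˣ) × (Site V → unitInterval) => f (obs ε (T n) p.1 p.2)) :=
      nf.comp (measurable_obs ε (T n))
    rw [n2.integral_prod]
    unfold PP
    rw [n1.integral_prod]
    have : ∀ᵐ U ∂(iidLabels (Site V)), ∫ ξ, f (Ys μ ε (T n) U ξ) ∂(iidLabels (Site V))
        = ∫ τ, ∫ ζ, f (obs ε (T n) τ ζ) ∂(iidLabels (Site V)) ∂μ := by
      filter_upwards [noTie_ae (T n)] with U hU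
      exact law_Ys hε0 hε1 U (T n) hU nf
    rw [integral_congr_ae this]
    simp
  have t1 : Tendsto (fun n => ∫ p, f (Ys μ ε (T n) p.1 p.2) ∂(PP V)) atTop
      (𝓝 (∫ p, f (Lm μ ε T p) ∂(PP V))) := by
    apply tendsto_integral_of_dominated_convergence (fun _ => ‖f‖)
    · intro n
      exact (nf.comp (measurable_Ys hε0 hε1 (T n))).1.aestronglyMeasurable
    · exact integrable_const _
    · intro n
      exact Eventually.of_forall (fun p => f.norm_coe_le_norm _)
    · filter_upwards [hconv] with p hp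
      exact (f.continuous.tendsto _).comp (tendsto_pi_nhds.mpr hp)
  have t2 : Tendsto (fun n => ∫ p, f (obs ε (T n) p.1 p.2) ∂(μ.prod (iidLabels (Site V)))) atTop
      (𝓝 (∫ p, f (Obs ε p.1 p.2) ∂(μ.prod (iidLabels (Site V))))) := by
    apply tendsto_integral_of_dominated_convergence (fun _ => ‖f‖)
    · intro n
      exact (nf.comp (measurable_obs ε (T n))).1.aestronglyMeasurable
    · exact integrable_const _
    · intro n
      exact Eventually.of_forall (fun p => f.norm_coe_le_norm _)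
    · refine Eventually.of_forall (fun p => ?_)
      apply (f.continuous.tendsto _).comp
      rw [tendsto_pi_nhds]
      intro i
      apply tendsto_const_nhds.congr'
      filter_upwards [hex {i}] with n hn
      have : i ∈ T n := hn (Finset.mem_singleton_self i)
      simp [obs, Obs, this]
  simp only [e] at t1
  exact tendsto_nhds_unique t1 t2

end

/-! ### Equivariance -/

section Equivariance

variable (g : G ≃g G)

/-- action of an automorphism on sites -/
def sg : Site V ≃ Site V := (Equiv.refl ℕ).prodCongr g.toEquiv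

@[simp] lemma sg_fst (i : Site V) : (sg g i).1 = i.1 := rfl
@[simp] lemma sg_snd (i : Site V) : (sg g i).2 = g i.2 := rfl

/-- action on fields indexed by sites -/
def act {X : Type*} (x : Site V → X) : Site V → X := fun i => x ((sg g).symm i)

@[simp] lemma act_sg {X : Type*} (x : Site V → X) (i : Site V) : act g x (sg g i) = x i := by
  simp [act]

variable {μ : Measure (V → ℤˣ)} [IsProbabilityMeasure μ] {ε : ℝ}

/-- invariance of the spin measure under an automorphism -/
def InvUnder (μ : Measure (V → ℤˣ)) (g : G ≃g G) : Prop :=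
  μ.map (fun σ : V → ℤˣ => fun v => σ (g v)) = μ

lemma measurable_precomp : Measurable (fun σ : V → ℤˣ => fun v => σ (g v)) := by
  rw [measurable_pi_iff]
  intro v
  exact measurable_pi_apply (g v)

lemma integral_precomp (hinv : InvUnder μ g) {F : (V → ℤˣ) → ℝ} (hF : Nice F) :
    ∫ σ, F (fun v => σ (g v)) ∂μ = ∫ σ, F σ ∂μ := by
  conv_rhs => rw [← hinv]
  rw [integral_map (measurable_precomp g).aemeasurable]
  exact hF.1.aestronglyMeasurable

lemma Wy_map (S : Finset (Site V)) (y : Site V → ℝ) (σ : V → ℤˣ) :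
    Wy ε (S.map (sg g).toEmbedding) y σ = Wy ε S (fun i => y (sg g i)) (fun v => σ (g v)) := by
  simp only [Wy_def, Finset.prod_map, Equiv.coe_toEmbedding, sg_snd]

lemma Mf_map (hinv : InvUnder μ g) (v : V) (S : Finset (Site V)) (y : Site V → ℝ) :
    Mf μ ε (g v) (S.map (sg g).toEmbedding) y = Mf μ ε v S (fun i => y (sg g i)) := by
  unfold Mf Nf Zf
  simp only [Wy_map]
  have n1 := nice_Wy ε S (fun i => y (sg g i))
  have h1 := integral_precomp g hinv n1
  have h2 := integral_precomp g hinv (n1.mul (nice_spin v))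
  rw [h1, h2]

lemma before_act (U : Site V → unitInterval) (j i : Site V) :
    before (act g U) (sg g j) (sg g i) ↔ before U j i := by
  unfold before
  simp

lemma Ys_act (hinv : InvUnder μ g) (S : Finset (Site V)) (U ξ : Site V → unitInterval) :
    Ys μ ε (S.map (sg g).toEmbedding) (act g U) (act g ξ) = act g (Ys μ ε S U ξ) := by
  apply IsSol.unique (Ys_isSol _ _ _)
  refine ⟨fun i hi => ?_, fun i hi => ?_⟩
  · obtain ⟨j, hj, rfl⟩ := Finset.mem_map.mp hi
    simp only [Equiv.coe_toEmbedding, act_sg, sg_snd]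
    rw [Mf_map g hinv]
    have e : (fun l => mask (act g U) (sg g j) (act g (Ys μ ε S U ξ)) (sg g l))
        = mask U j (Ys μ ε S U ξ) := by
      ext l
      unfold mask
      by_cases hb : before U l j
      · have hb' := (before_act g U l j).mpr hb
        rw [if_pos hb, if_pos hb', act_sg]
      · have hb' := fun h => hb ((before_act g U l j).mp h)
        rw [if_neg hb, if_neg hb']
    rw [e]
    exact Ys_eq S U ξ hj
  · have : (sg g).symm i ∉ S := by
      intro h
      apply hi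
      rw [Finset.mem_map]
      exact ⟨(sg g).symm i, h, by simp⟩
    exact Ys_off S U ξ this

/-- action on the pair space -/
def act2 (p : Om V) : Om V := (act g p.1, act g p.2)

lemma measurePreserving_act : MeasurePreserving (act g : (Site V → unitInterval) → _)
    (iidLabels (Site V)) (iidLabels (Site V)) := by
  refine ⟨?_, ?_⟩
  · rw [measurable_pi_iff]
    intro i
    exact measurable_pi_apply _
  · unfold iidLabels
    exact Measure.map_infinitePi_infinitePi_of_inj (f := fun i => (sg g).symm i)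
      (sg g).symm.injective

lemma measurePreserving_act2 : MeasurePreserving (act2 g : Om V → Om V) (PP V) (PP V) := by
  unfold PP
  exact (measurePreserving_act g).prod (measurePreserving_act g)

variable (hε0 : 0 ≤ ε) (hε1 : ε < 1)

include hε0 hε1

lemma Lm_act [Countable V] (hinv : InvUnder μ g) (hnet : NetCauchy μ ε)
    {T : ℕ → Finset (Site V)}
    (hex : ∀ S : Finset (Site V), ∀ᶠ n in atTop, S ⊆ T n)
    (hconv : ∀ᵐ p ∂(PP V), ∀ i, Tendsto (fun n => Ys μ ε (T n) p.1 p.2 i) atTop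
      (𝓝 (Lm μ ε T p i))) :
    ∀ᵐ p ∂(PP V), ∀ i, Lm μ ε T (act2 g p) (sg g i) = Lm μ ε T p i := by
  rw [ae_all_iff]
  intro i
  set A : ℕ → Finset (Site V) := fun n => (T n).map (sg g).symm.toEmbedding with hA
  have hAT : ∀ n, (A n).map (sg g).toEmbedding = T n := by
    intro n
    simp only [hA, Finset.map_map]
    have : (sg g).symm.toEmbedding.trans (sg g).toEmbedding = Function.Embedding.refl _ := by
      ext x : 1; simp
    rw [this, Finset.map_refl]
  -- the difference tends to zero in L2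
  have hex' : ∀ S : Finset (Site V), ∀ᶠ n in atTop, S ⊆ A n := by
    intro S
    filter_upwards [hex (S.map (sg g).toEmbedding)] with n hn
    intro x hx
    rw [hA, Finset.mem_map]
    exact ⟨sg g x, hn (Finset.mem_map_of_mem _ hx), by simp⟩
  have nY := fun S => nice_Ys (μ := μ) hε0 hε1 S i
  set D : ℕ → Om V → ℝ := fun n p => Ys μ ε (A n) p.1 p.2 i - Ys μ ε (T n) p.1 p.2 i with hD
  have nD : ∀ n, Nice (D n) := fun n => (nY _).sub (nY _)
  have hD0 : Tendsto (fun n => ∫ p, D n p ^ 2 ∂(PP V)) atTop (𝓝 0) := by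
    rw [tendsto_order]
    constructor
    · intro a ha
      exact Eventually.of_forall (fun n =>
        lt_of_lt_of_le ha (integral_nonneg (fun p => sq_nonneg _)))
    · intro a ha
      obtain ⟨S₀, hS₀⟩ := hnet i (a / 2) (by positivity)
      filter_upwards [hex S₀, hex' S₀] with n h1 h2
      exact lt_of_le_of_lt (hS₀ _ _ h2 h1) (by linarith)
  have hconv2 := (measurePreserving_act2 (V := V) g).quasiMeasurePreserving.ae hconv
  have hlim : ∀ᵐ p ∂(PP V), Tendsto (fun n => D n p ^ 2) atTop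
      (𝓝 ((Lm μ ε T (act2 g p) (sg g i) - Lm μ ε T p i) ^ 2)) := by
    filter_upwards [hconv, hconv2] with p hp hp2
    have h1 := hp2 (sg g i)
    have e : ∀ n, Ys μ ε (T n) (act2 g p).1 (act2 g p).2 (sg g i) = Ys μ ε (A n) p.1 p.2 i := by
      intro n
      have := Ys_act (μ := μ) (ε := ε) g hinv (A n) p.1 p.2
      rw [hAT] at this
      unfold act2
      simp only
      rw [this, act_sg]
    simp only [e] at h1
    exact (h1.sub (hp i)).pow 2
  have hint : Tendsto (fun n => ∫ p, D n p ^ 2 ∂(PP V)) atTop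
      (𝓝 (∫ p, (Lm μ ε T (act2 g p) (sg g i) - Lm μ ε T p i) ^ 2 ∂(PP V))) := by
    apply tendsto_integral_of_dominated_convergence (fun _ => (4 : ℝ))
    · intro n
      exact ((nD n).pow 2).1.aestronglyMeasurable
    · exact integrable_const _
    · intro n
      refine Eventually.of_forall (fun p => ?_)
      have h1 := abs_Ys_le (μ := μ) hε0 hε1 (A n) p.1 p.2 i
      have h2 := abs_Ys_le (μ := μ) hε0 hε1 (T n) p.1 p.2 i
      rw [Real.norm_eq_abs, abs_pow]
      have h3 : |D n p| ≤ 2 := (abs_sub _ _).trans (by linarith)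
      calc |D n p| ^ 2 ≤ 2 ^ 2 := pow_le_pow_left₀ (abs_nonneg _) h3 2
        _ = 4 := by norm_num
    · exact hlim
  have hz : ∫ p, (Lm μ ε T (act2 g p) (sg g i) - Lm μ ε T p i) ^ 2 ∂(PP V) = 0 :=
    tendsto_nhds_unique hint hD0
  -- integrability: the integrand is a.e. bounded
  have mL := measurable_Lm (μ := μ) hε0 hε1 T
  have mF : Measurable (fun p : Om V => (Lm μ ε T (act2 g p) (sg g i) - Lm μ ε T p i) ^ 2) := by
    have m1 : Measurable (fun p : Om V => Lm μ ε T (act2 g p) (sg g i)) :=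
      (measurable_pi_iff.mp (mL.comp (measurePreserving_act2 g).measurable)) (sg g i)
    have m2 : Measurable (fun p : Om V => Lm μ ε T p i) := (measurable_pi_iff.mp mL) i
    exact (m1.sub m2).pow_const 2
  have hbd : ∀ᵐ p ∂(PP V), ‖(Lm μ ε T (act2 g p) (sg g i) - Lm μ ε T p i) ^ 2‖ ≤ 4 := by
    filter_upwards [hlim] with p hp
    apply le_of_tendsto hp.norm
    refine Eventually.of_forall (fun n => ?_)
    have h1 := abs_Ys_le (μ := μ) hε0 hε1 (A n) p.1 p.2 i
    have h2 := abs_Ys_le (μ := μ) hε0 hε1 (T n) p.1 p.2 i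
    rw [Real.norm_eq_abs, abs_pow]
    have h3 : |D n p| ≤ 2 := (abs_sub _ _).trans (by linarith)
    calc |D n p| ^ 2 ≤ 2 ^ 2 := pow_le_pow_left₀ (abs_nonneg _) h3 2
      _ = 4 := by norm_num
  have hI : Integrable (fun p : Om V => (Lm μ ε T (act2 g p) (sg g i) - Lm μ ε T p i) ^ 2)
      (PP V) := (integrable_const (4 : ℝ)).mono' mF.aestronglyMeasurable hbd
  rw [integral_eq_zero_iff_of_nonneg (fun p => sq_nonneg _) hI] at hz
  filter_upwards [hz] with p hp
  have : (Lm μ ε T (act2 g p) (sg g i) - Lm μ ε T p i) ^ 2 = 0 := hp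
  have := pow_eq_zero_iff (two_ne_zero) |>.mp this
  linarith

end Equivariance

end Vale.Agent.H13.P161
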