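import Vale.Agent.H13.P161.Compare2

/-!
Averaging over the labels and the Cauchy property along the net of finite volumes.
-/

set_option linter.unusedSectionVars false

namespace Vale.Agent.H13.P161

open MeasureTheory SimpleGraph Filter

variable {V : Type*} {G : SimpleGraph V} [DecidableEq V]

lemma ae_ne_of_ne {I : Type*} [DecidableEq I] {i j : I} (hij : i ≠ j) :
    ∀ᵐ U ∂(iidLabels I), U i ≠ U j := by
  have h := measurePreserving_update (fun _ : I => (volume : Measure unitInterval)) i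
  have hm : MeasurableSet {U : I → unitInterval | U i = U j} :=
    measurableSet_eq_fun (measurable_pi_apply i) (measurable_pi_apply j)
  rw [ae_iff]
  have e : {U : I → unitInterval | ¬ U i ≠ U j} = {U | U i = U j} := by
    ext U; simp
  rw [e]
  have h2 : iidLabels I {U : I → unitInterval | U i = U j}
      = ((iidLabels I).prod (volume : Measure unitInterval))
        ((fun p : (I → unitInterval) × unitInterval => Function.update p.1 i p.2) ⁻¹'
          {U : I → unitInterval | U i = U j}) := (h.measure_preimage hm.nullMeasurableSet).symm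
  rw [h2, Measure.measure_prod_null (h.measurable hm)]
  refine Eventually.of_forall (fun U => ?_)
  have e2 : (Prod.mk U ⁻¹' ((fun p : (I → unitInterval) × unitInterval =>
      Function.update p.1 i p.2) ⁻¹' {U : I → unitInterval | U i = U j})) = {U j} := by
    ext x
    simp [Function.update_of_ne hij.symm]
  have e3 : volume (Prod.mk U ⁻¹' ((fun p : (I → unitInterval) × unitInterval =>
      Function.update p.1 i p.2) ⁻¹' {U : I → unitInterval | U i = U j})) = 0 := by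
    rw [e2]; simp
  exact e3

lemma noTie_ae (S : Finset (Site V)) : ∀ᵐ U ∂(iidLabels (Site V)), NoTie U S := by
  unfold NoTie
  rw [Filter.eventually_all_finset]
  intro i _
  rw [Filter.eventually_all_finset]
  intro j _
  by_cases hij : i = j
  · exact Eventually.of_forall (fun U h => absurd hij h)
  · filter_upwards [ae_ne_of_ne hij] with U hU _ using hU

/-- the averaged `Jf` -/
noncomputable def Kf (μ : Measure (V → ℤˣ)) (ε : ℝ) (l : Site V) (S : Finset (Site V)) : ℝ :=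
  ∫ U, Jf μ ε l S U ∂(iidLabels (Site V))

section

variable {μ : Measure (V → ℤˣ)} [IsProbabilityMeasure μ]
variable {ε : ℝ} (hε0 : 0 ≤ ε) (hε1 : ε < 1)

include hε0 hε1

lemma nice_Jf (l : Site V) (S : Finset (Site V)) : Nice (Jf μ ε l S) := by
  have h1 : Nice (fun p : (Site V → unitInterval) × (Site V → unitInterval) =>
      Mf μ ε l.2 S (mask p.1 l (Ys μ ε S p.1 p.2)) ^ 2) := by
    apply Nice.pow
    exact (nice_Mf hε0 hε1 l.2 S).comp
      (measurable_mask measurable_fst (measurable_Ys hε0 hε1 S) l)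
  exact h1.integral_right (iidLabels (Site V))

lemma Jf_le_one (l : Site V) (S : Finset (Site V)) (U : Site V → unitInterval) :
    Jf μ ε l S U ≤ 1 := by
  have h1 : Nice (fun ξ : Site V → unitInterval =>
      Mf μ ε l.2 S (mask U l (Ys μ ε S U ξ)) ^ 2) := by
    apply Nice.pow
    exact (nice_Mf hε0 hε1 l.2 S).comp
      (measurable_mask measurable_const (measurable_Ys_right hε0 hε1 S U) l)
  calc Jf μ ε l S U ≤ ∫ _ξ : Site V → unitInterval, (1 : ℝ) ∂(iidLabels (Site V)) := by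
        apply h1.integral_mono' (Nice.const 1)
        intro ξ
        have := abs_Mf_le (μ := μ) hε0 hε1 l.2 S (mask U l (Ys μ ε S U ξ))
        rw [← sq_abs]
        exact pow_le_one₀ (abs_nonneg _) this
    _ = 1 := by simp

lemma Kf_le_one (l : Site V) (S : Finset (Site V)) : Kf μ ε l S ≤ 1 := by
  calc Kf μ ε l S ≤ ∫ _U : Site V → unitInterval, (1 : ℝ) ∂(iidLabels (Site V)) :=
        (nice_Jf hε0 hε1 l S).integral_mono' (Nice.const 1) _ (Jf_le_one hε0 hε1 l S)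
    _ = 1 := by simp

lemma Kf_mono (l : Site V) : Monotone (Kf μ ε l) := by
  intro S S' hSS
  apply integral_mono_ae ((nice_Jf hε0 hε1 l S).integrable _) ((nice_Jf hε0 hε1 l S').integrable _)
  filter_upwards [noTie_ae S'] with U hU
  exact Jf_mono hε0 hε1 hSS hU l

lemma sum_Kf_cauchy (B : Finset (Site V)) {η : ℝ} (hη : 0 < η) :
    ∃ S₀ : Finset (Site V), ∀ S S' : Finset (Site V), S₀ ⊆ S → S ⊆ S' →
      ∑ l ∈ B, (Kf μ ε l S' - Kf μ ε l S) ≤ η := by
  have hmono : Monotone (fun S : Finset (Site V) => ∑ l ∈ B, Kf μ ε l S) :=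
    fun S S' h => Finset.sum_le_sum (fun l _ => Kf_mono hε0 hε1 l h)
  have hbdd : BddAbove (Set.range (fun S : Finset (Site V) => ∑ l ∈ B, Kf μ ε l S)) := by
    refine ⟨B.card, ?_⟩
    rintro _ ⟨S, rfl⟩
    calc ∑ l ∈ B, Kf μ ε l S ≤ ∑ l ∈ B, 1 := Finset.sum_le_sum (fun l _ => Kf_le_one hε0 hε1 l S)
      _ = B.card := by simp
  set s := ⨆ S : Finset (Site V), ∑ l ∈ B, Kf μ ε l S with hs
  obtain ⟨S₀, hS₀⟩ := exists_lt_of_lt_ciSup (show s - η < s by linarith)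
  refine ⟨S₀, fun S S' h h' => ?_⟩
  rw [Finset.sum_sub_distrib]
  have h1 : ∑ l ∈ B, Kf μ ε l S' ≤ s := le_ciSup hbdd S'
  have h2 : ∑ l ∈ B, Kf μ ε l S₀ ≤ ∑ l ∈ B, Kf μ ε l S := hmono h
  linarith

end

section

variable [LocallyFinite G]
variable {μ : Measure (V → ℤˣ)} [IsProbabilityMeasure μ]
variable {ε : ℝ} (hε0 : 0 ≤ ε) (hε1 : ε < 1)
variable (hG : G.IsTree) {d : ℕ} (hd : 2 ≤ d) (hreg : ∀ v, G.degree v = d)
variable {θ ρ : ℝ} (hθ0 : 0 ≤ θ) (hθ1 : θ ≤ 1) (hθρ : θ < ρ) (hρ : ((d : ℝ) - 1) * (θ * ρ) < 1)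
variable (hρ1 : ((d : ℝ) - 1) * ρ ^ 2 < 1)
variable (hμ : EdgeFactor G θ μ)
variable (hκ : ε / 4 * (ε / (1 - ε) ^ 2) * (2 / (1 - ε)) * 2
  * (2 / (1 - ((d : ℝ) - 1) * (θ * ρ)) / (1 - θ / ρ)) ≤ 1 / 2)

include hε0 hε1 hG hd hreg hθ0 hθ1 hθρ hρ hρ1 hμ hκ

lemma compare_avg {S S' : Finset (Site V)} (hSS : S ⊆ S') {i : Site V} (hi : i ∈ S) (R : ℕ) :
    ∫ U, ∫ ξ, (Ys μ ε S' U ξ i - Ys μ ε S U ξ i) ^ 2 ∂(iidLabels (Site V)) ∂(iidLabels (Site V))
      ≤ 6 * tailC ε ρ d i.1 R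
        + 3 * (∑ l ∈ Bfin G i R, cc G ε ρ i l ^ 2) * (ε ^ 2 / 16)
          * ∑ l ∈ Bfin G i R, (Kf μ ε l S' - Kf μ ε l S) := by
  have n1 : Nice (fun p : (Site V → unitInterval) × (Site V → unitInterval) =>
      (Ys μ ε S' p.1 p.2 i - Ys μ ε S p.1 p.2 i) ^ 2) :=
    ((nice_Ys hε0 hε1 S' i).sub (nice_Ys hε0 hε1 S i)).pow 2
  have n2 := n1.integral_right (iidLabels (Site V))
  have n3 : Nice (fun U : Site V → unitInterval =>
      ∑ l ∈ Bfin G i R, (Jf μ ε l S' U - Jf μ ε l S U)) :=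
    Nice.sum _ (fun l _ => (nice_Jf hε0 hε1 l S').sub (nice_Jf hε0 hε1 l S))
  set T := 6 * tailC ε ρ d i.1 R with hT
  set K := 3 * (∑ l ∈ Bfin G i R, cc G ε ρ i l ^ 2) * (ε ^ 2 / 16) with hK
  have n4 : Nice (fun U : Site V → unitInterval =>
      T + K * ∑ l ∈ Bfin G i R, (Jf μ ε l S' U - Jf μ ε l S U)) :=
    (Nice.const T).add ((Nice.const K).mul n3)
  calc ∫ U, ∫ ξ, (Ys μ ε S' U ξ i - Ys μ ε S U ξ i) ^ 2
          ∂(iidLabels (Site V)) ∂(iidLabels (Site V))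
      ≤ ∫ U, (T + K * ∑ l ∈ Bfin G i R, (Jf μ ε l S' U - Jf μ ε l S U))
          ∂(iidLabels (Site V)) := by
        apply integral_mono_ae (n2.integrable _) (n4.integrable _)
        filter_upwards [noTie_ae S'] with U hU
        exact compare_fixed hε0 hε1 hG hd hreg hθ0 hθ1 hθρ hρ hρ1 hμ hκ hSS hU hi R
    _ = T + K * ∑ l ∈ Bfin G i R, (Kf μ ε l S' - Kf μ ε l S) := by
        have a1 := (Nice.const T).integral_add' ((Nice.const K).mul n3) (iidLabels (Site V))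
        have a2 : ∫ U, K * ∑ l ∈ Bfin G i R, (Jf μ ε l S' U - Jf μ ε l S U) ∂(iidLabels (Site V))
            = K * ∫ U, ∑ l ∈ Bfin G i R, (Jf μ ε l S' U - Jf μ ε l S U) ∂(iidLabels (Site V)) :=
          integral_const_mul _ _
        have a3 : ∫ U, ∑ l ∈ Bfin G i R, (Jf μ ε l S' U - Jf μ ε l S U) ∂(iidLabels (Site V))
            = ∑ l ∈ Bfin G i R, ∫ U, (Jf μ ε l S' U - Jf μ ε l S U) ∂(iidLabels (Site V)) :=
          integral_finsetSum _ (fun l _ =>
            (((nice_Jf hε0 hε1 l S').sub (nice_Jf hε0 hε1 l S)).integrable _))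
        have a4 : ∀ l, ∫ U, (Jf μ ε l S' U - Jf μ ε l S U) ∂(iidLabels (Site V))
            = Kf μ ε l S' - Kf μ ε l S := fun l =>
          (nice_Jf hε0 hε1 l S').integral_sub' (nice_Jf hε0 hε1 l S) _
        rw [a1, a2, a3]
        simp only [a4]
        simp

omit hε0 hε1 hG hreg hθ0 hθ1 hθρ hρ hμ hκ in
lemma tailC_tendsto (r : ℕ) : Tendsto (fun R => tailC ε ρ d r R) atTop (nhds 0) := by
  have hdd : (2 : ℝ) ≤ d := by exact_mod_cast hd
  have hq0 : 0 ≤ ((d : ℝ) - 1) * ρ ^ 2 := mul_nonneg (by linarith) (sq_nonneg ρ)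
  have h1 := tendsto_pow_atTop_nhds_zero_of_lt_one hq0 hρ1
  have h2 : Tendsto (fun R : ℕ => (r + 1) * ((2 / (1 - ε) * 2 ^ r * 2) ^ 2 *
    (2 * (((d : ℝ) - 1) * ρ ^ 2) ^ R / (1 - ((d : ℝ) - 1) * ρ ^ 2)))) atTop
    (nhds ((r + 1) * ((2 / (1 - ε) * 2 ^ r * 2) ^ 2 *
    (2 * 0 / (1 - ((d : ℝ) - 1) * ρ ^ 2))))) := by
    exact (((h1.const_mul 2).div_const _).const_mul _).const_mul _
  simpa [tailC] using h2

/-- The Cauchy property along increasing pairs of finite volumes. -/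
lemma cauchy_pair (i : Site V) {δ : ℝ} (hδ : 0 < δ) :
    ∃ S₀ : Finset (Site V), i ∈ S₀ ∧ ∀ S S' : Finset (Site V), S₀ ⊆ S → S ⊆ S' →
      ∫ U, ∫ ξ, (Ys μ ε S' U ξ i - Ys μ ε S U ξ i) ^ 2 ∂(iidLabels (Site V)) ∂(iidLabels (Site V))
        ≤ δ := by
  have ht := tailC_tendsto (ε := ε) hd hρ1 i.1
  obtain ⟨R, hR⟩ : ∃ R, tailC ε ρ d i.1 R < δ / 12 :=
    ((tendsto_order.mp ht).2 (δ / 12) (by positivity)).exists
  set K := 3 * (∑ l ∈ Bfin G i R, cc G ε ρ i l ^ 2) * (ε ^ 2 / 16) with hK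
  have hK0 : 0 ≤ K := by
    have : 0 ≤ ∑ l ∈ Bfin G i R, cc G ε ρ i l ^ 2 := Finset.sum_nonneg (fun l _ => sq_nonneg _)
    positivity
  obtain ⟨S₁, hS₁⟩ := sum_Kf_cauchy (μ := μ) hε0 hε1 (Bfin G i R)
    (show 0 < δ / (2 * (K + 1)) by positivity)
  refine ⟨insert i S₁, Finset.mem_insert_self _ _, fun S S' h h' => ?_⟩
  have h1 := compare_avg hε0 hε1 hG hd hreg hθ0 hθ1 hθρ hρ hρ1 hμ hκ h'
    (h (Finset.mem_insert_self _ _)) R
  have h2 := hS₁ S S' ((Finset.subset_insert _ _).trans h) h'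
  have h3 : K * ∑ l ∈ Bfin G i R, (Kf μ ε l S' - Kf μ ε l S) ≤ δ / 2 := by
    calc K * ∑ l ∈ Bfin G i R, (Kf μ ε l S' - Kf μ ε l S) ≤ K * (δ / (2 * (K + 1))) :=
          mul_le_mul_of_nonneg_left h2 hK0
      _ ≤ (K + 1) * (δ / (2 * (K + 1))) := by
          apply mul_le_mul_of_nonneg_right (by linarith) (by positivity)
      _ = δ / 2 := by field_simp
  rw [← hK] at h1
  linarith

/-- The Cauchy property along the net of finite volumes. -/
lemma cauchy_net (i : Site V) {δ : ℝ} (hδ : 0 < δ) :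
    ∃ S₀ : Finset (Site V), ∀ A B : Finset (Site V), S₀ ⊆ A → S₀ ⊆ B →
      ∫ p, (Ys μ ε A p.1 p.2 i - Ys μ ε B p.1 p.2 i) ^ 2
        ∂((iidLabels (Site V)).prod (iidLabels (Site V))) ≤ δ := by
  obtain ⟨S₀, -, hS₀⟩ := cauchy_pair hε0 hε1 hG hd hreg hθ0 hθ1 hθρ hρ hρ1 hμ hκ i
    (show 0 < δ / 4 by positivity)
  refine ⟨S₀, fun A B hA hB => ?_⟩
  have nY := fun S => nice_Ys (μ := μ) hε0 hε1 S i
  have h1 := hS₀ A (A ∪ B) hA Finset.subset_union_left
  have h2 := hS₀ B (A ∪ B) hB Finset.subset_union_right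
  have e1 := (((nY (A ∪ B)).sub (nY A)).pow 2).integral_prod
    (iidLabels (Site V)) (iidLabels (Site V))
  have e2 := (((nY (A ∪ B)).sub (nY B)).pow 2).integral_prod
    (iidLabels (Site V)) (iidLabels (Site V))
  rw [← e1] at h1
  rw [← e2] at h2
  have n1 := ((nY (A ∪ B)).sub (nY A)).pow 2
  have n2 := ((nY (A ∪ B)).sub (nY B)).pow 2
  calc ∫ p, (Ys μ ε A p.1 p.2 i - Ys μ ε B p.1 p.2 i) ^ 2
        ∂((iidLabels (Site V)).prod (iidLabels (Site V)))
      ≤ ∫ p, 2 * ((Ys μ ε (A ∪ B) p.1 p.2 i - Ys μ ε A p.1 p.2 i) ^ 2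
          + (Ys μ ε (A ∪ B) p.1 p.2 i - Ys μ ε B p.1 p.2 i) ^ 2)
          ∂((iidLabels (Site V)).prod (iidLabels (Site V))) := by
        apply (((nY A).sub (nY B)).pow 2).integral_mono' ((Nice.const 2).mul (n1.add n2))
        intro p
        nlinarith [sq_nonneg ((Ys μ ε (A ∪ B) p.1 p.2 i - Ys μ ε A p.1 p.2 i)
          + (Ys μ ε (A ∪ B) p.1 p.2 i - Ys μ ε B p.1 p.2 i))]
    _ = 2 * (∫ p, (Ys μ ε (A ∪ B) p.1 p.2 i - Ys μ ε A p.1 p.2 i) ^ 2
          ∂((iidLabels (Site V)).prod (iidLabels (Site V)))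
        + ∫ p, (Ys μ ε (A ∪ B) p.1 p.2 i - Ys μ ε B p.1 p.2 i) ^ 2
          ∂((iidLabels (Site V)).prod (iidLabels (Site V)))) := by
        rw [integral_const_mul, n1.integral_add' n2]
    _ ≤ δ := by linarith

end

end Vale.Agent.H13.P161
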