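import Vale.Agent.H13.P161.Cov

/-!
Posterior means of spins given soft observations, and their Lipschitz property.
-/

set_option linter.unusedSectionVars false

namespace Vale.Agent.H13.P161

open MeasureTheory SimpleGraph

/-- clipping to `[-1,1]` -/
noncomputable def cl (y : ℝ) : ℝ := max (-1) (min 1 y)

lemma abs_cl_le (y : ℝ) : |cl y| ≤ 1 := by
  unfold cl
  rw [abs_le]
  constructor
  · exact le_max_left _ _
  · exact max_le (by norm_num) (min_le_left _ _)

lemma cl_of_abs_le {y : ℝ} (h : |y| ≤ 1) : cl y = y := by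
  unfold cl
  rw [abs_le] at h
  rw [min_eq_right h.2, max_eq_right h.1]

lemma cl_zero : cl 0 = 0 := cl_of_abs_le (by simp)

lemma abs_cl_sub_le (y y' : ℝ) : |cl y - cl y'| ≤ |y - y'| := by
  unfold cl
  calc |max (-1) (min 1 y) - max (-1) (min 1 y')|
      ≤ max |(-1 : ℝ) - (-1)| |min 1 y - min 1 y'| := abs_max_sub_max_le_max _ _ _ _
    _ ≤ max |(-1 : ℝ) - (-1)| (max |(1 : ℝ) - 1| |y - y'|) :=
        max_le_max le_rfl (abs_min_sub_min_le_max _ _ _ _)
    _ = |y - y'| := by simp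

lemma measurable_cl : Measurable cl := measurable_const.max (measurable_const.min measurable_id)

/-- Lipschitz estimate by changing one coordinate at a time. -/
lemma lip_of_coord {I : Type*} [DecidableEq I] (S : Finset I) (f : (I → ℝ) → ℝ) (c : I → ℝ)
    (hdep : ∀ y y' : I → ℝ, (∀ j ∈ S, y j = y' j) → f y = f y')
    (hc : ∀ j ∈ S, ∀ (y : I → ℝ) (a b : ℝ),
      |f (Function.update y j a) - f (Function.update y j b)| ≤ c j * |a - b|)
    (y y' : I → ℝ) : |f y - f y'| ≤ ∑ j ∈ S, c j * |y j - y' j| := by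
  have key : ∀ T : Finset I, T ⊆ S →
      |f y - f (fun j => if j ∈ T then y' j else y j)| ≤ ∑ j ∈ T, c j * |y j - y' j| := by
    intro T
    induction T using Finset.induction_on with
    | empty => intro _; simp
    | insert i T hi ih =>
      intro hT
      have hTS : T ⊆ S := (Finset.subset_insert _ _).trans hT
      have hiS : i ∈ S := hT (Finset.mem_insert_self _ _)
      set z : I → ℝ := fun j => if j ∈ T then y' j else y j with hz
      have e1 : z = Function.update z i (y i) := by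
        ext j
        by_cases hj : j = i
        · subst hj; simp [hz, hi]
        · simp [hj]
      have e2 : (fun j => if j ∈ insert i T then y' j else y j) = Function.update z i (y' i) := by
        ext j
        by_cases hj : j = i
        · subst hj; simp
        · simp [hz, hj]
      have h1 := ih hTS
      have h2 := hc i hiS z (y i) (y' i)
      rw [← e1] at h2
      rw [e2, Finset.sum_insert hi]
      calc |f y - f (Function.update z i (y' i))|
          = |(f y - f z) + (f z - f (Function.update z i (y' i)))| := by ring_nf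
        _ ≤ |f y - f z| + |f z - f (Function.update z i (y' i))| := abs_add_le _ _
        _ ≤ _ := by linarith
  have := key S (Finset.Subset.refl S)
  rwa [hdep (fun j => if j ∈ S then y' j else y j) y' (fun j hj => by simp [hj])] at this

variable {V : Type*} {G : SimpleGraph V} [DecidableEq V]

/-- observation sites: (round, vertex) -/
abbrev Site (V : Type*) := ℕ × V

/-- single-observation likelihood -/
noncomputable def wobs (ε : ℝ) (y : Site V → ℝ) (j : Site V) (s : ℤˣ) : ℝ :=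
  1 + ε * cl (y j) * spinVal s

lemma wobs_ge {ε : ℝ} (hε0 : 0 ≤ ε) (y : Site V → ℝ) (j : Site V) (s : ℤˣ) :
    1 - ε ≤ wobs ε y j s := by
  unfold wobs
  have h : |ε * cl (y j) * spinVal s| ≤ ε := by
    rw [abs_mul, abs_mul, abs_spinVal, mul_one, abs_of_nonneg hε0]
    exact mul_le_of_le_one_right hε0 (abs_cl_le _)
  linarith [neg_le_of_abs_le h]

lemma wobs_nonneg {ε : ℝ} (hε0 : 0 ≤ ε) (hε1 : ε < 1) (y : Site V → ℝ) (j : Site V) (s : ℤˣ) :
    0 ≤ wobs ε y j s := by linarith [wobs_ge hε0 y j s]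

/-- total weight -/
noncomputable def Wy (ε : ℝ) (S : Finset (Site V)) (y : Site V → ℝ) (σ : V → ℤˣ) : ℝ :=
  Wt (Prod.snd : Site V → V) (wobs ε y) S σ

lemma Wy_def (ε : ℝ) (S : Finset (Site V)) (y : Site V → ℝ) (σ : V → ℤˣ) :
    Wy ε S y σ = ∏ j ∈ S, (1 + ε * cl (y j) * spinVal (σ j.2)) := rfl

lemma nice_Wy_joint (ε : ℝ) (S : Finset (Site V)) :
    Nice (fun p : (Site V → ℝ) × (V → ℤˣ) => Wy ε S p.1 p.2) := by
  unfold Wy Wt wobs
  apply Nice.prod
  intro j _
  apply (Nice.const 1).add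
  have h1 : Nice (fun p : (Site V → ℝ) × (V → ℤˣ) => cl (p.1 j)) :=
    ⟨measurable_cl.comp ((measurable_pi_apply j).comp measurable_fst), 1, fun p => abs_cl_le _⟩
  exact ((Nice.const ε).mul h1).mul ((nice_spin j.2).comp measurable_snd)

lemma nice_Wy (ε : ℝ) (S : Finset (Site V)) (y : Site V → ℝ) : Nice (Wy ε S y) :=
  nice_Wt _ _ _

section

variable (μ : Measure (V → ℤˣ)) [IsProbabilityMeasure μ]

/-- normalisation -/
noncomputable def Zf (ε : ℝ) (S : Finset (Site V)) (y : Site V → ℝ) : ℝ :=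
  ∫ σ, Wy ε S y σ ∂μ

/-- numerator of the posterior mean -/
noncomputable def Nf (ε : ℝ) (v : V) (S : Finset (Site V)) (y : Site V → ℝ) : ℝ :=
  ∫ σ, Wy ε S y σ * spinVal (σ v) ∂μ

/-- posterior mean of the spin at `v` given the observations `y` at the sites of `S` -/
noncomputable def Mf (ε : ℝ) (v : V) (S : Finset (Site V)) (y : Site V → ℝ) : ℝ :=
  Nf μ ε v S y / Zf μ ε S y

variable {μ}

lemma nice_Zf (ε : ℝ) (S : Finset (Site V)) : Nice (Zf μ ε S) :=
  (nice_Wy_joint ε S).integral_right μ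

lemma nice_Nf (ε : ℝ) (v : V) (S : Finset (Site V)) : Nice (Nf μ ε v S) := by
  have : Nice (fun p : (Site V → ℝ) × (V → ℤˣ) => Wy ε S p.1 p.2 * spinVal (p.2 v)) :=
    (nice_Wy_joint ε S).mul ((nice_spin v).comp measurable_snd)
  exact this.integral_right μ

variable {ε : ℝ} (hε0 : 0 ≤ ε) (hε1 : ε < 1)

include hε0 hε1

lemma Wy_pos (S : Finset (Site V)) (y : Site V → ℝ) (σ : V → ℤˣ) :
    (1 - ε) ^ S.card ≤ Wy ε S y σ := by
  unfold Wy Wt
  rw [← Finset.prod_const]
  apply Finset.prod_le_prod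
  · intro i _; linarith
  · intro i _; exact wobs_ge hε0 y i _

lemma Zf_pos (S : Finset (Site V)) (y : Site V → ℝ) : 0 < Zf μ ε S y := by
  have h1 : (1 - ε) ^ S.card ≤ Zf μ ε S y := by
    have : ∫ _σ : V → ℤˣ, (1 - ε) ^ S.card ∂μ ≤ Zf μ ε S y :=
      (Nice.const _).integral_mono' (nice_Wy ε S y) μ (Wy_pos hε0 hε1 S y)
    simpa using this
  exact lt_of_lt_of_le (pow_pos (by linarith) _) h1

lemma abs_Nf_le (v : V) (S : Finset (Site V)) (y : Site V → ℝ) :
    |Nf μ ε v S y| ≤ Zf μ ε S y :=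
  abs_integral_Wt_spin_le _ (fun j s => wobs_nonneg hε0 hε1 y j s) S v

lemma abs_Mf_le (v : V) (S : Finset (Site V)) (y : Site V → ℝ) : |Mf μ ε v S y| ≤ 1 := by
  unfold Mf
  rw [abs_div, abs_of_pos (Zf_pos hε0 hε1 S y), div_le_one (Zf_pos hε0 hε1 S y)]
  exact abs_Nf_le hε0 hε1 v S y

lemma nice_Mf (v : V) (S : Finset (Site V)) : Nice (Mf μ ε v S) :=
  ⟨(nice_Nf ε v S).1.div (nice_Zf ε S).1, 1, fun y => abs_Mf_le hε0 hε1 v S y⟩

lemma Mf_mul_Zf (v : V) (S : Finset (Site V)) (y : Site V → ℝ) :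
    Mf μ ε v S y * Zf μ ε S y = Nf μ ε v S y := by
  unfold Mf
  exact div_mul_cancel₀ _ (Zf_pos hε0 hε1 S y).ne'

omit hε0 hε1 in
lemma Wy_congr {S : Finset (Site V)} {y y' : Site V → ℝ} (h : ∀ j ∈ S, y j = y' j) (σ : V → ℤˣ) :
    Wy ε S y σ = Wy ε S y' σ := by
  simp only [Wy_def]
  apply Finset.prod_congr rfl
  intro j hj
  rw [h j hj]

omit hε0 hε1 in
lemma Mf_congr (v : V) {S : Finset (Site V)} {y y' : Site V → ℝ} (h : ∀ j ∈ S, y j = y' j) :
    Mf μ ε v S y = Mf μ ε v S y' := by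
  unfold Mf Nf Zf
  simp only [Wy_congr h]

omit hε0 hε1 in
/-- sites with observation value `0` can be dropped -/
lemma Wy_subset {A S : Finset (Site V)} (hAS : A ⊆ S) {y y' : Site V → ℝ}
    (hy : ∀ j ∈ A, y j = y' j) (h0 : ∀ j ∈ S, j ∉ A → y j = 0) (σ : V → ℤˣ) :
    Wy ε S y σ = Wy ε A y' σ := by
  simp only [Wy_def]
  rw [← Finset.prod_subset hAS]
  · apply Finset.prod_congr rfl
    intro j hj
    rw [hy j hj]
  · intro j hj hjA
    rw [h0 j hj hjA, cl_zero]
    ring

omit hε0 hε1 in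
lemma Mf_subset (v : V) {A S : Finset (Site V)} (hAS : A ⊆ S) {y y' : Site V → ℝ}
    (hy : ∀ j ∈ A, y j = y' j) (h0 : ∀ j ∈ S, j ∉ A → y j = 0) :
    Mf μ ε v S y = Mf μ ε v A y' := by
  unfold Mf Nf Zf
  simp only [Wy_subset hAS hy h0]

omit hε0 hε1 in
lemma Wy_insert {S : Finset (Site V)} {i : Site V} (hi : i ∉ S) (y : Site V → ℝ) (σ : V → ℤˣ) :
    Wy ε (insert i S) y σ = (1 + ε * cl (y i) * spinVal (σ i.2)) * Wy ε S y σ := by
  simp only [Wy_def]
  rw [Finset.prod_insert hi]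

/-- Lipschitz estimate in one coordinate. -/
lemma Mf_coord (hG : G.IsTree) {θ : ℝ} (hθ0 : 0 ≤ θ) (hθ1 : θ ≤ 1) (hμ : EdgeFactor G θ μ)
    (v : V) {S : Finset (Site V)} {j : Site V} (hj : j ∈ S) (y : Site V → ℝ) (a b : ℝ) :
    |Mf μ ε v S (Function.update y j a) - Mf μ ε v S (Function.update y j b)|
      ≤ (ε / (1 - ε) ^ 2 * θ ^ (G.dist v j.2)) * |a - b| := by
  set S' := S.erase j with hS'
  have hjS' : j ∉ S' := Finset.notMem_erase _ _
  have hS : S = insert j S' := (Finset.insert_erase hj).symm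
  set P := ∫ σ, Wy ε S' y σ ∂μ with hP
  set p := ∫ σ, Wy ε S' y σ * spinVal (σ v) ∂μ with hp
  set r := ∫ σ, Wy ε S' y σ * spinVal (σ j.2) ∂μ with hr
  set q := ∫ σ, Wy ε S' y σ * spinVal (σ v) * spinVal (σ j.2) ∂μ with hq
  have nW := nice_Wy ε S' y
  have hW : ∀ a : ℝ, ∀ σ : V → ℤˣ, Wy ε S (Function.update y j a) σ
      = Wy ε S' y σ + ε * cl a * (Wy ε S' y σ * spinVal (σ j.2)) := by
    intro a σ
    rw [hS, Wy_insert hjS', Function.update_self,
      Wy_congr (y' := y) (fun k hk => Function.update_of_ne (by rintro rfl; exact hjS' hk) _ _)]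
    ring
  have hZ : ∀ a : ℝ, Zf μ ε S (Function.update y j a) = P + ε * cl a * r := by
    intro a
    unfold Zf
    simp only [hW]
    rw [nW.integral_add' ((Nice.const _).mul (nW.mul (nice_spin _))), integral_const_mul]
  have hN : ∀ a : ℝ, Nf μ ε v S (Function.update y j a) = p + ε * cl a * q := by
    intro a
    unfold Nf
    have : ∀ σ : V → ℤˣ, Wy ε S (Function.update y j a) σ * spinVal (σ v)
        = Wy ε S' y σ * spinVal (σ v)
          + ε * cl a * (Wy ε S' y σ * spinVal (σ v) * spinVal (σ j.2)) := by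
      intro σ; rw [hW]; ring
    simp only [this]
    rw [(nW.mul (nice_spin _)).integral_add'
      ((Nice.const _).mul ((nW.mul (nice_spin _)).mul (nice_spin _))), integral_const_mul]
  have hPpos : 0 < P := Zf_pos hε0 hε1 S' y
  have hrP : |r| ≤ P := abs_Nf_le hε0 hε1 j.2 S' y
  have hcov : |q * P - p * r| ≤ θ ^ (G.dist v j.2) * P ^ 2 := by
    have h := cov_bound (Prod.snd : Site V → V) hG hθ0 hθ1 hμ
      (fun j s => wobs_nonneg hε0 hε1 y j s) _ v j.2 rfl S'
    have h2 : |q * P - p * r| ≤ θ ^ (G.dist v j.2) * (P ^ 2 - r ^ 2) := h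
    have h3 : 0 ≤ θ ^ (G.dist v j.2) := pow_nonneg hθ0 _
    nlinarith [sq_nonneg r]
  have hden : ∀ a : ℝ, (1 - ε) * P ≤ P + ε * cl a * r := by
    intro a
    have h1 : |ε * cl a * r| ≤ ε * P := by
      rw [abs_mul, abs_mul, abs_of_nonneg hε0]
      calc ε * |cl a| * |r| ≤ ε * 1 * P := by
            apply mul_le_mul _ hrP (abs_nonneg _) (by positivity)
            exact mul_le_mul_of_nonneg_left (abs_cl_le a) hε0
        _ = ε * P := by ring
    linarith [neg_le_of_abs_le h1]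
  have h1ε : 0 < 1 - ε := by linarith
  have hda : 0 < P + ε * cl a * r := lt_of_lt_of_le (mul_pos h1ε hPpos) (hden a)
  have hdb : 0 < P + ε * cl b * r := lt_of_lt_of_le (mul_pos h1ε hPpos) (hden b)
  have hdiff : Mf μ ε v S (Function.update y j a) - Mf μ ε v S (Function.update y j b)
      = (ε * (cl a - cl b) * (q * P - p * r)) / ((P + ε * cl a * r) * (P + ε * cl b * r)) := by
    unfold Mf
    rw [hN, hN, hZ, hZ, div_sub_div _ _ hda.ne' hdb.ne']
    congr 1
    ring
  rw [hdiff, abs_div, abs_mul, abs_mul, abs_of_nonneg hε0, abs_of_pos (mul_pos hda hdb),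
    div_le_iff₀ (mul_pos hda hdb)]
  have hprod : ((1 - ε) * P) * ((1 - ε) * P) ≤ (P + ε * cl a * r) * (P + ε * cl b * r) :=
    mul_le_mul (hden a) (hden b) (mul_pos h1ε hPpos).le hda.le
  calc ε * |cl a - cl b| * |q * P - p * r|
      ≤ ε * |a - b| * (θ ^ (G.dist v j.2) * P ^ 2) := by
        apply mul_le_mul _ hcov (abs_nonneg _) (by positivity)
        exact mul_le_mul_of_nonneg_left (abs_cl_sub_le a b) hε0
    _ = ε / (1 - ε) ^ 2 * θ ^ (G.dist v j.2) * |a - b| * (((1 - ε) * P) * ((1 - ε) * P)) := by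
        field_simp
    _ ≤ ε / (1 - ε) ^ 2 * θ ^ (G.dist v j.2) * |a - b|
          * ((P + ε * cl a * r) * (P + ε * cl b * r)) := by
        apply mul_le_mul_of_nonneg_left hprod
        positivity

/-- Lipschitz estimate for the posterior mean. -/
lemma Mf_lip (hG : G.IsTree) {θ : ℝ} (hθ0 : 0 ≤ θ) (hθ1 : θ ≤ 1) (hμ : EdgeFactor G θ μ)
    (v : V) (S : Finset (Site V)) (y y' : Site V → ℝ) :
    |Mf μ ε v S y - Mf μ ε v S y'|
      ≤ ∑ j ∈ S, (ε / (1 - ε) ^ 2 * θ ^ (G.dist v j.2)) * |y j - y' j| :=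
  lip_of_coord S (Mf μ ε v S) _ (fun _ _ h => Mf_congr v h)
    (fun j hj y a b => Mf_coord hε0 hε1 hG hθ0 hθ1 hμ v hj y a b) y y'

end

end Vale.Agent.H13.P161
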