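import Vale.Agent.H13.P161.Posterior
import Vale.Agent.H13.P161.Channel

/-!
The sequential sampler of the soft observations in finite volume.
-/

set_option linter.unusedSectionVars false

namespace Vale.Agent.H13.P161

open MeasureTheory SimpleGraph

variable {V : Type*} {G : SimpleGraph V} [DecidableEq V]

/-- site `j` is processed strictly before site `i` -/
def before (U : Site V → unitInterval) (j i : Site V) : Prop :=
  j.1 < i.1 ∨ (j.1 = i.1 ∧ U j < U i)

lemma before_iff (U : Site V → unitInterval) (j i : Site V) :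
    before U j i ↔ toLex (j.1, U j) < toLex (i.1, U i) := by
  rw [Prod.Lex.toLex_lt_toLex]; rfl

lemma before_irrefl (U : Site V → unitInterval) (i : Site V) : ¬ before U i i := by
  rw [before_iff]; exact lt_irrefl _

lemma before_trans {U : Site V → unitInterval} {i j k : Site V} (h : before U i j)
    (h' : before U j k) : before U i k := by
  rw [before_iff] at *; exact lt_trans h h'

lemma before_asymm {U : Site V → unitInterval} {i j : Site V} (h : before U i j) :
    ¬ before U j i := by
  rw [before_iff] at *; exact not_lt_of_gt h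

lemma before_fst_le {U : Site V → unitInterval} {i j : Site V} (h : before U i j) :
    i.1 ≤ j.1 := by
  rcases h with h | h
  · exact h.le
  · exact h.1.le

/-- labels without ties on `S` -/
def NoTie (U : Site V → unitInterval) (S : Finset (Site V)) : Prop :=
  ∀ i ∈ S, ∀ j ∈ S, i ≠ j → U i ≠ U j

lemma NoTie.mono {U : Site V → unitInterval} {S T : Finset (Site V)} (h : NoTie U T)
    (hST : S ⊆ T) : NoTie U S := fun i hi j hj hij => h i (hST hi) j (hST hj) hij

open Classical in
/-- rank of a site in `S` -/
noncomputable def rank (U : Site V → unitInterval) (S : Finset (Site V)) (i : Site V) : ℕ :=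
  (S.filter (fun j => before U j i)).card

lemma rank_lt_of_before {U : Site V → unitInterval} {S : Finset (Site V)} {i j : Site V}
    (hj : j ∈ S) (h : before U j i) : rank U S j < rank U S i := by
  classical
  unfold rank
  apply Finset.card_lt_card
  rw [Finset.ssubset_iff_of_subset]
  · exact ⟨j, by simp [hj, h], by simp [before_irrefl]⟩
  · intro k hk
    simp only [Finset.mem_filter] at hk ⊢
    exact ⟨hk.1, before_trans hk.2 h⟩

lemma rank_lt_card {U : Site V → unitInterval} {S : Finset (Site V)} {i : Site V}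
    (hi : i ∈ S) : rank U S i < S.card := by
  classical
  unfold rank
  apply Finset.card_lt_card
  rw [Finset.ssubset_iff_of_subset (Finset.filter_subset _ _)]
  exact ⟨i, hi, by simp [before_irrefl]⟩

lemma before_induction (U : Site V → unitInterval) (S : Finset (Site V)) {p : Site V → Prop}
    (h : ∀ i ∈ S, (∀ j ∈ S, before U j i → p j) → p i) : ∀ i ∈ S, p i := by
  have key : ∀ n, ∀ i ∈ S, rank U S i < n → p i := by
    intro n
    induction n with
    | zero => intro i _ h; omega
    | succ n ih =>
      intro i hi hr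
      apply h i hi
      intro j hj hb
      have := rank_lt_of_before hj hb
      exact ih j hj (by omega)
  intro i hi
  exact key _ i hi (rank_lt_card hi)

open Classical in
/-- keep only the observations made before `i` -/
noncomputable def mask (U : Site V → unitInterval) (i : Site V) (y : Site V → ℝ) : Site V → ℝ :=
  fun j => if before U j i then y j else 0

/-- keep only the observations at the sites of `S` -/
def res (S : Finset (Site V)) (y : Site V → ℝ) : Site V → ℝ := fun j => if j ∈ S then y j else 0

lemma mask_congr {U : Site V → unitInterval} {i : Site V} {y y' : Site V → ℝ} {j : Site V}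
    (h : before U j i → y j = y' j) : mask U i y j = mask U i y' j := by
  unfold mask
  split_ifs with hb
  · exact h hb
  · rfl

lemma measurable_before_set (j i : Site V) :
    MeasurableSet {U : Site V → unitInterval | before U j i} := by
  have h : MeasurableSet {U : Site V → unitInterval | U j < U i} :=
    measurableSet_lt (measurable_pi_apply j) (measurable_pi_apply i)
  have h2 : {U : Site V → unitInterval | before U j i}
      = {_U | j.1 < i.1} ∪ ({_U | j.1 = i.1} ∩ {U : Site V → unitInterval | U j < U i}) := by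
    ext U; rfl
  rw [h2]
  exact (MeasurableSet.const _).union ((MeasurableSet.const _).inter h)

section

variable (μ : Measure (V → ℤˣ)) [IsProbabilityMeasure μ] (ε : ℝ)

/-- one sweep of the sampler -/
noncomputable def step (S : Finset (Site V)) (U ξ : Site V → unitInterval) (y : Site V → ℝ) :
    Site V → ℝ :=
  fun i => if i ∈ S then Qc (ε * Mf μ ε i.2 S (mask U i y)) (ξ i) else 0

lemma step_mem {S : Finset (Site V)} (U ξ : Site V → unitInterval) (y : Site V → ℝ)
    {i : Site V} (hi : i ∈ S) :
    step μ ε S U ξ y i = Qc (ε * Mf μ ε i.2 S (mask U i y)) (ξ i) := by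
  unfold step; rw [if_pos hi]

lemma step_notMem {S : Finset (Site V)} (U ξ : Site V → unitInterval) (y : Site V → ℝ)
    {i : Site V} (hi : i ∉ S) : step μ ε S U ξ y i = 0 := by
  unfold step; rw [if_neg hi]

/-- the sequentially sampled observations in the finite volume `S` -/
noncomputable def Ys (S : Finset (Site V)) (U ξ : Site V → unitInterval) : Site V → ℝ :=
  (step μ ε S U ξ)^[S.card] (fun _ => 0)

/-- defining equations of the sequential sampler -/
def IsSol (S : Finset (Site V)) (U ξ : Site V → unitInterval) (y : Site V → ℝ) : Prop :=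
  (∀ i ∈ S, y i = Qc (ε * Mf μ ε i.2 S (mask U i y)) (ξ i)) ∧ ∀ i, i ∉ S → y i = 0

variable {μ ε}

lemma IsSol.unique {S : Finset (Site V)} {U ξ : Site V → unitInterval} {y y' : Site V → ℝ}
    (h : IsSol μ ε S U ξ y) (h' : IsSol μ ε S U ξ y') : y = y' := by
  ext i
  by_cases hi : i ∈ S
  · refine before_induction U S (p := fun i => y i = y' i) ?_ i hi
    intro i hi hb
    show y i = y' i
    rw [h.1 i hi, h'.1 i hi, Mf_congr i.2 (fun j hj => mask_congr (hb j hj))]
  · rw [h.2 i hi, h'.2 i hi]

lemma Ys_isSol (S : Finset (Site V)) (U ξ : Site V → unitInterval) :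
    IsSol μ ε S U ξ (Ys μ ε S U ξ) := by
  have key : ∀ n, ∀ i ∈ S, rank U S i < n →
      (step μ ε S U ξ)^[n] (fun _ => 0) i = (step μ ε S U ξ)^[n+1] (fun _ => 0) i := by
    intro n
    induction n with
    | zero => intro i _ h; omega
    | succ n ih =>
      intro i hi hr
      rw [Function.iterate_succ_apply', Function.iterate_succ_apply' _ (n+1),
        step_mem μ ε U ξ _ hi, step_mem μ ε U ξ _ hi]
      have e : Mf μ ε i.2 S (mask U i ((step μ ε S U ξ)^[n] (fun _ => 0)))
          = Mf μ ε i.2 S (mask U i ((step μ ε S U ξ)^[n+1] (fun _ => 0))) := by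
        apply Mf_congr
        intro j hj
        apply mask_congr
        intro hb
        have := rank_lt_of_before hj hb
        exact ih j hj (by omega)
      rw [e]
  refine ⟨fun i hi => ?_, fun i hi => ?_⟩
  · have := key S.card i hi (rank_lt_card hi)
    rw [Function.iterate_succ_apply', step_mem μ ε U ξ _ hi] at this
    exact this
  · unfold Ys
    cases hc : S.card with
    | zero => rfl
    | succ n =>
      rw [Function.iterate_succ_apply', step_notMem μ ε U ξ _ hi]

lemma Ys_eq (S : Finset (Site V)) (U ξ : Site V → unitInterval) {i : Site V} (hi : i ∈ S) :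
    Ys μ ε S U ξ i = Qc (ε * Mf μ ε i.2 S (mask U i (Ys μ ε S U ξ))) (ξ i) :=
  (Ys_isSol S U ξ).1 i hi

lemma Ys_off (S : Finset (Site V)) (U ξ : Site V → unitInterval) {i : Site V} (hi : i ∉ S) :
    Ys μ ε S U ξ i = 0 :=
  (Ys_isSol S U ξ).2 i hi

lemma Ys_congr (S : Finset (Site V)) (U : Site V → unitInterval) {ξ ξ' : Site V → unitInterval}
    (h : ∀ i ∈ S, ξ i = ξ' i) : Ys μ ε S U ξ = Ys μ ε S U ξ' := by
  apply IsSol.unique (Ys_isSol S U ξ)
  refine ⟨fun i hi => ?_, fun i hi => Ys_off S U ξ' hi⟩
  rw [Ys_eq S U ξ' hi, h i hi]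

lemma measurable_mask {Ω : Type*} [MeasurableSpace Ω] {u : Ω → Site V → unitInterval}
    {f : Ω → Site V → ℝ} (hu : Measurable u) (hf : Measurable f) (i : Site V) :
    Measurable (fun ω => mask (u ω) i (f ω)) := by
  classical
  rw [measurable_pi_iff]
  intro j
  unfold mask
  exact Measurable.ite (hu (measurable_before_set j i)) ((measurable_pi_apply j).comp hf)
    measurable_const

variable (hε0 : 0 ≤ ε) (hε1 : ε < 1)

include hε0 hε1

lemma abs_εM_le (v : V) (S : Finset (Site V)) (y : Site V → ℝ) : |ε * Mf μ ε v S y| ≤ ε := by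
  rw [abs_mul, abs_of_nonneg hε0]
  exact mul_le_of_le_one_right hε0 (abs_Mf_le hε0 hε1 v S y)

lemma abs_εM_lt (v : V) (S : Finset (Site V)) (y : Site V → ℝ) : |ε * Mf μ ε v S y| < 1 :=
  lt_of_le_of_lt (abs_εM_le hε0 hε1 v S y) hε1

lemma measurable_step {Ω : Type*} [MeasurableSpace Ω] {u x : Ω → Site V → unitInterval}
    {f : Ω → Site V → ℝ} (hu : Measurable u) (hx : Measurable x) (hf : Measurable f)
    (S : Finset (Site V)) :
    Measurable (fun ω => step μ ε S (u ω) (x ω) (f ω)) := by
  rw [measurable_pi_iff]
  intro i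
  unfold step
  by_cases hi : i ∈ S
  · simp only [if_pos hi]
    have h1 : Measurable (fun ω => ε * Mf μ ε i.2 S (mask (u ω) i (f ω))) :=
      ((nice_Mf hε0 hε1 i.2 S).1.comp (measurable_mask hu hf i)).const_mul ε
    have h2 : Measurable (fun ω => ((x ω i : unitInterval) : ℝ)) :=
      measurable_subtype_coe.comp ((measurable_pi_apply i).comp hx)
    exact measurable_Qc.comp (h1.prodMk h2)
  · simp only [if_neg hi]
    exact measurable_const

lemma measurable_Ys (S : Finset (Site V)) :
    Measurable (fun p : (Site V → unitInterval) × (Site V → unitInterval) =>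
      Ys μ ε S p.1 p.2) := by
  unfold Ys
  generalize S.card = n
  induction n with
  | zero => exact measurable_const
  | succ n ih =>
    simp only [Function.iterate_succ_apply']
    exact measurable_step hε0 hε1 measurable_fst measurable_snd ih S

lemma abs_Ys_le (S : Finset (Site V)) (U ξ : Site V → unitInterval) (i : Site V) :
    |Ys μ ε S U ξ i| ≤ 1 := by
  by_cases hi : i ∈ S
  · rw [Ys_eq S U ξ hi]
    exact abs_Qc_le (abs_εM_lt hε0 hε1 _ _ _) (ξ i).2.1 (ξ i).2.2
  · rw [Ys_off S U ξ hi]; simp

lemma nice_Ys (S : Finset (Site V)) (i : Site V) :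
    Nice (fun p : (Site V → unitInterval) × (Site V → unitInterval) => Ys μ ε S p.1 p.2 i) :=
  ⟨(measurable_pi_apply i).comp (measurable_Ys hε0 hε1 S), 1,
    fun p => abs_Ys_le hε0 hε1 S p.1 p.2 i⟩

lemma measurable_Ys_right (S : Finset (Site V)) (U : Site V → unitInterval) :
    Measurable (fun ξ : Site V → unitInterval => Ys μ ε S U ξ) := by
  have h1 : Measurable (fun ξ : Site V → unitInterval => ((U, ξ) :
      (Site V → unitInterval) × (Site V → unitInterval))) := measurable_prodMk_left
  have h2 := (measurable_Ys (μ := μ) hε0 hε1 S).comp h1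
  exact h2

/-! ### Inverse of the sampler -/

omit hε0 hε1 in
variable (μ ε) in
/-- recover the driving noise from the observations -/
noncomputable def Psi (S : Finset (Site V)) (U : Site V → unitInterval) (y : Site V → ℝ) :
    Site V → unitInterval :=
  fun i => if i ∈ S then
    Set.projIcc (0 : ℝ) 1 zero_le_one (Fc (ε * Mf μ ε i.2 S (mask U i y)) (y i)) else 0

lemma Psi_coe {S : Finset (Site V)} (U : Site V → unitInterval) {y : Site V → ℝ} {i : Site V}
    (hi : i ∈ S) (hy : |y i| ≤ 1) :
    ((Psi μ ε S U y i : unitInterval) : ℝ) = Fc (ε * Mf μ ε i.2 S (mask U i y)) (y i) := by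
  unfold Psi
  rw [if_pos hi]
  exact congrArg Subtype.val (Set.projIcc_of_mem zero_le_one
    (Fc_mem (abs_εM_lt hε0 hε1 _ _ _) hy))

lemma Psi_Ys (S : Finset (Site V)) (U ξ : Site V → unitInterval) {i : Site V} (hi : i ∈ S) :
    Psi μ ε S U (Ys μ ε S U ξ) i = ξ i := by
  apply Subtype.ext
  rw [Psi_coe hε0 hε1 U hi (abs_Ys_le hε0 hε1 S U ξ i)]
  have e := Ys_eq (μ := μ) (ε := ε) S U ξ hi
  generalize hc : ε * Mf μ ε i.2 S (mask U i (Ys μ ε S U ξ)) = c at e ⊢
  rw [e]
  exact Fc_Qc (ξ i).2.1 (ξ i).2.2

lemma Ys_Psi (S : Finset (Site V)) (U : Site V → unitInterval) {y : Site V → ℝ}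
    (hy : ∀ i ∈ S, |y i| ≤ 1) : Ys μ ε S U (Psi μ ε S U y) = res S y := by
  apply IsSol.unique (Ys_isSol S U _)
  refine ⟨fun i hi => ?_, fun i hi => by simp [res, hi]⟩
  rw [Psi_coe hε0 hε1 U hi (hy i hi)]
  have e : Mf μ ε i.2 S (mask U i (res S y)) = Mf μ ε i.2 S (mask U i y) :=
    Mf_congr i.2 (fun j hj => mask_congr (fun _ => by simp [res, hj]))
  rw [e, Qc_Fc (abs_εM_lt hε0 hε1 _ _ _) (hy i hi)]
  simp [res, hi]

omit hε0 hε1 in
lemma Psi_congr {S : Finset (Site V)} (U : Site V → unitInterval) {y y' : Site V → ℝ}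
    (h : ∀ i ∈ S, y i = y' i) : Psi μ ε S U y = Psi μ ε S U y' := by
  ext i
  unfold Psi
  split_ifs with hi
  · rw [Mf_congr i.2 (fun j hj => mask_congr (fun _ => h j hj)), h i hi]
  · rfl

lemma measurable_Psi (S : Finset (Site V)) (U : Site V → unitInterval) :
    Measurable (Psi μ ε S U) := by
  rw [measurable_pi_iff]
  intro i
  unfold Psi
  by_cases hi : i ∈ S
  · simp only [if_pos hi]
    have h1 : Measurable (fun y : Site V → ℝ => ε * Mf μ ε i.2 S (mask U i y)) :=
      ((nice_Mf hε0 hε1 i.2 S).1.comp
        (measurable_mask measurable_const measurable_id i)).const_mul ε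
    have h2 : Measurable (fun y : Site V → ℝ => Fc (ε * Mf μ ε i.2 S (mask U i y)) (y i)) :=
      measurable_Fc.comp (h1.prodMk (measurable_pi_apply i))
    exact (continuous_projIcc.measurable).comp h2
  · simp only [if_neg hi]
    exact measurable_const

end

end Vale.Agent.H13.P161
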