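import Mathlib

/-!
Distance facts for trees and counting of spheres in regular graphs.
-/

namespace Vale.Agent.H13.P161

open SimpleGraph

variable {V : Type*} {G : SimpleGraph V}

/-- In a connected graph every vertex different from `u` has a neighbour closer to `u`. -/
lemma exists_parent (hG : G.Connected) {u v : V} (h : u ≠ v) :
    ∃ w, G.Adj v w ∧ G.dist u v = G.dist u w + 1 := by
  obtain ⟨p, hp⟩ := hG.exists_walk_length_eq_dist v u
  cases p with
  | nil => exact absurd rfl h
  | @cons _ w _ hadj q =>
    refine ⟨w, hadj, ?_⟩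
    have h1 : G.dist w u ≤ q.length := G.dist_le q
    rw [Walk.length_cons] at hp
    have h2 : G.dist v u ≤ G.dist v w + G.dist w u := hG.dist_triangle
    have h3 : G.dist v w = 1 := dist_eq_one_iff_adj.mpr hadj
    rw [G.dist_comm (u := u) (v := v), G.dist_comm (u := u) (v := w)]
    omega

/-- In a tree the neighbour closer to `u` is unique. -/
lemma parent_unique (hG : G.IsTree) {u v w w' : V} (hw : G.Adj v w) (hw' : G.Adj v w')
    (h : G.dist u v = G.dist u w + 1) (h' : G.dist u v = G.dist u w' + 1) : w = w' := by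
  obtain ⟨p, hp⟩ := hG.connected.exists_walk_length_eq_dist w u
  obtain ⟨q, hq⟩ := hG.connected.exists_walk_length_eq_dist w' u
  have hc : G.dist v u = G.dist u v := G.dist_comm
  have hcw : G.dist w u = G.dist u w := G.dist_comm
  have hcw' : G.dist w' u = G.dist u w' := G.dist_comm
  have h1 : (Walk.cons hw p).IsPath := by
    apply Walk.isPath_of_length_eq_dist
    rw [Walk.length_cons]; omega
  have h2 : (Walk.cons hw' q).IsPath := by
    apply Walk.isPath_of_length_eq_dist
    rw [Walk.length_cons]; omega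
  have h3 := (hG.existsUnique_path v u).unique h1 h2
  have h4 : (Walk.cons hw p).snd = (Walk.cons hw' q).snd := by rw [h3]
  simpa using h4

/-- The only edge joining the two sides of the edge `a b` is `a b` itself. -/
lemma side_adj (hG : G.IsTree) {a b x y : V} (hab : G.Adj a b)
    (hx : G.dist x a < G.dist x b) (hy : G.dist y b < G.dist y a) (hxy : G.Adj x y) :
    x = a ∧ y = b := by
  have e1 := hG.dist_eq_dist_add_one_of_adj x hab
  have e2 := hG.dist_eq_dist_add_one_of_adj y hab
  have e3 := hG.dist_eq_dist_add_one_of_adj a hxy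
  have e4 := hG.dist_eq_dist_add_one_of_adj b hxy
  have c1 : G.dist a x = G.dist x a := G.dist_comm
  have c2 : G.dist a y = G.dist y a := G.dist_comm
  have c3 : G.dist b x = G.dist x b := G.dist_comm
  have c4 : G.dist b y = G.dist y b := G.dist_comm
  by_cases hxa : a = x
  · subst hxa
    have h0 : G.dist a a = 0 := by simp
    refine ⟨rfl, ?_⟩
    have : G.dist b y = 0 := by omega
    exact ((hG.connected.dist_eq_zero_iff).mp this).symm
  · exfalso
    obtain ⟨x', hx', hd⟩ := exists_parent hG.connected hxa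
    -- x' is closer to a than x; it is also closer to b than x
    have c5 : G.dist a x' = G.dist x' a := G.dist_comm
    have c6 : G.dist b x' = G.dist x' b := G.dist_comm
    have hadj1 : G.dist a b = 1 := dist_eq_one_iff_adj.mpr hab
    have t1 : G.dist x' b ≤ G.dist x' a + G.dist a b := hG.connected.dist_triangle
    have e5 := hG.dist_eq_dist_add_one_of_adj b hx'
    have hpar : G.dist b x = G.dist b x' + 1 := by omega
    have hpar2 : G.dist b x = G.dist b y + 1 := by omega
    have : x' = y := parent_unique hG hx' hxy hpar hpar2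
    subst this
    omega

/-- Additivity of the distance across an edge. -/
lemma dist_across (hG : G.IsTree) {a b : V} (hab : G.Adj a b) :
    ∀ (n : ℕ) (x y : V), G.dist x y = n → G.dist x a < G.dist x b → G.dist y b < G.dist y a →
      G.dist x y = G.dist x a + 1 + G.dist b y := by
  intro n
  induction n with
  | zero =>
    intro x y hn hx hy
    have : x = y := (hG.connected.dist_eq_zero_iff).mp hn
    subst this
    omega
  | succ n ih =>
    intro x y hn hx hy
    have hxy : y ≠ x := by
      rintro rfl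
      simp at hn
    obtain ⟨x', hx', hd⟩ := exists_parent hG.connected hxy
    have c1 : G.dist y x = G.dist x y := G.dist_comm
    have c2 : G.dist y x' = G.dist x' y := G.dist_comm
    have e1 := hG.dist_eq_dist_add_one_of_adj x' hab
    have hxx' : G.dist x x' = 1 := dist_eq_one_iff_adj.mpr hx'
    rcases e1 with e1 | e1
    · -- x' on the side of b
      have hside := side_adj hG hab hx (by omega) hx'
      obtain ⟨rfl, rfl⟩ := hside
      have : G.dist x x = 0 := by simp
      omega
    · have hih := ih x' y (by omega) (by omega) hy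
      have t1 : G.dist x a ≤ G.dist x x' + G.dist x' a := hG.connected.dist_triangle
      have hadj1 : G.dist a b = 1 := dist_eq_one_iff_adj.mpr hab
      have t2 : G.dist x y ≤ G.dist x a + G.dist a y := hG.connected.dist_triangle
      have t3 : G.dist a y ≤ G.dist a b + G.dist b y := hG.connected.dist_triangle
      omega

lemma dist_across' (hG : G.IsTree) {a b x y : V} (hab : G.Adj a b)
    (hx : G.dist x a < G.dist x b) (hy : G.dist y b < G.dist y a) :
    G.dist x y = G.dist x a + 1 + G.dist b y :=
  dist_across hG hab _ x y rfl hx hy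

section Counting

variable [LocallyFinite G] [DecidableEq V]

/-- Sphere of radius `n` around `v`. -/
noncomputable def sph (G : SimpleGraph V) [LocallyFinite G] (v : V) : ℕ → Finset V
  | 0 => {v}
  | n + 1 => (sph G v n).biUnion (fun p => (G.neighborFinset p).filter (fun q => G.dist v q = n + 1))

lemma mem_sph (hG : G.Connected) (v : V) : ∀ (n : ℕ) (w : V), w ∈ sph G v n ↔ G.dist v w = n := by
  intro n
  induction n with
  | zero =>
    intro w
    simp only [sph, Finset.mem_singleton]
    rw [hG.dist_eq_zero_iff]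
    exact eq_comm
  | succ n ih =>
    intro w
    simp only [sph, Finset.mem_biUnion, Finset.mem_filter, mem_neighborFinset]
    constructor
    · rintro ⟨p, _, _, h⟩; exact h
    · intro h
      have hne : v ≠ w := by
        rintro rfl
        simp at h
      obtain ⟨p, hp, hd⟩ := exists_parent hG hne
      exact ⟨p, (ih p).mpr (by omega), hp.symm, h⟩

lemma card_sph_le (hG : G.Connected) {d : ℕ} (hd : 2 ≤ d) (hreg : ∀ v, G.degree v = d) (v : V) :
    ∀ n, ((sph G v n).card : ℝ) ≤ 2 * ((d : ℝ) - 1) ^ n := by
  have hd' : (2 : ℝ) ≤ d := by exact_mod_cast hd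
  have key : ∀ n, (sph G v (n+1)).card ≤ d * (d - 1) ^ n := by
    intro n
    induction n with
    | zero =>
      simp only [sph, Finset.singleton_biUnion, pow_zero, mul_one]
      calc _ ≤ (G.neighborFinset v).card := Finset.card_filter_le _ _
        _ = d := by rw [card_neighborFinset_eq_degree, hreg]
    | succ n ih =>
      calc (sph G v (n + 1 + 1)).card
          ≤ ∑ p ∈ sph G v (n+1), ((G.neighborFinset p).filter
              (fun q => G.dist v q = n + 1 + 1)).card := Finset.card_biUnion_le
        _ ≤ ∑ p ∈ sph G v (n+1), (d - 1) := by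
            apply Finset.sum_le_sum
            intro p hp
            have hpd : G.dist v p = n + 1 := (mem_sph hG v _ _).mp hp
            have hne : v ≠ p := by
              rintro rfl
              simp at hpd
            obtain ⟨p', hp', hd''⟩ := exists_parent hG hne
            have hsub : (G.neighborFinset p).filter (fun q => G.dist v q = n + 1 + 1)
                ⊆ (G.neighborFinset p).erase p' := by
              intro q hq
              simp only [Finset.mem_filter] at hq
              refine Finset.mem_erase.mpr ⟨?_, hq.1⟩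
              rintro rfl
              omega
            calc _ ≤ ((G.neighborFinset p).erase p').card := Finset.card_le_card hsub
              _ = d - 1 := by
                rw [Finset.card_erase_of_mem (by simpa using hp'), card_neighborFinset_eq_degree,
                  hreg]
        _ = (sph G v (n+1)).card * (d - 1) := by rw [Finset.sum_const, smul_eq_mul]
        _ ≤ (d * (d - 1) ^ n) * (d - 1) := Nat.mul_le_mul_right _ ih
        _ = d * (d - 1) ^ (n + 1) := by ring
  intro n
  cases n with
  | zero => simp [sph]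
  | succ n =>
    have h1 : ((sph G v (n+1)).card : ℝ) ≤ (d : ℝ) * ((d : ℝ) - 1) ^ n := by
      have := key n
      have h2 : ((sph G v (n+1)).card : ℝ) ≤ ((d * (d - 1) ^ n : ℕ) : ℝ) := by exact_mod_cast this
      rw [Nat.cast_mul, Nat.cast_pow, Nat.cast_sub (by omega)] at h2
      simpa using h2
    calc ((sph G v (n+1)).card : ℝ) ≤ (d : ℝ) * ((d : ℝ) - 1) ^ n := h1
      _ ≤ (2 * ((d : ℝ) - 1)) * ((d : ℝ) - 1) ^ n := by
          apply mul_le_mul_of_nonneg_right
          · linarith
          · apply pow_nonneg; linarith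
      _ = 2 * ((d : ℝ) - 1) ^ (n + 1) := by ring

/-- Tail sums of `x ^ dist` over any finite set. -/
lemma sum_pow_dist_le (hG : G.Connected) {d : ℕ} (hd : 2 ≤ d) (hreg : ∀ v, G.degree v = d)
    (v : V) {x : ℝ} (hx : 0 ≤ x) (hx1 : ((d : ℝ) - 1) * x < 1) (R : ℕ) (F : Finset V) :
    ∑ w ∈ F.filter (fun w => R ≤ G.dist v w), x ^ (G.dist v w)
      ≤ 2 * (((d : ℝ) - 1) * x) ^ R / (1 - ((d : ℝ) - 1) * x) := by
  have hd' : (2 : ℝ) ≤ d := by exact_mod_cast hd
  set q : ℝ := ((d : ℝ) - 1) * x with hq
  have hq0 : 0 ≤ q := mul_nonneg (by linarith) hx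
  set F' := F.filter (fun w => R ≤ G.dist v w) with hF'
  -- bound on the distances
  obtain ⟨N, hN⟩ : ∃ N, ∀ w ∈ F', G.dist v w < R + N := by
    refine ⟨F'.sup (fun w => G.dist v w) + 1, fun w hw => ?_⟩
    have : G.dist v w ≤ F'.sup (fun w => G.dist v w) :=
      Finset.le_sup (f := fun w => G.dist v w) hw
    omega
  have h1 : ∑ w ∈ F', x ^ (G.dist v w)
      = ∑ n ∈ Finset.Ico R (R + N), ∑ w ∈ F'.filter (fun w => G.dist v w = n), x ^ (G.dist v w) := by
    rw [Finset.sum_fiberwise_of_maps_to]
    intro w hw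
    rw [Finset.mem_Ico]
    exact ⟨(Finset.mem_filter.mp hw).2, hN w hw⟩
  rw [h1]
  calc ∑ n ∈ Finset.Ico R (R + N), ∑ w ∈ F'.filter (fun w => G.dist v w = n), x ^ (G.dist v w)
      ≤ ∑ n ∈ Finset.Ico R (R + N), 2 * q ^ n := by
        apply Finset.sum_le_sum
        intro n _
        calc ∑ w ∈ F'.filter (fun w => G.dist v w = n), x ^ (G.dist v w)
            = ∑ w ∈ F'.filter (fun w => G.dist v w = n), x ^ n := by
              apply Finset.sum_congr rfl
              intro w hw
              rw [(Finset.mem_filter.mp hw).2]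
          _ = (F'.filter (fun w => G.dist v w = n)).card * x ^ n := by
              rw [Finset.sum_const, nsmul_eq_mul]
          _ ≤ (sph G v n).card * x ^ n := by
              apply mul_le_mul_of_nonneg_right _ (pow_nonneg hx n)
              have : F'.filter (fun w => G.dist v w = n) ⊆ sph G v n := by
                intro w hw
                exact (mem_sph hG v n w).mpr (Finset.mem_filter.mp hw).2
              exact_mod_cast Finset.card_le_card this
          _ ≤ (2 * ((d : ℝ) - 1) ^ n) * x ^ n :=
              mul_le_mul_of_nonneg_right (card_sph_le hG hd hreg v n) (pow_nonneg hx n)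
          _ = 2 * q ^ n := by rw [hq, mul_pow]; ring
    _ = 2 * q ^ R * ∑ n ∈ Finset.range N, q ^ n := by
        rw [Finset.sum_Ico_eq_sum_range]
        simp only [add_tsub_cancel_left]
        rw [Finset.mul_sum]
        apply Finset.sum_congr rfl
        intro n _
        rw [pow_add]; ring
    _ ≤ 2 * q ^ R * (1 / (1 - q)) := by
        apply mul_le_mul_of_nonneg_left
        · have := geom_sum_lt_of_lt_one_aux q hq0 hx1 N
          exact this
        · positivity
    _ = 2 * q ^ R / (1 - q) := by ring
where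
  geom_sum_lt_of_lt_one_aux (q : ℝ) (hq0 : 0 ≤ q) (hq1 : q < 1) (N : ℕ) :
      ∑ n ∈ Finset.range N, q ^ n ≤ 1 / (1 - q) := by
    rw [one_div]
    exact geom_sum_le_of_lt_one hq0 hq1 N
  geom_sum_le_of_lt_one {q : ℝ} (hq0 : 0 ≤ q) (hq1 : q < 1) (N : ℕ) :
      ∑ n ∈ Finset.range N, q ^ n ≤ (1 - q)⁻¹ := by
    rw [← tsum_geometric_of_lt_one hq0 hq1]
    exact (summable_geometric_of_lt_one hq0 hq1).sum_le_tsum _ (fun n _ => pow_nonneg hq0 n)

lemma sum_pow_dist_le' (hG : G.Connected) {d : ℕ} (hd : 2 ≤ d) (hreg : ∀ v, G.degree v = d)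
    (v : V) {x : ℝ} (hx : 0 ≤ x) (hx1 : ((d : ℝ) - 1) * x < 1) (F : Finset V) :
    ∑ w ∈ F, x ^ (G.dist v w) ≤ 2 / (1 - ((d : ℝ) - 1) * x) := by
  have := sum_pow_dist_le hG hd hreg v hx hx1 0 F
  simpa using this

/-- The kernel inequality: convolution of `θ ^ dist` and `ρ ^ dist`. -/
lemma kernel_ineq (hG : G.IsTree) {d : ℕ} (hd : 2 ≤ d) (hreg : ∀ v, G.degree v = d)
    {θ ρ : ℝ} (hθ : 0 ≤ θ) (hθρ : θ < ρ) (hρ : ((d : ℝ) - 1) * (θ * ρ) < 1) (F : Finset V) (u : V) :
    ∀ (n : ℕ) (v : V), G.dist v u = n →
    ∑ w ∈ F, θ ^ (G.dist v w) * ρ ^ (G.dist w u)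
      ≤ (2 / (1 - ((d : ℝ) - 1) * (θ * ρ)) / (1 - θ / ρ)) * ρ ^ n := by
  have hρ0 : 0 < ρ := lt_of_le_of_lt hθ hθρ
  have hr1 : θ / ρ < 1 := (div_lt_one hρ0).mpr hθρ
  have hr0 : 0 ≤ θ / ρ := div_nonneg hθ hρ0.le
  set B : ℝ := 2 / (1 - ((d : ℝ) - 1) * (θ * ρ)) with hB
  have hBpos : 0 ≤ B := div_nonneg (by norm_num) (by linarith)
  have hden : 0 < 1 - θ / ρ := by linarith
  have hθρ0 : 0 ≤ θ * ρ := mul_nonneg hθ hρ0.le
  have hBle : B ≤ B / (1 - θ / ρ) := by
    rw [le_div_iff₀ hden]
    nlinarith
  intro n
  induction n with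
  | zero =>
    intro v hv
    have hvu : v = u := (hG.connected.dist_eq_zero_iff).mp hv
    subst hvu
    calc ∑ w ∈ F, θ ^ (G.dist v w) * ρ ^ (G.dist w v)
        = ∑ w ∈ F, (θ * ρ) ^ (G.dist v w) := by
          apply Finset.sum_congr rfl
          intro w _
          rw [G.dist_comm (u := w), mul_pow]
      _ ≤ B := sum_pow_dist_le' hG.connected hd hreg v hθρ0 hρ F
      _ ≤ B / (1 - θ / ρ) * ρ ^ 0 := by simpa using hBle
  | succ n ih =>
    intro v hv
    have hne : u ≠ v := by
      rintro rfl
      simp at hv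
    obtain ⟨v', hv', hd'⟩ := exists_parent hG.connected hne
    have c1 : G.dist u v = G.dist v u := G.dist_comm
    have c2 : G.dist u v' = G.dist v' u := G.dist_comm
    have hih := ih v' (by omega)
    have hterm : ∀ w ∈ F, θ ^ (G.dist v w) * ρ ^ (G.dist w u)
        ≤ ρ ^ (n+1) * (θ * ρ) ^ (G.dist v w) + θ * (θ ^ (G.dist v' w) * ρ ^ (G.dist w u)) := by
      intro w _
      have e := hG.dist_eq_dist_add_one_of_adj w hv'
      have c3 : G.dist v w = G.dist w v := G.dist_comm
      have c4 : G.dist v' w = G.dist w v' := G.dist_comm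
      have n1 : 0 ≤ ρ ^ (n+1) * (θ * ρ) ^ (G.dist v w) := by positivity
      have n2 : 0 ≤ θ * (θ ^ (G.dist v' w) * ρ ^ (G.dist w u)) := by positivity
      rcases e with e | e
      · -- w closer to v'
        have : θ ^ (G.dist v w) * ρ ^ (G.dist w u)
            = θ * (θ ^ (G.dist v' w) * ρ ^ (G.dist w u)) := by
          rw [c3, e, c4, pow_succ]; ring
        linarith
      · -- w closer to v
        have hd1 : G.dist w u = G.dist w v + 1 + G.dist v' u :=
          dist_across' hG hv' (by omega) (by omega)
        have : θ ^ (G.dist v w) * ρ ^ (G.dist w u)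
            = ρ ^ (n+1) * (θ * ρ) ^ (G.dist v w) := by
          have : G.dist w u = G.dist v w + (n + 1) := by omega
          rw [this, pow_add, mul_pow]; ring
        linarith
    calc ∑ w ∈ F, θ ^ (G.dist v w) * ρ ^ (G.dist w u)
        ≤ ∑ w ∈ F, (ρ ^ (n+1) * (θ * ρ) ^ (G.dist v w)
            + θ * (θ ^ (G.dist v' w) * ρ ^ (G.dist w u))) := Finset.sum_le_sum hterm
      _ = ρ ^ (n+1) * ∑ w ∈ F, (θ * ρ) ^ (G.dist v w)
            + θ * ∑ w ∈ F, θ ^ (G.dist v' w) * ρ ^ (G.dist w u) := by
          rw [Finset.sum_add_distrib, Finset.mul_sum, Finset.mul_sum]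
      _ ≤ ρ ^ (n+1) * B + θ * ((B / (1 - θ / ρ)) * ρ ^ n) := by
          apply add_le_add
          · exact mul_le_mul_of_nonneg_left
              (sum_pow_dist_le' hG.connected hd hreg v hθρ0 hρ F) (by positivity)
          · exact mul_le_mul_of_nonneg_left hih hθ
      _ = (B / (1 - θ / ρ)) * ρ ^ (n+1) := by
          have hne1 : ρ ≠ 0 := hρ0.ne'
          have hne2 : ρ - θ ≠ 0 := (sub_pos.mpr hθρ).ne'
          have e1 : 1 - θ / ρ = (ρ - θ) / ρ := by field_simp
          rw [e1]
          field_simp
          ring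

end Counting

end Vale.Agent.H13.P161
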